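import Mathlib

open scoped ENNReal NNReal

namespace Vale.Agent.P074.Third

variable {ι : Type*} [Fintype ι]

theorem sqrt_sub_sq_aux (p q : ℝ) (hp : 0 < p) (hq : 0 < q) :
    (Real.sqrt p - Real.sqrt q) ^ 2 = p + q - 2 * Real.sqrt (p * q) := by
  rw [Real.sqrt_mul hp.le]
  have h1 := Real.sq_sqrt hp.le
  have h2 := Real.sq_sqrt hq.le
  nlinarith

/-- From the cellwise Prékopa–Leindler gain to a Hellinger bound. -/
theorem hellinger_alg (p q h δ : ι → ℝ) (a : ℝ) (hp : ∀ k, 0 < p k) (hq : ∀ k, 0 < q k)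
    (hsum : ∑ k, p k = ∑ k, q k) (hh : ∑ k, h k ≤ ∑ k, p k)
    (hk : ∀ k, Real.sqrt (p k * q k) * (1 + a * δ k ^ 2) ≤ h k) :
    a * ∑ k, Real.sqrt (p k * q k) * δ k ^ 2
      ≤ 1 / 2 * ∑ k, (Real.sqrt (p k) - Real.sqrt (q k)) ^ 2 := by
  have h1 : ∑ k, Real.sqrt (p k * q k) * (1 + a * δ k ^ 2) ≤ ∑ k, h k :=
    Finset.sum_le_sum (fun k _ => hk k)
  have h2 : ∑ k, Real.sqrt (p k * q k) * (1 + a * δ k ^ 2)
      = ∑ k, Real.sqrt (p k * q k) + a * ∑ k, Real.sqrt (p k * q k) * δ k ^ 2 := by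
    rw [Finset.mul_sum, ← Finset.sum_add_distrib]
    refine Finset.sum_congr rfl (fun k _ => ?_)
    ring
  have h3 : ∑ k, (Real.sqrt (p k) - Real.sqrt (q k)) ^ 2
      = ∑ k, p k + ∑ k, q k - 2 * ∑ k, Real.sqrt (p k * q k) := by
    rw [Finset.mul_sum, ← Finset.sum_add_distrib, ← Finset.sum_sub_distrib]
    refine Finset.sum_congr rfl (fun k _ => ?_)
    exact sqrt_sub_sq_aux _ _ (hp k) (hq k)
  rw [h3]
  linarith

theorem hellinger_bound_aux (p q V W Γ n2 : ℝ) (hp : 0 < p) (hq : 0 < q)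
    (hpV : p ≤ V) (hVp : V ≤ 2 * p) (hqW : q ≤ W)
    (hWq : W ≤ 2 * q) (hVW : V = W + Γ) (hW2 : W ≤ 2 * V)
    (hΓ : Γ ^ 2 ≤ W * n2) :
    (Real.sqrt p - Real.sqrt q) ^ 2
      ≤ 4 * (Real.sqrt (p * q) * (W / q - V / p) ^ 2) + 4 * n2 := by
  set δ := W / q - V / p with hδ
  have hW : 0 < W := lt_of_lt_of_le hq hqW
  have hn2 : 0 ≤ n2 := by
    by_contra hneg
    have hneg' : n2 < 0 := not_le.mp hneg
    have : W * n2 < 0 := mul_neg_of_pos_of_neg hW hneg'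
    nlinarith [sq_nonneg Γ]
  have hid : (p - q) * (V / p) = q * δ + Γ := by
    rw [hδ, hVW]
    field_simp
    ring
  have hVp1 : 1 ≤ V / p := by
    rw [le_div_iff₀ hp]; linarith
  have h1 : (p - q) ^ 2 ≤ 2 * q ^ 2 * δ ^ 2 + 2 * Γ ^ 2 := by
    have ha : (p - q) ^ 2 ≤ ((p - q) * (V / p)) ^ 2 := by
      rw [mul_pow]
      have : 1 ≤ (V / p) ^ 2 := by nlinarith
      nlinarith [sq_nonneg (p - q)]
    rw [hid] at ha
    nlinarith [sq_nonneg (q * δ - Γ)]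
  -- the square root part
  have hsp := Real.sq_sqrt hp.le
  have hsq := Real.sq_sqrt hq.le
  have hsp0 := Real.sqrt_nonneg p
  have hsq0 := Real.sqrt_nonneg q
  have h2 : q * (Real.sqrt p - Real.sqrt q) ^ 2 ≤ (p - q) ^ 2 := by
    have e : (p - q) ^ 2
        = (Real.sqrt p + Real.sqrt q) ^ 2 * (Real.sqrt p - Real.sqrt q) ^ 2 := by
      have : p - q = (Real.sqrt p + Real.sqrt q) * (Real.sqrt p - Real.sqrt q) := by
        nlinarith
      rw [this]; ring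
    rw [e]
    have : q ≤ (Real.sqrt p + Real.sqrt q) ^ 2 := by nlinarith
    exact mul_le_mul_of_nonneg_right this (sq_nonneg _)
  have h3 : q ≤ 2 * Real.sqrt (p * q) := by
    have h4 : q ≤ 4 * p := by linarith
    have : Real.sqrt (q ^ 2) ≤ Real.sqrt (4 * (p * q)) := by
      apply Real.sqrt_le_sqrt
      nlinarith
    rw [Real.sqrt_sq hq.le, Real.sqrt_mul (by norm_num : (0:ℝ) ≤ 4)] at this
    have h44 : Real.sqrt 4 = 2 := by
      rw [show (4:ℝ) = 2 ^ 2 by norm_num, Real.sqrt_sq (by norm_num)]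
    rw [h44] at this
    exact this
  have h5 : Γ ^ 2 ≤ 2 * q * n2 := by
    calc Γ ^ 2 ≤ W * n2 := hΓ
      _ ≤ 2 * q * n2 := mul_le_mul_of_nonneg_right hWq hn2
  -- combine: q * H ≤ 2 q^2 δ^2 + 4 q n2
  have h6 : q * (Real.sqrt p - Real.sqrt q) ^ 2 ≤ q * (2 * q * δ ^ 2 + 4 * n2) := by
    nlinarith
  have h7 : (Real.sqrt p - Real.sqrt q) ^ 2 ≤ 2 * q * δ ^ 2 + 4 * n2 :=
    le_of_mul_le_mul_left h6 hq
  have h8 : 2 * q * δ ^ 2 ≤ 4 * (Real.sqrt (p * q) * δ ^ 2) := by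
    nlinarith [sq_nonneg δ]
  linarith

/-- The Hellinger distance of the Gaussian masses is controlled by the `L²` norm of `w - 1`. -/
theorem hellinger_bound (p q V W Γ n2 : ι → ℝ) (hp : ∀ k, 0 < p k) (hq : ∀ k, 0 < q k)
    (hpV : ∀ k, p k ≤ V k) (hVp : ∀ k, V k ≤ 2 * p k) (hqW : ∀ k, q k ≤ W k)
    (hWq : ∀ k, W k ≤ 2 * q k) (hVW : ∀ k, V k = W k + Γ k) (hW2 : ∀ k, W k ≤ 2 * V k)
    (hΓ : ∀ k, Γ k ^ 2 ≤ W k * n2 k)
    (hPL : ∑ k, Real.sqrt (p k * q k) * (W k / q k - V k / p k) ^ 2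
      ≤ 1 / 8 * ∑ k, (Real.sqrt (p k) - Real.sqrt (q k)) ^ 2) :
    ∑ k, (Real.sqrt (p k) - Real.sqrt (q k)) ^ 2 ≤ 8 * ∑ k, n2 k := by
  have h1 : ∑ k, (Real.sqrt (p k) - Real.sqrt (q k)) ^ 2
      ≤ ∑ k, (4 * (Real.sqrt (p k * q k) * (W k / q k - V k / p k) ^ 2) + 4 * n2 k) :=
    Finset.sum_le_sum (fun k _ => hellinger_bound_aux _ _ _ _ _ _ (hp k) (hq k) (hpV k)
      (hVp k) (hqW k) (hWq k) (hVW k) (hW2 k) (hΓ k))
  rw [Finset.sum_add_distrib, ← Finset.mul_sum, ← Finset.mul_sum] at h1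
  linarith

end Vale.Agent.P074.Third
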