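import Mathlib

open scoped ENNReal NNReal

namespace Vale.Agent.P074.Third

variable {ι : Type*} [Fintype ι]

theorem moment_alg_aux {G : Type*} [NormedAddCommGroup G] [NormedSpace ℝ G] (R : ℝ) (hR : 0 < R)
    (p q V W n2 : ℝ) (X0 X1 Xg : G) (hp : 0 < p) (hq : 0 < q)
    (hpV : p ≤ V) (hVp : V ≤ 2 * p) (hqW : q ≤ W)
    (hWq : W ≤ 2 * q) (hW2 : W ≤ 2 * V) (hn2 : 0 ≤ n2)
    (hX0 : ‖X0‖ ≤ R * V) (hXg : ‖Xg‖ ^ 2 ≤ R ^ 2 * (W * n2)) :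
    ‖Xg + X1 - X0‖ ^ 2 / V ≤ 6 * R ^ 2 * n2
      + 12 * (Real.sqrt (p * q) * ‖q⁻¹ • X1 - p⁻¹ • X0‖ ^ 2)
      + 108 * R ^ 2 * (Real.sqrt p - Real.sqrt q) ^ 2 := by
  set Δ := q⁻¹ • X1 - p⁻¹ • X0 with hΔ
  set D := ‖Δ‖ with hD
  have hV : 0 < V := lt_of_lt_of_le hp hpV
  have hD0 : 0 ≤ D := norm_nonneg _
  have hdec : Xg + X1 - X0 = Xg + q • Δ + (q - p) • (p⁻¹ • X0) := by
    rw [hΔ, smul_sub, smul_smul, smul_smul, sub_smul, smul_smul, smul_smul,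
      mul_inv_cancel₀ hq.ne', mul_inv_cancel₀ hp.ne', one_smul, one_smul]
    abel
  have hY : ‖p⁻¹ • X0‖ ≤ 2 * R := by
    rw [norm_smul, Real.norm_eq_abs, abs_of_pos (inv_pos.mpr hp)]
    calc p⁻¹ * ‖X0‖ ≤ p⁻¹ * (R * (2 * p)) := by
          apply mul_le_mul_of_nonneg_left _ (inv_pos.mpr hp).le
          calc ‖X0‖ ≤ R * V := hX0
            _ ≤ R * (2 * p) := mul_le_mul_of_nonneg_left hVp hR.le
      _ = 2 * R := by field_simp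
  have hn : ‖Xg + X1 - X0‖ ≤ ‖Xg‖ + q * D + |q - p| * (2 * R) := by
    rw [hdec]
    calc ‖Xg + q • Δ + (q - p) • (p⁻¹ • X0)‖
        ≤ ‖Xg + q • Δ‖ + ‖(q - p) • (p⁻¹ • X0)‖ := norm_add_le _ _
      _ ≤ ‖Xg‖ + ‖q • Δ‖ + ‖(q - p) • (p⁻¹ • X0)‖ := by
          gcongr; exact norm_add_le _ _
      _ = ‖Xg‖ + q * D + |q - p| * ‖p⁻¹ • X0‖ := by
          rw [norm_smul, norm_smul, Real.norm_eq_abs, Real.norm_eq_abs, abs_of_pos hq]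
      _ ≤ ‖Xg‖ + q * D + |q - p| * (2 * R) := by
          gcongr
  have hsq : ‖Xg + X1 - X0‖ ^ 2
      ≤ 3 * (‖Xg‖ ^ 2 + q ^ 2 * D ^ 2 + 4 * R ^ 2 * (q - p) ^ 2) := by
    have h0 : 0 ≤ ‖Xg + X1 - X0‖ := norm_nonneg _
    have h1 : ‖Xg + X1 - X0‖ ^ 2 ≤ (‖Xg‖ + q * D + |q - p| * (2 * R)) ^ 2 :=
      pow_le_pow_left₀ h0 hn 2
    have habs : |q - p| ^ 2 = (q - p) ^ 2 := sq_abs _
    set a := ‖Xg‖
    set b := q * D
    set c := |q - p| * (2 * R) with hc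
    have hc2 : c ^ 2 = 4 * R ^ 2 * (q - p) ^ 2 := by
      rw [hc, mul_pow, habs]; ring
    have hb2 : b ^ 2 = q ^ 2 * D ^ 2 := by
      simp only [b]; ring
    rw [← hc2, ← hb2]
    nlinarith [sq_nonneg (a - b), sq_nonneg (a - c), sq_nonneg (b - c)]
  -- three pieces
  have hsp := Real.sq_sqrt hp.le
  have hsq' := Real.sq_sqrt hq.le
  have hsp0 := Real.sqrt_nonneg p
  have hsq0 := Real.sqrt_nonneg q
  have hq4 : q ≤ 4 * p := by linarith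
  have h3 : q ≤ 2 * Real.sqrt (p * q) := by
    have : Real.sqrt (q ^ 2) ≤ Real.sqrt (4 * (p * q)) := by
      apply Real.sqrt_le_sqrt
      nlinarith
    rw [Real.sqrt_sq hq.le, Real.sqrt_mul (by norm_num : (0:ℝ) ≤ 4)] at this
    have h44 : Real.sqrt 4 = 2 := by
      rw [show (4:ℝ) = 2 ^ 2 by norm_num, Real.sqrt_sq (by norm_num)]
    rw [h44] at this
    exact this
  have hA : ‖Xg‖ ^ 2 ≤ V * (2 * R ^ 2 * n2) := by
    calc ‖Xg‖ ^ 2 ≤ R ^ 2 * (W * n2) := hXg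
      _ ≤ R ^ 2 * ((2 * V) * n2) := by
          apply mul_le_mul_of_nonneg_left _ (sq_nonneg R)
          exact mul_le_mul_of_nonneg_right hW2 hn2
      _ = V * (2 * R ^ 2 * n2) := by ring
  have hB : q ^ 2 * D ^ 2 ≤ V * (4 * (Real.sqrt (p * q) * D ^ 2)) := by
    have hq2V : q ≤ 2 * V := by linarith
    have hs0 : 0 ≤ Real.sqrt (p * q) := Real.sqrt_nonneg _
    have : q ^ 2 ≤ V * (4 * Real.sqrt (p * q)) := by
      calc q ^ 2 = q * q := by ring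
        _ ≤ (2 * V) * (2 * Real.sqrt (p * q)) :=
            mul_le_mul hq2V h3 hq.le (by linarith)
        _ = V * (4 * Real.sqrt (p * q)) := by ring
    calc q ^ 2 * D ^ 2 ≤ (V * (4 * Real.sqrt (p * q))) * D ^ 2 :=
          mul_le_mul_of_nonneg_right this (sq_nonneg D)
      _ = V * (4 * (Real.sqrt (p * q) * D ^ 2)) := by ring
  have hC : (q - p) ^ 2 ≤ V * (9 * (Real.sqrt p - Real.sqrt q) ^ 2) := by
    have e : (q - p) ^ 2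
        = (Real.sqrt p + Real.sqrt q) ^ 2 * (Real.sqrt p - Real.sqrt q) ^ 2 := by
      have : q - p = -((Real.sqrt p + Real.sqrt q) * (Real.sqrt p - Real.sqrt q)) := by
        nlinarith
      rw [this]; ring
    have hs2 : Real.sqrt q ≤ 2 * Real.sqrt p := by
      have : Real.sqrt q ≤ Real.sqrt (4 * p) := Real.sqrt_le_sqrt hq4
      rw [Real.sqrt_mul (by norm_num : (0:ℝ) ≤ 4)] at this
      have h44 : Real.sqrt 4 = 2 := by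
        rw [show (4:ℝ) = 2 ^ 2 by norm_num, Real.sqrt_sq (by norm_num)]
      rw [h44] at this
      exact this
    have h9 : (Real.sqrt p + Real.sqrt q) ^ 2 ≤ V * 9 := by
      have : (Real.sqrt p + Real.sqrt q) ^ 2 ≤ (3 * Real.sqrt p) ^ 2 :=
        pow_le_pow_left₀ (by linarith) (by linarith) 2
      calc (Real.sqrt p + Real.sqrt q) ^ 2 ≤ (3 * Real.sqrt p) ^ 2 := this
        _ = 9 * p := by rw [mul_pow, hsp]; norm_num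
        _ ≤ V * 9 := by linarith
    rw [e]
    calc (Real.sqrt p + Real.sqrt q) ^ 2 * (Real.sqrt p - Real.sqrt q) ^ 2
        ≤ (V * 9) * (Real.sqrt p - Real.sqrt q) ^ 2 :=
          mul_le_mul_of_nonneg_right h9 (sq_nonneg _)
      _ = V * (9 * (Real.sqrt p - Real.sqrt q) ^ 2) := by ring
  rw [div_le_iff₀ hV]
  have hC' : 4 * R ^ 2 * (q - p) ^ 2
      ≤ 4 * R ^ 2 * (V * (9 * (Real.sqrt p - Real.sqrt q) ^ 2)) :=
    mul_le_mul_of_nonneg_left hC (by positivity)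
  calc ‖Xg + X1 - X0‖ ^ 2
      ≤ 3 * (‖Xg‖ ^ 2 + q ^ 2 * D ^ 2 + 4 * R ^ 2 * (q - p) ^ 2) := hsq
    _ ≤ 3 * (V * (2 * R ^ 2 * n2) + V * (4 * (Real.sqrt (p * q) * D ^ 2))
          + 4 * R ^ 2 * (V * (9 * (Real.sqrt p - Real.sqrt q) ^ 2))) := by
        linarith
    _ = (6 * R ^ 2 * n2 + 12 * (Real.sqrt (p * q) * D ^ 2)
          + 108 * R ^ 2 * (Real.sqrt p - Real.sqrt q) ^ 2) * V := by ring

/-- The algebra behind the stability of the first moments. -/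
theorem moment_alg {G : Type*} [NormedAddCommGroup G] [NormedSpace ℝ G] (R : ℝ) (hR : 0 < R)
    (p q V W n2 : ι → ℝ) (X0 X1 Xg : ι → G) (hp : ∀ k, 0 < p k) (hq : ∀ k, 0 < q k)
    (hpV : ∀ k, p k ≤ V k) (hVp : ∀ k, V k ≤ 2 * p k) (hqW : ∀ k, q k ≤ W k)
    (hWq : ∀ k, W k ≤ 2 * q k) (hW2 : ∀ k, W k ≤ 2 * V k) (hn2 : ∀ k, 0 ≤ n2 k)
    (hX0 : ∀ k, ‖X0 k‖ ≤ R * V k) (hXg : ∀ k, ‖Xg k‖ ^ 2 ≤ R ^ 2 * (W k * n2 k))
    (hPL : ∑ k, Real.sqrt (p k * q k) * ‖(q k)⁻¹ • X1 k - (p k)⁻¹ • X0 k‖ ^ 2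
      ≤ 4608 * R ^ 2 * ∑ k, (Real.sqrt (p k) - Real.sqrt (q k)) ^ 2)
    (hH : ∑ k, (Real.sqrt (p k) - Real.sqrt (q k)) ^ 2 ≤ 8 * ∑ k, n2 k) :
    ∑ k, ‖Xg k + X1 k - X0 k‖ ^ 2 / V k ≤ 10 ^ 6 * R ^ 2 * ∑ k, n2 k := by
  have h1 : ∑ k, ‖Xg k + X1 k - X0 k‖ ^ 2 / V k
      ≤ ∑ k, (6 * R ^ 2 * n2 k
      + 12 * (Real.sqrt (p k * q k) * ‖(q k)⁻¹ • X1 k - (p k)⁻¹ • X0 k‖ ^ 2)
      + 108 * R ^ 2 * (Real.sqrt (p k) - Real.sqrt (q k)) ^ 2) :=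
    Finset.sum_le_sum (fun k _ => moment_alg_aux R hR _ _ _ _ _ _ _ _ (hp k) (hq k) (hpV k)
      (hVp k) (hqW k) (hWq k) (hW2 k) (hn2 k) (hX0 k) (hXg k))
  rw [Finset.sum_add_distrib, Finset.sum_add_distrib, ← Finset.mul_sum, ← Finset.mul_sum,
    ← Finset.mul_sum] at h1
  have hN : 0 ≤ ∑ k, n2 k := Finset.sum_nonneg (fun k _ => hn2 k)
  set N := ∑ k, n2 k
  set H := ∑ k, (Real.sqrt (p k) - Real.sqrt (q k)) ^ 2
  have hR2 : 0 ≤ R ^ 2 := sq_nonneg R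
  have hRH : R ^ 2 * H ≤ R ^ 2 * (8 * N) := mul_le_mul_of_nonneg_left hH hR2
  have hRN : 0 ≤ R ^ 2 * N := mul_nonneg hR2 hN
  nlinarith

end Vale.Agent.P074.Third
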