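import Mathlib

open MeasureTheory Set
open scoped ENNReal NNReal Pointwise

namespace Vale.Agent.P074.Third

/-- Compact case of the one-dimensional Brunn–Minkowski inequality. -/
theorem bm_one_compact (A B : Set ℝ) (hA : IsCompact A) (hB : IsCompact B) (hA0 : A.Nonempty)
    (hB0 : B.Nonempty) : volume A + volume B ≤ volume (A + B) := by
  have ha : sSup A ∈ A := hA.sSup_mem hA0
  have hb : sInf B ∈ B := hB.sInf_mem hB0
  set a := sSup A with ha_def
  set b := sInf B with hb_def
  have hAle : ∀ x ∈ A, x ≤ a := fun x hx => le_csSup hA.bddAbove hx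
  have hBge : ∀ y ∈ B, b ≤ y := fun y hy => csInf_le hB.bddBelow hy
  -- translated copies
  have h1 : volume ((fun x => x + b) '' A) = volume A := by
    simp
  have h2 : volume ((fun y => a + y) '' B) = volume B := by
    simp
  have hs1 : (fun x => x + b) '' A ⊆ (A + B) ∩ Iic (a + b) := by
    rintro _ ⟨x, hx, rfl⟩
    refine ⟨Set.add_mem_add hx hb, ?_⟩
    have := hAle x hx
    simp only [mem_Iic]
    linarith
  have hs2 : (fun y => a + y) '' B ⊆ ((A + B) \ Iic (a + b)) ∪ {a + b} := by
    rintro _ ⟨y, hy, rfl⟩
    have := hBge y hy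
    rcases eq_or_lt_of_le this with h | h
    · right
      simp [h]
    · left
      refine ⟨Set.add_mem_add ha hy, ?_⟩
      simp only [mem_Iic, not_le]
      linarith
  have h3 : volume B ≤ volume ((A + B) \ Iic (a + b)) := by
    rw [← h2]
    refine (measure_mono hs2).trans ?_
    refine (measure_union_le _ _).trans ?_
    simp
  have h4 : volume A ≤ volume ((A + B) ∩ Iic (a + b)) := by
    rw [← h1]
    exact measure_mono hs1
  calc volume A + volume B ≤ volume ((A + B) ∩ Iic (a + b)) + volume ((A + B) \ Iic (a + b)) :=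
        add_le_add h4 h3
    _ = volume (A + B) := measure_inter_add_sdiff _ measurableSet_Iic

/-- One-dimensional Brunn–Minkowski inequality. -/
theorem bm_one (A B : Set ℝ) (hA : MeasurableSet A) (hB : MeasurableSet B) (hA0 : A.Nonempty)
    (hB0 : B.Nonempty) : volume A + volume B ≤ volume (A + B) := by
  obtain ⟨x0, hx0⟩ := hA0
  obtain ⟨y0, hy0⟩ := hB0
  rw [hA.measure_eq_iSup_isCompact, hB.measure_eq_iSup_isCompact]
  have key : ∀ K ⊆ A, IsCompact K → ∀ L ⊆ B, IsCompact L →
      volume K + volume L ≤ volume (A + B) := by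
    intro K hKA hK L hLB hL
    have hK' : IsCompact (insert x0 K) := hK.insert x0
    have hL' : IsCompact (insert y0 L) := hL.insert y0
    have hsub : insert x0 K + insert y0 L ⊆ A + B :=
      Set.add_subset_add (Set.insert_subset hx0 hKA) (Set.insert_subset hy0 hLB)
    calc volume K + volume L ≤ volume (insert x0 K) + volume (insert y0 L) :=
          add_le_add (measure_mono (subset_insert _ _)) (measure_mono (subset_insert _ _))
      _ ≤ volume (insert x0 K + insert y0 L) :=
          bm_one_compact _ _ hK' hL' (insert_nonempty _ _) (insert_nonempty _ _)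
      _ ≤ volume (A + B) := measure_mono hsub
  simp only [iSup_and']
  refine ENNReal.biSup_add_biSup_le' ⟨∅, empty_subset _, isCompact_empty⟩
    ⟨∅, empty_subset _, isCompact_empty⟩ ?_
  intro K hK L hL
  exact key K hK.1 hK.2 L hL.1 hL.2

end Vale.Agent.P074.Third
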