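import Vale.Agent.P074.Third.Defs

open MeasureTheory Set Metric
open scoped ENNReal NNReal

namespace Vale.Agent.P074.Third

variable {d : ℕ}


theorem cell_subset {ι : Type*} (K : Set (EuclideanSpace ℝ (Fin d))) (y : ι → (EuclideanSpace ℝ (Fin d))) (c : ι → ℝ) (k : ι) :
    cell K y c k ⊆ K := fun _ hx => hx.1

theorem isClosed_cell {ι : Type*} (K : Set (EuclideanSpace ℝ (Fin d))) (hK : IsClosed K) (y : ι → (EuclideanSpace ℝ (Fin d))) (c : ι → ℝ) (k : ι) :
    IsClosed (cell K y c k) := by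
  have h : cell K y c k
      = K ∩ ⋂ j, {x : (EuclideanSpace ℝ (Fin d)) | inner ℝ x (y j) - c j ≤ inner ℝ x (y k) - c k} := by
    ext x
    simp only [cell, mem_ofPred_eq, mem_inter_iff, mem_iInter]
  rw [h]
  refine hK.inter (isClosed_iInter fun j => ?_)
  exact isClosed_le (by fun_prop) (by fun_prop)

theorem measurableSet_cell {ι : Type*} (K : Set (EuclideanSpace ℝ (Fin d))) (hK : IsClosed K) (y : ι → (EuclideanSpace ℝ (Fin d))) (c : ι → ℝ)
    (k : ι) : MeasurableSet (cell K y c k) :=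
  (isClosed_cell K hK y c k).measurableSet

/-- The cells cover `K`. -/
theorem exists_mem_cell {ι : Type*} [Finite ι] [Nonempty ι] (K : Set (EuclideanSpace ℝ (Fin d))) (y : ι → (EuclideanSpace ℝ (Fin d))) (c : ι → ℝ)
    (x : (EuclideanSpace ℝ (Fin d))) (hx : x ∈ K) : ∃ k, x ∈ cell K y c k := by
  obtain ⟨k, hk⟩ := Finite.exists_max (fun k => inner ℝ x (y k) - c k)
  exact ⟨k, hx, hk⟩

/-- Two cells of distinct sites overlap in a null set (a piece of a hyperplane). -/
theorem volume_cell_inter {ι : Type*} (K : Set (EuclideanSpace ℝ (Fin d))) (y : ι → (EuclideanSpace ℝ (Fin d))) (c : ι → ℝ) (k j : ι)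
    (hkj : y k ≠ y j) : volume (cell K y c k ∩ cell K y c j) = 0 := by
  set v : (EuclideanSpace ℝ (Fin d)) := y k - y j with hv
  have hv0 : v ≠ 0 := sub_ne_zero.mpr hkj
  set t : ℝ := c k - c j with ht
  -- the hyperplane
  have hsub : cell K y c k ∩ cell K y c j ⊆ {x : (EuclideanSpace ℝ (Fin d)) | inner ℝ x v = t} := by
    rintro x ⟨⟨_, h1⟩, ⟨_, h2⟩⟩
    have a := h1 j
    have b := h2 k
    simp only [mem_ofPred_eq, hv, ht, inner_sub_right]
    linarith
  refine measure_mono_null hsub ?_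
  -- a point of the hyperplane
  set x0 : (EuclideanSpace ℝ (Fin d)) := (t / ‖v‖ ^ 2) • v with hx0
  have hvv : inner ℝ v v = ‖v‖ ^ 2 := real_inner_self_eq_norm_sq v
  have hnv : ‖v‖ ^ 2 ≠ 0 := by
    have : ‖v‖ ≠ 0 := norm_ne_zero_iff.mpr hv0
    positivity
  have hx0t : inner ℝ x0 v = t := by
    rw [hx0, inner_smul_left, hvv]
    simp only [conj_trivial]
    field_simp
  -- the hyperplane is a translate of the orthogonal complement of v
  set W : Submodule ℝ (EuclideanSpace ℝ (Fin d)) := LinearMap.ker ((innerSL ℝ v : (EuclideanSpace ℝ (Fin d)) →L[ℝ] ℝ) : (EuclideanSpace ℝ (Fin d)) →ₗ[ℝ] ℝ) with hW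
  have hWtop : W ≠ ⊤ := by
    intro htop
    have : v ∈ W := by rw [htop]; trivial
    rw [hW, LinearMap.mem_ker] at this
    have h2 : inner ℝ v v = 0 := by simpa using this
    rw [hvv] at h2
    exact hnv h2
  have hnull : volume (W : Set (EuclideanSpace ℝ (Fin d))) = 0 := Measure.addHaar_submodule volume W hWtop
  have himg : {x : (EuclideanSpace ℝ (Fin d)) | inner ℝ x v = t} = (fun x => x0 + x) '' (W : Set (EuclideanSpace ℝ (Fin d))) := by
    ext x
    simp only [mem_ofPred_eq, mem_image, SetLike.mem_coe]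
    constructor
    · intro hx
      refine ⟨x - x0, ?_, by abel⟩
      rw [hW, LinearMap.mem_ker]
      have : inner ℝ v (x - x0) = 0 := by
        rw [inner_sub_right, real_inner_comm, hx, real_inner_comm, hx0t, sub_self]
      simpa using this
    · rintro ⟨z, hz, rfl⟩
      rw [hW, LinearMap.mem_ker] at hz
      have hz' : inner ℝ v z = 0 := by simpa using hz
      rw [inner_add_left, hx0t, real_inner_comm, hz', add_zero]
  rw [himg, image_add_left, measure_preimage_add, hnull]

/-- Midpoints of points of the `k`-th cells for `c0` and `c1` lie in the `k`-th cell for the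
averaged weights. -/
theorem midpoint_mem_cell {ι : Type*} (K : Set (EuclideanSpace ℝ (Fin d))) (hK : Convex ℝ K) (y : ι → (EuclideanSpace ℝ (Fin d))) (c0 c1 : ι → ℝ)
    (k : ι) (a b : (EuclideanSpace ℝ (Fin d))) (ha : a ∈ cell K y c0 k) (hb : b ∈ cell K y c1 k) :
    (1 / 2 : ℝ) • (a + b) ∈ cell K y (fun j => (c0 j + c1 j) / 2) k := by
  refine ⟨?_, fun j => ?_⟩
  · have := hK ha.1 hb.1 (by norm_num : (0 : ℝ) ≤ 1 / 2) (by norm_num : (0 : ℝ) ≤ 1 / 2)
      (by norm_num)
    rwa [← smul_add] at this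
  · have h1 := ha.2 j
    have h2 := hb.2 j
    simp only [inner_smul_left, inner_add_left, conj_trivial]
    linarith

end Vale.Agent.P074.Third
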