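import Vale.Agent.P074.Third.GwFacts

open MeasureTheory Set Metric
open scoped ENNReal NNReal

namespace Vale.Agent.P074.Third

variable {d : ℕ}

theorem Body.ci_vol_lt_top {K : Set (EuclideanSpace ℝ (Fin d))} {R : ℝ} (hK : Body K R)
    {C : Set (EuclideanSpace ℝ (Fin d))} (hCK : C ⊆ K) : volume C < ⊤ :=
  (measure_mono hCK).trans_lt hK.compact.measure_lt_top

/-- bounded measurable real functions are integrable on sets of finite volume -/
theorem ci_integrableOn_of_bdd {C : Set (EuclideanSpace ℝ (Fin d))} (hfin : volume C < ⊤)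
    {h : EuclideanSpace ℝ (Fin d) → ℝ} (hm : Measurable h) {B : ℝ} (hb : ∀ x, |h x| ≤ B) :
    IntegrableOn h C :=
  Measure.integrableOn_of_bounded (M := B) hfin.ne hm.aestronglyMeasurable
    (Filter.Eventually.of_forall fun x => by rw [Real.norm_eq_abs]; exact hb x)

theorem ci_setIntegral_one_eq (C : Set (EuclideanSpace ℝ (Fin d))) :
    ∫ _x in C, (1 : ℝ) = (volume C).toReal := by
  rw [setIntegral_const, smul_eq_mul, mul_one]
  rfl

theorem ci_integrableOn_one {C : Set (EuclideanSpace ℝ (Fin d))} (hfin : volume C < ⊤) :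
    IntegrableOn (fun _ : EuclideanSpace ℝ (Fin d) => (1 : ℝ)) C :=
  integrableOn_const hfin.ne

/-- Cauchy-Schwarz for a bounded measurable function on a set of finite volume -/
theorem ci_cs_aux {C : Set (EuclideanSpace ℝ (Fin d))} (hfin : volume C < ⊤)
    {h : EuclideanSpace ℝ (Fin d) → ℝ} (hm : Measurable h) {B : ℝ} (hb : ∀ x, |h x| ≤ B) :
    (∫ x in C, h x) ^ 2 ≤ (volume C).toReal * ∫ x in C, (h x) ^ 2 := by
  have hB : 0 ≤ B := (abs_nonneg _).trans (hb 0)
  set V := (volume C).toReal with hV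
  set I := ∫ x in C, h x with hI
  set J := ∫ x in C, (h x) ^ 2 with hJ
  have hV0 : 0 ≤ V := ENNReal.toReal_nonneg
  have i1 : IntegrableOn h C := ci_integrableOn_of_bdd hfin hm hb
  have i2 : IntegrableOn (fun x => (h x) ^ 2) C := by
    refine ci_integrableOn_of_bdd (B := B ^ 2) hfin (hm.pow_const 2) (fun x => ?_)
    rw [abs_pow]
    exact pow_le_pow_left₀ (abs_nonneg _) (hb x) 2
  have i3 := ci_integrableOn_one hfin
  have key : ∫ x in C, (V * h x - I) ^ 2 = V ^ 2 * J - 2 * V * I * I + I ^ 2 * V := by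
    have e : ∀ x, (V * h x - I) ^ 2 = V ^ 2 * (h x) ^ 2 - (2 * V * I) * h x + I ^ 2 * 1 := by
      intro x; ring
    simp_rw [e]
    rw [integral_add, integral_sub, integral_const_mul, integral_const_mul, integral_const_mul,
      ci_setIntegral_one_eq]
    · exact i2.const_mul _
    · exact i1.const_mul _
    · exact (i2.const_mul _).sub (i1.const_mul _)
    · exact i3.const_mul _
  have hnn : 0 ≤ ∫ x in C, (V * h x - I) ^ 2 := integral_nonneg fun x => sq_nonneg _
  rw [key] at hnn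
  rcases hV0.eq_or_lt with h0 | hpos
  · have hz : volume C = 0 := by
      rcases (ENNReal.toReal_eq_zero_iff _).mp h0.symm with h1 | h1
      · exact h1
      · exact absurd h1 hfin.ne
    have hI0 : I = 0 := by
      rw [hI, Measure.restrict_eq_zero.mpr hz, integral_zero_measure]
    rw [hI0, ← h0]
    simp
  · have h2 : 0 ≤ V * (V * J - I ^ 2) := by nlinarith
    have h3 : 0 ≤ V * J - I ^ 2 := nonneg_of_mul_nonneg_right h2 hpos
    linarith

theorem Weight.ci_abs_sub_one_le {K : Set (EuclideanSpace ℝ (Fin d))}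
    {w : EuclideanSpace ℝ (Fin d) → ℝ} (hw : Weight K w) (x : EuclideanSpace ℝ (Fin d)) :
    |w x - 1| ≤ 1 / 2 := by
  rw [abs_le]
  constructor
  · linarith [hw.lo x]
  · linarith [hw.hi x]

theorem Weight.ci_integrableOn {K : Set (EuclideanSpace ℝ (Fin d))}
    {w : EuclideanSpace ℝ (Fin d) → ℝ} (hw : Weight K w) {C : Set (EuclideanSpace ℝ (Fin d))}
    (hfin : volume C < ⊤) : IntegrableOn w C := by
  refine ci_integrableOn_of_bdd (B := 3 / 2) hfin hw.meas (fun x => ?_)
  rw [abs_le]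
  constructor
  · linarith [hw.lo x]
  · exact hw.hi x

theorem Body.ci_integrableOn_id {K : Set (EuclideanSpace ℝ (Fin d))} {R : ℝ} (hK : Body K R)
    {C : Set (EuclideanSpace ℝ (Fin d))} (hC : MeasurableSet C) (hCK : C ⊆ K) :
    IntegrableOn (fun x : EuclideanSpace ℝ (Fin d) => x) C :=
  Measure.integrableOn_of_bounded (M := R) (hK.ci_vol_lt_top hCK).ne
    measurable_id.aestronglyMeasurable
    ((ae_restrict_iff' hC).mpr (Filter.Eventually.of_forall fun x hx => hK.bound x (hCK hx)))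

theorem Body.ci_integrableOn_smul {K : Set (EuclideanSpace ℝ (Fin d))} {R : ℝ} (hK : Body K R)
    {C : Set (EuclideanSpace ℝ (Fin d))} (hC : MeasurableSet C) (hCK : C ⊆ K)
    {h : EuclideanSpace ℝ (Fin d) → ℝ} (hm : Measurable h) {B : ℝ} (hb : ∀ x, |h x| ≤ B) :
    IntegrableOn (fun x : EuclideanSpace ℝ (Fin d) => h x • x) C := by
  have hB : 0 ≤ B := (abs_nonneg _).trans (hb 0)
  refine Measure.integrableOn_of_bounded (M := B * R) (hK.ci_vol_lt_top hCK).ne
    (hm.smul measurable_id).aestronglyMeasurable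
    ((ae_restrict_iff' hC).mpr (Filter.Eventually.of_forall fun x hx => ?_))
  rw [norm_smul, Real.norm_eq_abs]
  exact mul_le_mul (hb x) (hK.bound x (hCK hx)) (norm_nonneg _) hB

theorem ci_integrableOn_gw {K : Set (EuclideanSpace ℝ (Fin d))} {R : ℝ} (hK : Body K R) (κ : ℝ)
    {C : Set (EuclideanSpace ℝ (Fin d))} (hCK : C ⊆ K) : IntegrableOn (gw κ) C :=
  ((continuous_gw κ).continuousOn.integrableOn_compact hK.compact).mono_set hCK

/-- Integral facts on a measurable subset `C` of the body `K`; `κ = 1/(128 R²)`. -/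
theorem setIntegral_gw_le {K : Set (EuclideanSpace ℝ (Fin d))} {R : ℝ} (hK : Body K R)
    (C : Set (EuclideanSpace ℝ (Fin d))) (hC : MeasurableSet C)
    (hCK : C ⊆ K) : ∫ x in C, gw (1 / (128 * R ^ 2)) x ≤ (volume C).toReal := by
  rw [← ci_setIntegral_one_eq]
  refine setIntegral_mono_on (ci_integrableOn_gw hK _ hCK) (ci_integrableOn_one (hK.ci_vol_lt_top hCK)) hC
    (fun x _ => gw_le_one _ ?_ x)
  have := hK.pos
  positivity

theorem le_setIntegral_gw {K : Set (EuclideanSpace ℝ (Fin d))} {R : ℝ} (hK : Body K R)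
    (C : Set (EuclideanSpace ℝ (Fin d))) (hC : MeasurableSet C)
    (hCK : C ⊆ K) : (volume C).toReal ≤ 2 * ∫ x in C, gw (1 / (128 * R ^ 2)) x := by
  rw [← ci_setIntegral_one_eq, ← integral_const_mul]
  refine setIntegral_mono_on (ci_integrableOn_one (hK.ci_vol_lt_top hCK))
    ((ci_integrableOn_gw hK _ hCK).const_mul 2) hC (fun x hx => ?_)
  have := half_le_gw R hK.pos x (hK.bound x (hCK hx))
  linarith

theorem integrableOn_gw {K : Set (EuclideanSpace ℝ (Fin d))} {R : ℝ} (hK : Body K R) (κ : ℝ) :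
    IntegrableOn (gw κ) K :=
  ci_integrableOn_gw hK κ subset_rfl

/-- Bounds between the volume and the `w`-mass. -/
theorem volume_le_two_mass {K : Set (EuclideanSpace ℝ (Fin d))} {R : ℝ} (hK : Body K R)
    {w : EuclideanSpace ℝ (Fin d) → ℝ} (hw : Weight K w)
    (C : Set (EuclideanSpace ℝ (Fin d))) (hC : MeasurableSet C) (hCK : C ⊆ K) :
    (volume C).toReal ≤ 2 * ∫ x in C, w x := by
  rw [← ci_setIntegral_one_eq, ← integral_const_mul]
  refine setIntegral_mono_on (ci_integrableOn_one (hK.ci_vol_lt_top hCK))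
    ((hw.ci_integrableOn (hK.ci_vol_lt_top hCK)).const_mul 2) hC (fun x _ => ?_)
  have := hw.lo x
  linarith

theorem mass_eq_volume_add {K : Set (EuclideanSpace ℝ (Fin d))} {R : ℝ} (hK : Body K R)
    {w : EuclideanSpace ℝ (Fin d) → ℝ} (hw : Weight K w)
    (C : Set (EuclideanSpace ℝ (Fin d))) (hC : MeasurableSet C) (hCK : C ⊆ K) :
    ∫ x in C, w x = (volume C).toReal + ∫ x in C, (w x - 1) := by
  rw [integral_sub (hw.ci_integrableOn (hK.ci_vol_lt_top hCK)) (ci_integrableOn_one (hK.ci_vol_lt_top hCK)),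
    ci_setIntegral_one_eq]
  ring

/-- Cauchy–Schwarz on `C`. -/
theorem sq_setIntegral_le {K : Set (EuclideanSpace ℝ (Fin d))} {R : ℝ} (hK : Body K R)
    {w : EuclideanSpace ℝ (Fin d) → ℝ} (hw : Weight K w)
    (C : Set (EuclideanSpace ℝ (Fin d))) (hC : MeasurableSet C) (hCK : C ⊆ K) :
    (∫ x in C, (w x - 1)) ^ 2 ≤ (volume C).toReal * ∫ x in C, (w x - 1) ^ 2 :=
  ci_cs_aux (hK.ci_vol_lt_top hCK) (hw.meas.sub_const 1) hw.ci_abs_sub_one_le

theorem sq_norm_setIntegral_smul_le {K : Set (EuclideanSpace ℝ (Fin d))} {R : ℝ} (hK : Body K R)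
    {w : EuclideanSpace ℝ (Fin d) → ℝ}
    (hw : Weight K w) (C : Set (EuclideanSpace ℝ (Fin d))) (hC : MeasurableSet C) (hCK : C ⊆ K) :
    ‖∫ x in C, (w x - 1) • x‖ ^ 2 ≤ R ^ 2 * ((volume C).toReal * ∫ x in C, (w x - 1) ^ 2) := by
  have hfin := hK.ci_vol_lt_top hCK
  have hmabs : Measurable fun x => |w x - 1| := (hw.meas.sub_const 1).abs
  have hbabs : ∀ x, |(|w x - 1|)| ≤ 1 / 2 := fun x => by rw [abs_abs]; exact hw.ci_abs_sub_one_le x
  have h1 : ‖∫ x in C, (w x - 1) • x‖ ≤ R * ∫ x in C, |w x - 1| := by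
    calc ‖∫ x in C, (w x - 1) • x‖ ≤ ∫ x in C, ‖(w x - 1) • x‖ := norm_integral_le_integral_norm _
      _ ≤ ∫ x in C, R * |w x - 1| := by
          refine setIntegral_mono_on
            (hK.ci_integrableOn_smul hC hCK (hw.meas.sub_const 1) hw.ci_abs_sub_one_le).norm
            ((ci_integrableOn_of_bdd hfin hmabs hbabs).const_mul R) hC (fun x hx => ?_)
          rw [norm_smul, Real.norm_eq_abs, mul_comm]
          exact mul_le_mul_of_nonneg_right (hK.bound x (hCK hx)) (abs_nonneg _)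
      _ = R * ∫ x in C, |w x - 1| := integral_const_mul _ _
  have h2 := ci_cs_aux hfin hmabs hbabs
  simp_rw [sq_abs] at h2
  have h3 : 0 ≤ ∫ x in C, |w x - 1| := integral_nonneg fun x => abs_nonneg _
  calc ‖∫ x in C, (w x - 1) • x‖ ^ 2 ≤ (R * ∫ x in C, |w x - 1|) ^ 2 :=
        pow_le_pow_left₀ (norm_nonneg _) h1 2
    _ = R ^ 2 * (∫ x in C, |w x - 1|) ^ 2 := by ring
    _ ≤ _ := mul_le_mul_of_nonneg_left h2 (sq_nonneg R)

theorem norm_setIntegral_id_le {K : Set (EuclideanSpace ℝ (Fin d))} {R : ℝ} (hK : Body K R)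
    (C : Set (EuclideanSpace ℝ (Fin d))) (hC : MeasurableSet C) (hCK : C ⊆ K) :
    ‖∫ x in C, x‖ ≤ R * (volume C).toReal :=
  norm_setIntegral_le_of_norm_le_const (hK.ci_vol_lt_top hCK) (fun x hx => hK.bound x (hCK hx))

theorem setIntegral_smul_split {K : Set (EuclideanSpace ℝ (Fin d))} {R : ℝ} (hK : Body K R)
    {w : EuclideanSpace ℝ (Fin d) → ℝ}
    (hw : Weight K w) (C : Set (EuclideanSpace ℝ (Fin d))) (hC : MeasurableSet C) (hCK : C ⊆ K) :
    ∫ x in C, w x • x = (∫ x in C, (w x - 1) • x) + ∫ x in C, x := by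
  rw [← integral_add (hK.ci_integrableOn_smul hC hCK (hw.meas.sub_const 1) hw.ci_abs_sub_one_le)
    (hK.ci_integrableOn_id hC hCK)]
  apply integral_congr_ae
  refine Filter.Eventually.of_forall fun x => ?_
  show w x • x = (w x - 1) • x + x
  rw [sub_smul, one_smul, sub_add_cancel]

theorem setIntegral_inv_gw_mul (κ : ℝ) (C : Set (EuclideanSpace ℝ (Fin d))) :
    ∫ x in C, (gw κ x)⁻¹ * gw κ x = (volume C).toReal := by
  rw [← ci_setIntegral_one_eq]
  apply integral_congr_ae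
  refine Filter.Eventually.of_forall fun x => ?_
  exact inv_mul_cancel₀ (gw_pos κ x).ne'

theorem setIntegral_inner_inv_gw_mul {K : Set (EuclideanSpace ℝ (Fin d))} {R : ℝ}
    (hK : Body K R) (κ : ℝ) (u : EuclideanSpace ℝ (Fin d))
    (C : Set (EuclideanSpace ℝ (Fin d))) (hC : MeasurableSet C) (hCK : C ⊆ K) :
    ∫ x in C, (inner ℝ u x * (gw κ x)⁻¹) * gw κ x = inner ℝ u (∫ x in C, x) := by
  rw [← integral_inner (hK.ci_integrableOn_id hC hCK) u]
  apply integral_congr_ae
  refine Filter.Eventually.of_forall fun x => ?_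
  show (inner ℝ u x * (gw κ x)⁻¹) * gw κ x = inner ℝ u x
  rw [mul_assoc, inv_mul_cancel₀ (gw_pos κ x).ne', mul_one]

end Vale.Agent.P074.Third
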