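import Vale.Agent.P074.Third.PLEuc

open MeasureTheory Set
open scoped ENNReal NNReal Pointwise

namespace Vale.Agent.P074.Third

/-- Prékopa–Leindler on the Euclidean space, for real valued integrable functions. -/
theorem pl_real {d : ℕ} (f g h : EuclideanSpace ℝ (Fin d) → ℝ) (hfm : Measurable f)
    (hgm : Measurable g) (hhm : Measurable h) (hf : Integrable f) (hg : Integrable g)
    (hh : Integrable h) (hf0 : ∀ x, 0 ≤ f x) (hg0 : ∀ x, 0 ≤ g x) (hh0 : ∀ x, 0 ≤ h x)
    (H : ∀ x y, f x * g y ≤ h ((1 / 2 : ℝ) • (x + y)) ^ 2) :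
    (∫ x, f x) * (∫ x, g x) ≤ (∫ x, h x) ^ 2 := by
  have key := pl_euclidean d (fun x => ENNReal.ofReal (f x)) (fun x => ENNReal.ofReal (g x))
    (fun x => ENNReal.ofReal (h x)) hfm.ennreal_ofReal hgm.ennreal_ofReal hhm.ennreal_ofReal
    (by
      intro x y
      rw [← ENNReal.ofReal_mul (hf0 x), ← ENNReal.ofReal_pow (hh0 _)]
      exact ENNReal.ofReal_le_ofReal (H x y))
  rw [← ofReal_integral_eq_lintegral_ofReal hf (Filter.Eventually.of_forall hf0),
    ← ofReal_integral_eq_lintegral_ofReal hg (Filter.Eventually.of_forall hg0),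
    ← ofReal_integral_eq_lintegral_ofReal hh (Filter.Eventually.of_forall hh0),
    ← ENNReal.ofReal_mul (integral_nonneg hf0), ← ENNReal.ofReal_pow (integral_nonneg hh0)] at key
  exact (ENNReal.ofReal_le_ofReal_iff (by positivity)).mp key

end Vale.Agent.P074.Third
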