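import Vale.Agent.P074.Third.CellPLAux
import Vale.Agent.P074.Third.PLReal

open MeasureTheory Set Metric
open scoped ENNReal NNReal

namespace Vale.Agent.P074.Third

variable {d : ℕ}


theorem continuous_gw_aux (κ : ℝ) : Continuous (gw κ : (EuclideanSpace ℝ (Fin d)) → ℝ) := by
  unfold gw
  fun_prop

theorem integrableOn_of_cont_bdd (C : Set (EuclideanSpace ℝ (Fin d))) (R : ℝ) (hCR : ∀ x ∈ C, ‖x‖ ≤ R)
    (F : (EuclideanSpace ℝ (Fin d)) → ℝ) (hF : Continuous F) : IntegrableOn F C := by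
  have h1 : IntegrableOn F (closedBall (0 : (EuclideanSpace ℝ (Fin d))) R) :=
    hF.continuousOn.integrableOn_compact (isCompact_closedBall 0 R)
  refine h1.mono_set ?_
  intro x hx
  simpa [mem_closedBall, dist_zero_right] using hCR x hx

/-- Prékopa–Leindler with a Gaussian weight: a quantitative gain from the displacement of the
barycentre of a Lipschitz observable `ξ`. -/
theorem cell_pl (κ L R : ℝ) (hκ : 0 < κ) (hL : 0 < L) (C0 C1 Ch : Set (EuclideanSpace ℝ (Fin d)))
    (hC0 : MeasurableSet C0) (hC1 : MeasurableSet C1) (hCh : MeasurableSet Ch)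
    (hR0 : ∀ x ∈ C0, ‖x‖ ≤ R) (hR1 : ∀ x ∈ C1, ‖x‖ ≤ R) (hRh : ∀ x ∈ Ch, ‖x‖ ≤ R)
    (hmid : ∀ a ∈ C0, ∀ b ∈ C1, (1 / 2 : ℝ) • (a + b) ∈ Ch)
    (ξ : (EuclideanSpace ℝ (Fin d)) → ℝ) (hξc : Continuous ξ) (hξ : ∀ a ∈ C0, ∀ b ∈ C1, |ξ a - ξ b| ≤ L * ‖a - b‖)
    (hp : 0 < ∫ x in C0, gw κ x) (hq : 0 < ∫ x in C1, gw κ x) :
    Real.sqrt ((∫ x in C0, gw κ x) * ∫ x in C1, gw κ x) *
      (1 + κ / (8 * L ^ 2) * ((∫ x in C1, ξ x * gw κ x) / (∫ x in C1, gw κ x)
        - (∫ x in C0, ξ x * gw κ x) / ∫ x in C0, gw κ x) ^ 2)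
      ≤ ∫ x in Ch, gw κ x := by
  set p := ∫ x in C0, gw κ x with hpdef
  set q := ∫ x in C1, gw κ x with hqdef
  set X0 := ∫ x in C0, ξ x * gw κ x with hX0
  set X1 := ∫ x in C1, ξ x * gw κ x with hX1
  set H := ∫ x in Ch, gw κ x with hH
  set δ := X1 / q - X0 / p with hδ
  set s := κ * δ / (2 * L ^ 2) with hs
  set c := κ * δ ^ 2 / (4 * L ^ 2) with hc
  have hgc : Continuous (gw κ : (EuclideanSpace ℝ (Fin d)) → ℝ) := continuous_gw_aux κ
  have hgpos : ∀ x : (EuclideanSpace ℝ (Fin d)), 0 ≤ gw κ x := fun x => (Real.exp_pos _).le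
  -- the three functions
  let F0 : (EuclideanSpace ℝ (Fin d)) → ℝ := fun x => gw κ x * Real.exp (-s * ξ x)
  let F1 : (EuclideanSpace ℝ (Fin d)) → ℝ := fun x => gw κ x * Real.exp (s * ξ x - c)
  have hF0c : Continuous F0 := by fun_prop
  have hF1c : Continuous F1 := by fun_prop
  have hF0pos : ∀ x, 0 ≤ F0 x := fun x => mul_nonneg (hgpos x) (Real.exp_pos _).le
  have hF1pos : ∀ x, 0 ≤ F1 x := fun x => mul_nonneg (hgpos x) (Real.exp_pos _).le
  have key := pl_real (C0.indicator F0) (C1.indicator F1) (Ch.indicator (gw κ))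
    (hF0c.measurable.indicator hC0) (hF1c.measurable.indicator hC1)
    (hgc.measurable.indicator hCh)
    ((integrable_indicator_iff hC0).2 (integrableOn_of_cont_bdd C0 R hR0 F0 hF0c))
    ((integrable_indicator_iff hC1).2 (integrableOn_of_cont_bdd C1 R hR1 F1 hF1c))
    ((integrable_indicator_iff hCh).2 (integrableOn_of_cont_bdd Ch R hRh _ hgc))
    (fun x => indicator_nonneg (fun y _ => hF0pos y) x)
    (fun x => indicator_nonneg (fun y _ => hF1pos y) x)
    (fun x => indicator_nonneg (fun y _ => hgpos y) x)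
    (by
      intro a b
      by_cases ha : a ∈ C0
      · by_cases hb : b ∈ C1
        · rw [indicator_of_mem ha, indicator_of_mem hb, indicator_of_mem (hmid a ha b hb)]
          exact gw_midpoint κ L δ hκ hL a b (ξ a) (ξ b) (hξ a ha b hb)
        · rw [indicator_of_notMem hb, mul_zero]
          positivity
      · rw [indicator_of_notMem ha, zero_mul]
        positivity)
  rw [integral_indicator hC0, integral_indicator hC1, integral_indicator hCh] at key
  have j0 : p * Real.exp (-s * (X0 / p)) ≤ ∫ x in C0, F0 x :=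
    jensen_exp κ C0 hC0 R hR0 ξ hξc (-s) hp
  have j1 : q * Real.exp (s * (X1 / q)) ≤ ∫ x in C1, gw κ x * Real.exp (s * ξ x) :=
    jensen_exp κ C1 hC1 R hR1 ξ hξc s hq
  have e1 : ∫ x in C1, F1 x = (∫ x in C1, gw κ x * Real.exp (s * ξ x)) * Real.exp (-c) := by
    rw [← integral_mul_const]
    refine integral_congr_ae (Filter.Eventually.of_forall fun x => ?_)
    simp only [F1]
    rw [sub_eq_add_neg, Real.exp_add, mul_assoc]
  have j1' : q * Real.exp (s * (X1 / q)) * Real.exp (-c) ≤ ∫ x in C1, F1 x := by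
    rw [e1]
    exact mul_le_mul_of_nonneg_right j1 (Real.exp_pos _).le
  have hprod : (p * Real.exp (-s * (X0 / p))) * (q * Real.exp (s * (X1 / q)) * Real.exp (-c))
      ≤ H ^ 2 := by
    refine le_trans ?_ key
    exact mul_le_mul j0 j1' (by positivity) (le_trans (by positivity) j0)
  set u := κ / (8 * L ^ 2) * δ ^ 2 with hu
  have hexp : (p * Real.exp (-s * (X0 / p))) * (q * Real.exp (s * (X1 / q)) * Real.exp (-c))
      = p * q * (Real.exp u) ^ 2 := by
    have : Real.exp (-s * (X0 / p)) * (Real.exp (s * (X1 / q)) * Real.exp (-c))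
        = (Real.exp u) ^ 2 := by
      rw [← Real.exp_add, ← Real.exp_add, sq, ← Real.exp_add]
      congr 1
      have : -s * (X0 / p) + (s * (X1 / q) + -c) = s * δ - c := by rw [hδ]; ring
      rw [this, hs, hc, hu]
      field_simp
      ring
    calc (p * Real.exp (-s * (X0 / p))) * (q * Real.exp (s * (X1 / q)) * Real.exp (-c))
        = p * q * (Real.exp (-s * (X0 / p)) * (Real.exp (s * (X1 / q)) * Real.exp (-c))) := by
          ring
      _ = _ := by rw [this]
  rw [hexp] at hprod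
  have hH0 : 0 ≤ H := setIntegral_nonneg hCh (fun x _ => hgpos x)
  have hsq : (Real.sqrt (p * q) * Real.exp u) ^ 2 ≤ H ^ 2 := by
    rw [mul_pow, Real.sq_sqrt (by positivity)]
    exact hprod
  have hle : Real.sqrt (p * q) * Real.exp u ≤ H :=
    (pow_le_pow_iff_left₀ (by positivity) hH0 two_ne_zero).1 hsq
  refine le_trans ?_ hle
  refine mul_le_mul_of_nonneg_left ?_ (Real.sqrt_nonneg _)
  have := Real.add_one_le_exp u
  linarith

end Vale.Agent.P074.Third
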