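import Vale.Agent.P074.Third.Defs


open MeasureTheory Set Metric
open scoped ENNReal NNReal

namespace Vale.Agent.P074.Third

variable {d : ℕ}


/-- Pointwise inequality behind `cell_pl`: with `s = κ τ / (2 L²)`. -/
theorem gw_midpoint (κ L τ : ℝ) (hκ : 0 < κ) (hL : 0 < L) (a b : (EuclideanSpace ℝ (Fin d))) (ξa ξb : ℝ)
    (hξ : |ξa - ξb| ≤ L * ‖a - b‖) :
    (gw κ a * Real.exp (-(κ * τ / (2 * L ^ 2)) * ξa)) *
      (gw κ b * Real.exp (κ * τ / (2 * L ^ 2) * ξb - κ * τ ^ 2 / (4 * L ^ 2)))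
      ≤ gw κ ((1 / 2 : ℝ) • (a + b)) ^ 2 := by
  unfold gw
  rw [← Real.exp_add, ← Real.exp_add, ← Real.exp_add, ← Real.exp_nat_mul]
  apply Real.exp_le_exp.2
  have hpar := parallelogram_law_with_norm ℝ a b
  have hhalf : ‖(1 / 2 : ℝ) • (a + b)‖ = 1 / 2 * ‖a + b‖ := by
    rw [norm_smul]
    norm_num
  rw [hhalf]
  set u := ξb - ξa with hu
  have hu2 : u ^ 2 ≤ L ^ 2 * ‖a - b‖ ^ 2 := by
    have h1 : |u| ≤ L * ‖a - b‖ := by
      rw [hu, abs_sub_comm]
      exact hξ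
    have h2 : u ^ 2 = |u| ^ 2 := (sq_abs u).symm
    rw [h2, ← mul_pow]
    exact pow_le_pow_left₀ (abs_nonneg u) h1 2
  have h3 : 2 * τ * u - τ ^ 2 ≤ u ^ 2 := by nlinarith [sq_nonneg (τ - u)]
  have h4 : 2 * τ * u - τ ^ 2 ≤ L ^ 2 * ‖a - b‖ ^ 2 := le_trans h3 hu2
  have hL2 : 0 < L ^ 2 := by positivity
  have h5 : κ / (4 * L ^ 2) * (2 * τ * u - τ ^ 2) ≤ κ / 4 * ‖a - b‖ ^ 2 := by
    have : κ / (4 * L ^ 2) * (2 * τ * u - τ ^ 2) ≤ κ / (4 * L ^ 2) * (L ^ 2 * ‖a - b‖ ^ 2) :=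
      mul_le_mul_of_nonneg_left h4 (by positivity)
    refine le_trans this (le_of_eq ?_)
    field_simp
  have h6 : -(κ * τ / (2 * L ^ 2)) * ξa + (κ * τ / (2 * L ^ 2) * ξb - κ * τ ^ 2 / (4 * L ^ 2))
      = κ / (4 * L ^ 2) * (2 * τ * u - τ ^ 2) := by
    rw [hu]
    field_simp
    ring
  nlinarith [h5, h6, hpar]

theorem continuous_gw_aux0 (κ : ℝ) : Continuous (gw κ : (EuclideanSpace ℝ (Fin d)) → ℝ) := by
  unfold gw
  fun_prop

theorem integrableOn_of_cont_bdd0 (C : Set (EuclideanSpace ℝ (Fin d))) (R : ℝ) (hCR : ∀ x ∈ C, ‖x‖ ≤ R)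
    (F : (EuclideanSpace ℝ (Fin d)) → ℝ) (hF : Continuous F) : IntegrableOn F C := by
  have h1 : IntegrableOn F (closedBall (0 : (EuclideanSpace ℝ (Fin d))) R) :=
    hF.continuousOn.integrableOn_compact (isCompact_closedBall 0 R)
  refine h1.mono_set ?_
  intro x hx
  simpa [mem_closedBall, dist_zero_right] using hCR x hx

/-- Jensen's inequality for the exponential, in unnormalised form. -/
theorem jensen_exp (κ : ℝ) (C : Set (EuclideanSpace ℝ (Fin d))) (hC : MeasurableSet C) (R : ℝ) (hCR : ∀ x ∈ C, ‖x‖ ≤ R)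
    (ξ : (EuclideanSpace ℝ (Fin d)) → ℝ) (hξ : Continuous ξ) (s : ℝ) (hp : 0 < ∫ x in C, gw κ x) :
    (∫ x in C, gw κ x) * Real.exp (s * ((∫ x in C, ξ x * gw κ x) / ∫ x in C, gw κ x))
      ≤ ∫ x in C, gw κ x * Real.exp (s * ξ x) := by
  set p := ∫ x in C, gw κ x with hpdef
  set X := ∫ x in C, ξ x * gw κ x with hX
  set m := s * (X / p) with hm
  have hgc : Continuous (gw κ : (EuclideanSpace ℝ (Fin d)) → ℝ) := continuous_gw_aux0 κ
  have hgpos : ∀ x : (EuclideanSpace ℝ (Fin d)), 0 ≤ gw κ x := fun x => (Real.exp_pos _).le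
  have i1 : IntegrableOn (fun x => gw κ x * Real.exp (s * ξ x)) C :=
    integrableOn_of_cont_bdd0 C R hCR _ (by fun_prop)
  have ig : IntegrableOn (fun x => gw κ x) C := integrableOn_of_cont_bdd0 C R hCR _ hgc
  have ix : IntegrableOn (fun x => ξ x * gw κ x) C :=
    integrableOn_of_cont_bdd0 C R hCR _ (by fun_prop)
  have i2 : IntegrableOn
      (fun x => Real.exp m * (gw κ x * (1 - m) + s * (ξ x * gw κ x))) C :=
    integrableOn_of_cont_bdd0 C R hCR _ (by fun_prop)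
  have hmono : ∫ x in C, Real.exp m * (gw κ x * (1 - m) + s * (ξ x * gw κ x))
      ≤ ∫ x in C, gw κ x * Real.exp (s * ξ x) := by
    refine setIntegral_mono i2 i1 ?_
    intro x
    have h1 : s * ξ x - m + 1 ≤ Real.exp (s * ξ x - m) := Real.add_one_le_exp _
    have h2 : Real.exp (s * ξ x) = Real.exp m * Real.exp (s * ξ x - m) := by
      rw [← Real.exp_add]
      congr 1
      ring
    show Real.exp m * (gw κ x * (1 - m) + s * (ξ x * gw κ x)) ≤ gw κ x * Real.exp (s * ξ x)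
    rw [h2]
    have h3 : Real.exp m * (gw κ x * (1 - m) + s * (ξ x * gw κ x))
        = gw κ x * (Real.exp m * (s * ξ x - m + 1)) := by ring
    rw [h3]
    exact mul_le_mul_of_nonneg_left
      (mul_le_mul_of_nonneg_left h1 (Real.exp_pos _).le) (hgpos x)
  refine le_trans (le_of_eq ?_) hmono
  rw [integral_const_mul, integral_add (ig.mul_const _) (ix.const_mul _), integral_mul_const,
    integral_const_mul]
  rw [← hpdef, ← hX]
  have : p * (1 - m) + s * X = p := by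
    rw [hm]
    field_simp
    ring
  rw [this]
  ring

end Vale.Agent.P074.Third
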