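import Vale.Agent.P074.Third.Cell

open MeasureTheory Set Metric
open scoped ENNReal NNReal

namespace Vale.Agent.P074.Third

variable {d : ℕ}


/-- Almost every point of `K` lies in exactly one cell. -/
theorem ae_sum_indicator_cell {ι : Type*} [Fintype ι] [Nonempty ι] (K : Set (EuclideanSpace ℝ (Fin d))) (hK : IsClosed K)
    (y : ι → (EuclideanSpace ℝ (Fin d))) (hy : Function.Injective y) (c : ι → ℝ) :
    ∀ᵐ x ∂(volume.restrict K), ∑ k, (cell K y c k).indicator (fun _ => (1 : ℝ)) x = 1 := by
  classical
  have hnull : volume (⋃ p : {p : ι × ι // p.1 ≠ p.2},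
      cell K y c p.1.1 ∩ cell K y c p.1.2) = 0 := by
    rw [measure_iUnion_null_iff]
    rintro ⟨⟨k, j⟩, hkj⟩
    exact volume_cell_inter K y c k j fun h => hkj (hy h)
  rw [ae_restrict_iff' hK.measurableSet]
  filter_upwards [measure_eq_zero_iff_ae_notMem.mp hnull] with x hx hxK
  obtain ⟨k, hk⟩ := exists_mem_cell K y c x hxK
  rw [Finset.sum_eq_single k]
  · exact indicator_of_mem hk _
  · intro j _ hjk
    apply indicator_of_notMem
    intro hj
    apply hx
    rw [mem_iUnion]
    exact ⟨⟨(k, j), fun h => hjk h.symm⟩, hk, hj⟩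
  · intro h
    exact absurd (Finset.mem_univ k) h

/-- Integrals over `K` split into integrals over the cells. -/
theorem sum_setIntegral_cell {ι : Type*} [Fintype ι] [Nonempty ι] {G : Type*}
    [NormedAddCommGroup G] [NormedSpace ℝ G] (K : Set (EuclideanSpace ℝ (Fin d))) (hK : IsClosed K)
    (y : ι → (EuclideanSpace ℝ (Fin d))) (hy : Function.Injective y) (c : ι → ℝ) (F : (EuclideanSpace ℝ (Fin d)) → G) (hF : IntegrableOn F K) :
    ∑ k, ∫ x in cell K y c k, F x = ∫ x in K, F x := by
  classical
  have hm := fun k => measurableSet_cell K hK y c k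
  have h1 : ∀ k, ∫ x in cell K y c k, F x = ∫ x in K, (cell K y c k).indicator F x := by
    intro k
    rw [setIntegral_indicator (hm k), inter_eq_self_of_subset_right (cell_subset K y c k)]
  simp_rw [h1]
  rw [← integral_finsetSum _ fun k _ => hF.indicator (hm k)]
  refine integral_congr_ae ?_
  filter_upwards [ae_sum_indicator_cell K hK y hy c] with x hx
  have h2 : ∀ k, (cell K y c k).indicator F x
      = (cell K y c k).indicator (fun _ => (1 : ℝ)) x • F x := by
    intro k
    by_cases h : x ∈ cell K y c k
    · simp [h]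
    · simp [h]
  simp_rw [h2]
  rw [← Finset.sum_smul, hx, one_smul]

end Vale.Agent.P074.Third
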