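import Vale.Agent.P074.Lower.Coupling

open MeasureTheory Set Metric
open scoped ENNReal NNReal

namespace Vale.Agent.P074.Third

open Vale.Agent.P074 Vale.Agent.P074.Lower

variable {d : ℕ}


/-- Conversion of the real estimate to the `ℝ≥0∞` quantities of the statement. -/
theorem ennreal_of_real (K : Set (EuclideanSpace ℝ (Fin d))) (hKm : MeasurableSet K) (hK0 : volume K ≠ 0)
    (hKfin : volume K ≠ ∞) (RY C : ℝ) (hRY : 0 ≤ RY) (hC : 0 ≤ C)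
    (T S : (EuclideanSpace ℝ (Fin d)) → (EuclideanSpace ℝ (Fin d))) (hT : Measurable T) (hS : Measurable S)
    (hTY : ∀ᵐ x ∂(volume.restrict K), ‖T x‖ ≤ RY) (hSY : ∀ᵐ x ∂(volume.restrict K), ‖S x‖ ≤ RY)
    (π : Measure ((EuclideanSpace ℝ (Fin d)) × (EuclideanSpace ℝ (Fin d)))) [IsProbabilityMeasure π]
    (hπ : ∀ᵐ p ∂π, ‖p.1‖ ≤ RY ∧ ‖p.2‖ ≤ RY)
    (h : Real.sqrt (∫ x in K, ‖T x - S x‖ ^ 2)
      ≤ C * (Real.sqrt (∫ p, ‖p.1 - p.2‖ ^ 2 ∂π)) ^ (1 / 3 : ℝ)) :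
    (∫⁻ x, ENNReal.ofReal (‖T x - S x‖ ^ 2) ∂(unif K)) ^ (1 / 2 : ℝ) ≤
      ((C * (Real.sqrt (volume K).toReal)⁻¹).toNNReal : ℝ≥0∞) *
        ((∫⁻ p, ENNReal.ofReal (‖p.1 - p.2‖ ^ 2) ∂π) ^ (1 / 2 : ℝ)) ^ (1 / 3 : ℝ) := by
  have hV : 0 < (volume K).toReal := ENNReal.toReal_pos hK0 hKfin
  have hmeas : Measurable (fun x => ‖T x - S x‖ ^ 2) := (hT.sub hS).norm.pow_const 2
  have hbd : ∀ᵐ x ∂(volume.restrict K), ‖T x - S x‖ ^ 2 ≤ (2 * RY) ^ 2 := by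
    filter_upwards [hTY, hSY] with x h1 h2
    have h3 : ‖T x - S x‖ ≤ 2 * RY := by
      calc ‖T x - S x‖ ≤ ‖T x‖ + ‖S x‖ := norm_sub_le _ _
        _ ≤ 2 * RY := by linarith
    exact pow_le_pow_left₀ (norm_nonneg _) h3 2
  have hL : ∫⁻ x, ENNReal.ofReal (‖T x - S x‖ ^ 2) ∂(unif K) =
      (volume K)⁻¹ * ∫⁻ x in K, ENNReal.ofReal (‖T x - S x‖ ^ 2) := by
    unfold unif
    rw [lintegral_smul_measure, smul_eq_mul]
  have hint : IntegrableOn (fun x => ‖T x - S x‖ ^ 2) K := by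
    refine Measure.integrableOn_of_bounded (M := (2 * RY) ^ 2) hKfin hmeas.aestronglyMeasurable ?_
    filter_upwards [hbd] with x hx
    rw [Real.norm_of_nonneg (by positivity)]
    exact hx
  have h3 : ∫⁻ x in K, ENNReal.ofReal (‖T x - S x‖ ^ 2) =
      ENNReal.ofReal (∫ x in K, ‖T x - S x‖ ^ 2) :=
    (ofReal_integral_eq_lintegral_ofReal hint (ae_of_all _ (fun x => by positivity))).symm
  have hfm : Measurable (fun p : (EuclideanSpace ℝ (Fin d)) × (EuclideanSpace ℝ (Fin d)) => ‖p.1 - p.2‖ ^ 2) :=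
    (measurable_fst.sub measurable_snd).norm.pow_const 2
  have hbdπ : ∀ᵐ p ∂π, ‖p.1 - p.2‖ ^ 2 ≤ (2 * RY) ^ 2 := by
    filter_upwards [hπ] with p hp
    have h3 : ‖p.1 - p.2‖ ≤ 2 * RY := by
      calc ‖p.1 - p.2‖ ≤ ‖p.1‖ + ‖p.2‖ := norm_sub_le _ _
        _ ≤ 2 * RY := by linarith [hp.1, hp.2]
    exact pow_le_pow_left₀ (norm_nonneg _) h3 2
  have hintπ : Integrable (fun p : (EuclideanSpace ℝ (Fin d)) × (EuclideanSpace ℝ (Fin d)) => ‖p.1 - p.2‖ ^ 2) π := by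
    refine Integrable.of_bound hfm.aestronglyMeasurable ((2 * RY) ^ 2) ?_
    filter_upwards [hbdπ] with p hp
    rw [Real.norm_of_nonneg (by positivity)]
    exact hp
  have h4 : ∫⁻ p, ENNReal.ofReal (‖p.1 - p.2‖ ^ 2) ∂π =
      ENNReal.ofReal (∫ p, ‖p.1 - p.2‖ ^ 2 ∂π) :=
    (ofReal_integral_eq_lintegral_ofReal hintπ (ae_of_all _ (fun x => by positivity))).symm
  have hA0 : 0 ≤ ∫ x in K, ‖T x - S x‖ ^ 2 := integral_nonneg (fun x => by positivity)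
  have hB0 : 0 ≤ ∫ p, ‖p.1 - p.2‖ ^ 2 ∂π := integral_nonneg (fun x => by positivity)
  have hvol : (volume K)⁻¹ = ENNReal.ofReal ((volume K).toReal⁻¹) := by
    rw [ENNReal.ofReal_inv_of_pos hV, ENNReal.ofReal_toReal hKfin]
  have hcoe : ((C * (Real.sqrt (volume K).toReal)⁻¹).toNNReal : ℝ≥0∞) =
      ENNReal.ofReal (C * (Real.sqrt (volume K).toReal)⁻¹) := rfl
  rw [hL, h3, h4, hvol, hcoe, ← ENNReal.ofReal_mul (by positivity),
    ENNReal.ofReal_rpow_of_nonneg (by positivity) (by norm_num),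
    ENNReal.ofReal_rpow_of_nonneg hB0 (by norm_num),
    ENNReal.ofReal_rpow_of_nonneg (by positivity) (by norm_num),
    ← ENNReal.ofReal_mul (by positivity), ← Real.sqrt_eq_rpow, ← Real.sqrt_eq_rpow]
  apply ENNReal.ofReal_le_ofReal
  rw [Real.sqrt_mul (by positivity), Real.sqrt_inv]
  have hs : 0 ≤ (Real.sqrt (volume K).toReal)⁻¹ := by positivity
  calc (Real.sqrt (volume K).toReal)⁻¹ * Real.sqrt (∫ x in K, ‖T x - S x‖ ^ 2)
      ≤ (Real.sqrt (volume K).toReal)⁻¹ *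
        (C * (Real.sqrt (∫ p, ‖p.1 - p.2‖ ^ 2 ∂π)) ^ (1 / 3 : ℝ)) :=
        mul_le_mul_of_nonneg_left h hs
    _ = _ := by ring

end Vale.Agent.P074.Third
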