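import Vale.Agent.P074.Third.Fuzzy

open MeasureTheory Set Metric
open scoped ENNReal NNReal

namespace Vale.Agent.P074.Third

variable {d : ℕ}


variable {ι : Type*} [Fintype ι]

private theorem sum_inner_mom_le {K : Set (EuclideanSpace ℝ (Fin d))} {R : ℝ} (hK : Body K R) {w : (EuclideanSpace ℝ (Fin d)) → ℝ}
    (hw : Weight K w) {V : ι → ℝ} {χ : ι → (EuclideanSpace ℝ (Fin d)) → ℝ} (hχ : IsFuzzy K w V χ) (z : ι → (EuclideanSpace ℝ (Fin d))) :
    ∑ k, inner ℝ (mom K w χ k) (z k) ≤ R * ∑ k, V k * ‖z k‖ := by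
  rw [Finset.mul_sum]
  refine Finset.sum_le_sum fun k _ => ?_
  calc inner ℝ (mom K w χ k) (z k) ≤ ‖mom K w χ k‖ * ‖z k‖ := real_inner_le_norm _ _
    _ ≤ (R * V k) * ‖z k‖ := by
        gcongr
        exact norm_mom_le hK hw hχ k
    _ = R * (V k * ‖z k‖) := by ring

theorem corr_bddAbove {K : Set (EuclideanSpace ℝ (Fin d))} {R : ℝ} (hK : Body K R) {w : (EuclideanSpace ℝ (Fin d)) → ℝ} (hw : Weight K w)
    {V : ι → ℝ} (hV : Masses K V) (y : ι → (EuclideanSpace ℝ (Fin d))) :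
    BddAbove {v | ∃ χ : ι → (EuclideanSpace ℝ (Fin d)) → ℝ, IsFuzzy K w V χ ∧ v = val K w χ y} := by
  refine ⟨R * ∑ k, V k * ‖y k‖, ?_⟩
  rintro v ⟨χ, hχ, rfl⟩
  exact sum_inner_mom_le hK hw hχ y

theorem val_le_corr {K : Set (EuclideanSpace ℝ (Fin d))} {R : ℝ} (hK : Body K R) {w : (EuclideanSpace ℝ (Fin d)) → ℝ} (hw : Weight K w)
    {V : ι → ℝ} (hV : Masses K V) (y : ι → (EuclideanSpace ℝ (Fin d))) {χ : ι → (EuclideanSpace ℝ (Fin d)) → ℝ} (hχ : IsFuzzy K w V χ) :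
    val K w χ y ≤ corr K w V y :=
  le_csSup (corr_bddAbove hK hw hV y) ⟨χ, hχ, rfl⟩

theorem corr_le {K : Set (EuclideanSpace ℝ (Fin d))} {R : ℝ} (hK : Body K R) {w : (EuclideanSpace ℝ (Fin d)) → ℝ} (hw : Weight K w)
    {V : ι → ℝ} (hV : Masses K V) (y : ι → (EuclideanSpace ℝ (Fin d))) (B : ℝ)
    (hB : ∀ χ : ι → (EuclideanSpace ℝ (Fin d)) → ℝ, IsFuzzy K w V χ → val K w χ y ≤ B) : corr K w V y ≤ B := by
  obtain ⟨χ0, hχ0⟩ := exists_isFuzzy hK hw hV
  refine csSup_le ⟨_, χ0, hχ0, rfl⟩ ?_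
  rintro v ⟨χ, hχ, rfl⟩
  exact hB χ hχ

/-- The maximal correlation is Lipschitz in the sites. -/
theorem corr_sub_le {K : Set (EuclideanSpace ℝ (Fin d))} {R : ℝ} (hK : Body K R) {w : (EuclideanSpace ℝ (Fin d)) → ℝ} (hw : Weight K w)
    {V : ι → ℝ} (hV : Masses K V) (y y' : ι → (EuclideanSpace ℝ (Fin d))) :
    corr K w V y - corr K w V y' ≤ R * ∑ k, V k * ‖y k - y' k‖ := by
  rw [sub_le_iff_le_add']
  refine corr_le hK hw hV y _ fun χ hχ => ?_
  rw [val_add_sub K w χ y' y]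
  exact add_le_add (val_le_corr hK hw hV y' hχ)
    (sum_inner_mom_le hK hw hχ (fun k => y k - y' k))

/-- Weak duality: for every continuous `φ`, with `φc` above the conjugate of `φ` on `K`. -/
theorem corr_le_dual {K : Set (EuclideanSpace ℝ (Fin d))} {R : ℝ} (hK : Body K R) {w : (EuclideanSpace ℝ (Fin d)) → ℝ} (hw : Weight K w)
    {V : ι → ℝ} (hV : Masses K V) (y : ι → (EuclideanSpace ℝ (Fin d))) (φ : (EuclideanSpace ℝ (Fin d)) → ℝ) (hφ : Continuous φ) (φc : (EuclideanSpace ℝ (Fin d)) → ℝ)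
    (hφc : ∀ x ∈ K, ∀ k, inner ℝ x (y k) ≤ φ x + φc (y k)) :
    corr K w V y ≤ (∫ x in K, φ x * w x) + ∑ k, V k * φc (y k) := by
  refine corr_le hK hw hV y _ fun χ hχ => ?_
  obtain ⟨C, hC⟩ := hK.compact.exists_bound_of_continuousOn hφ.continuousOn
  have hmem : ∀ᵐ x ∂(volume.restrict K), x ∈ K :=
    ae_restrict_mem hK.compact.isClosed.measurableSet
  -- integrability facts
  have hiφ : ∀ k, IntegrableOn (fun x => χ k x * w x * φ x) K := fun k => by
    simpa [smul_eq_mul] using hχ.integrableOn hK hw k φ hφ.aestronglyMeasurable C hC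
  have hi1 : ∀ k, IntegrableOn (fun x => χ k x * w x) K := fun k => by
    simpa [smul_eq_mul] using hχ.integrableOn hK hw k (fun _ : (EuclideanSpace ℝ (Fin d)) => (1 : ℝ))
      aestronglyMeasurable_const 1 (fun x _ => by simp)
  have hiy : ∀ k, IntegrableOn (fun x => χ k x * w x * inner ℝ x (y k)) K := fun k => by
    have hcont : Continuous (fun x : (EuclideanSpace ℝ (Fin d)) => inner ℝ x (y k)) := by fun_prop
    simpa [smul_eq_mul] using hχ.integrableOn hK hw k (fun x : (EuclideanSpace ℝ (Fin d)) => inner ℝ x (y k))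
      hcont.aestronglyMeasurable (R * ‖y k‖) (fun x hx => by
        rw [Real.norm_eq_abs]
        calc |inner ℝ x (y k)| ≤ ‖x‖ * ‖y k‖ := abs_real_inner_le_norm x (y k)
          _ ≤ R * ‖y k‖ := by gcongr; exact hK.bound x hx)
  -- termwise estimate
  have hterm : ∀ k, inner ℝ (mom K w χ k) (y k)
      ≤ (∫ x in K, χ k x * w x * φ x) + V k * φc (y k) := fun k => by
    rw [inner_mom hK hw hχ k (y k)]
    have h2 : (∫ x in K, χ k x * w x * φ x) + V k * φc (y k)
        = ∫ x in K, (χ k x * w x * φ x + φc (y k) * (χ k x * w x)) := by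
      rw [integral_add (hiφ k) ((hi1 k).const_mul _), integral_const_mul, hχ.mass k]
      ring
    rw [h2]
    refine integral_mono_ae (hiy k) ((hiφ k).add ((hi1 k).const_mul _)) ?_
    filter_upwards [hmem] with x hx
    have hw0 : 0 ≤ w x := le_trans (by norm_num) (hw.lo x)
    have := mul_le_mul_of_nonneg_left (hφc x hx k) (mul_nonneg (hχ.nonneg k x) hw0)
    calc χ k x * w x * inner ℝ x (y k) ≤ χ k x * w x * (φ x + φc (y k)) := this
      _ = _ := by ring
  have hsum : ∑ k, ∫ x in K, χ k x * w x * φ x = ∫ x in K, φ x * w x := by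
    rw [← integral_finsetSum _ (fun k _ => hiφ k)]
    refine integral_congr_ae ?_
    filter_upwards [hχ.sum_eq] with x hx
    calc ∑ k, χ k x * w x * φ x = (∑ k, χ k x) * (w x * φ x) := by
          rw [Finset.sum_mul]; exact Finset.sum_congr rfl fun k _ => by ring
      _ = φ x * w x := by rw [hx]; ring
  calc val K w χ y = ∑ k, inner ℝ (mom K w χ k) (y k) := rfl
    _ ≤ ∑ k, ((∫ x in K, χ k x * w x * φ x) + V k * φc (y k)) :=
        Finset.sum_le_sum fun k _ => hterm k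
    _ = _ := by rw [Finset.sum_add_distrib, hsum]

end Vale.Agent.P074.Third
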