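import Mathlib

open MeasureTheory Set Metric
open scoped ENNReal NNReal

namespace Vale.Agent.P074.Third

variable {d : ℕ}


/-- Standing assumptions on the source body `K ⊆ closedBall 0 R`. -/
structure Body (K : Set (EuclideanSpace ℝ (Fin d))) (R : ℝ) : Prop where
  compact : IsCompact K
  convex : Convex ℝ K
  pos : 0 < R
  bound : ∀ x ∈ K, ‖x‖ ≤ R
  vol_ne : volume K ≠ 0

/-- Standing assumptions on the source density `w` (relative to Lebesgue measure on `K`). -/
structure Weight (K : Set (EuclideanSpace ℝ (Fin d))) (w : (EuclideanSpace ℝ (Fin d)) → ℝ) : Prop where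
  meas : Measurable w
  lo : ∀ x, 1 / 2 ≤ w x
  hi : ∀ x, w x ≤ 3 / 2
  total : ∫ x in K, w x = (volume K).toReal

/-- Standing assumptions on the (unnormalised) masses `V k`. -/
structure Masses {ι : Type*} [Fintype ι] (K : Set (EuclideanSpace ℝ (Fin d))) (V : ι → ℝ) : Prop where
  pos : ∀ k, 0 < V k
  total : ∑ k, V k = (volume K).toReal

/-- The Laguerre cell of the site `y k` with weights `c`. -/
def cell {ι : Type*} (K : Set (EuclideanSpace ℝ (Fin d))) (y : ι → (EuclideanSpace ℝ (Fin d))) (c : ι → ℝ) (k : ι) : Set (EuclideanSpace ℝ (Fin d)) :=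
  {x | x ∈ K ∧ ∀ j, inner ℝ x (y j) - c j ≤ inner ℝ x (y k) - c k}

/-- A fuzzy partition of `K` with masses `V k` with respect to the density `w`. -/
structure IsFuzzy {ι : Type*} [Fintype ι] (K : Set (EuclideanSpace ℝ (Fin d))) (w : (EuclideanSpace ℝ (Fin d)) → ℝ) (V : ι → ℝ)
    (χ : ι → (EuclideanSpace ℝ (Fin d)) → ℝ) : Prop where
  meas : ∀ k, Measurable (χ k)
  nonneg : ∀ k x, 0 ≤ χ k x
  sum_eq : ∀ᵐ x ∂(volume.restrict K), ∑ k, χ k x = 1
  mass : ∀ k, ∫ x in K, χ k x * w x = V k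

/-- First moment of the `k`-th piece of a fuzzy partition. -/
noncomputable def mom {ι : Type*} (K : Set (EuclideanSpace ℝ (Fin d))) (w : (EuclideanSpace ℝ (Fin d)) → ℝ) (χ : ι → (EuclideanSpace ℝ (Fin d)) → ℝ) (k : ι) : (EuclideanSpace ℝ (Fin d)) :=
  ∫ x in K, (χ k x * w x) • x

/-- The correlation of a fuzzy partition with the sites `y`. -/
noncomputable def val {ι : Type*} [Fintype ι] (K : Set (EuclideanSpace ℝ (Fin d))) (w : (EuclideanSpace ℝ (Fin d)) → ℝ) (χ : ι → (EuclideanSpace ℝ (Fin d)) → ℝ)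
    (y : ι → (EuclideanSpace ℝ (Fin d))) : ℝ :=
  ∑ k, inner ℝ (mom K w χ k) (y k)

/-- The maximal correlation between the density `w` on `K` and the labelled sites `y` with
masses `V`. -/
noncomputable def corr {ι : Type*} [Fintype ι] (K : Set (EuclideanSpace ℝ (Fin d))) (w : (EuclideanSpace ℝ (Fin d)) → ℝ) (V : ι → ℝ)
    (y : ι → (EuclideanSpace ℝ (Fin d))) : ℝ :=
  sSup {v | ∃ χ : ι → (EuclideanSpace ℝ (Fin d)) → ℝ, IsFuzzy K w V χ ∧ v = val K w χ y}

/-- The Gaussian weight `exp (-κ |x|² / 2)`. -/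
noncomputable def gw (κ : ℝ) (x : (EuclideanSpace ℝ (Fin d))) : ℝ := Real.exp (-(κ * ‖x‖ ^ 2 / 2))

end Vale.Agent.P074.Third
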