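import Vale.Agent.P074.Third.KeyEta

open MeasureTheory Set Metric
open scoped ENNReal NNReal

namespace Vale.Agent.P074.Third

open Vale.Agent.P074 Vale.Agent.P074.Lower

variable {d : ℕ}

/-- integrability of the distance and its square under a coupling concentrated on a compact set -/
theorem key_integrable (Y : Set (EuclideanSpace ℝ (Fin d))) (hY : IsCompact Y)
    (π : Measure ((EuclideanSpace ℝ (Fin d)) × (EuclideanSpace ℝ (Fin d))))
    [IsProbabilityMeasure π] (hπ : ∀ᵐ p ∂π, p.1 ∈ Y ∧ p.2 ∈ Y) :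
    Integrable (fun p : (EuclideanSpace ℝ (Fin d)) × (EuclideanSpace ℝ (Fin d)) => ‖p.1 - p.2‖) π ∧
    Integrable (fun p : (EuclideanSpace ℝ (Fin d)) × (EuclideanSpace ℝ (Fin d)) =>
      ‖p.1 - p.2‖ ^ 2) π := by
  obtain ⟨C, hC⟩ := hY.isBounded.exists_norm_le
  have hcont : Continuous
      (fun p : (EuclideanSpace ℝ (Fin d)) × (EuclideanSpace ℝ (Fin d)) => ‖p.1 - p.2‖) :=
    (continuous_fst.sub continuous_snd).norm
  have hb : ∀ᵐ p ∂π, ‖p.1 - p.2‖ ≤ 2 * C := by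
    filter_upwards [hπ] with p hp
    calc ‖p.1 - p.2‖ ≤ ‖p.1‖ + ‖p.2‖ := norm_sub_le _ _
      _ ≤ C + C := add_le_add (hC _ hp.1) (hC _ hp.2)
      _ = 2 * C := by ring
  constructor
  · apply Integrable.of_bound hcont.aestronglyMeasurable (2 * C)
    filter_upwards [hb] with p hp
    rw [Real.norm_eq_abs, abs_of_nonneg (norm_nonneg _)]
    exact hp
  · have hcont2 : Continuous
        (fun p : (EuclideanSpace ℝ (Fin d)) × (EuclideanSpace ℝ (Fin d)) => ‖p.1 - p.2‖ ^ 2) :=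
      hcont.pow 2
    apply Integrable.of_bound hcont2.aestronglyMeasurable ((2 * C) ^ 2)
    filter_upwards [hb] with p hp
    rw [Real.norm_eq_abs, abs_of_nonneg (pow_nonneg (norm_nonneg _) 2)]
    exact pow_le_pow_left₀ (norm_nonneg _) hp 2

/-- expansion of the perturbed cost -/
theorem key_expand (Y : Set (EuclideanSpace ℝ (Fin d))) (hY : IsCompact Y)
    (π : Measure ((EuclideanSpace ℝ (Fin d)) × (EuclideanSpace ℝ (Fin d))))
    [IsProbabilityMeasure π] (hπ : ∀ᵐ p ∂π, p.1 ∈ Y ∧ p.2 ∈ Y) (η : ℝ) :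
    ∫ p, (‖p.1 - p.2‖ + 2 * η) ^ 2 ∂π
      = (∫ p, ‖p.1 - p.2‖ ^ 2 ∂π) + 4 * η * (∫ p, ‖p.1 - p.2‖ ∂π) + 4 * η ^ 2 := by
  obtain ⟨hi1, hi2⟩ := key_integrable Y hY π hπ
  have e : ∀ p : (EuclideanSpace ℝ (Fin d)) × (EuclideanSpace ℝ (Fin d)),
      (‖p.1 - p.2‖ + 2 * η) ^ 2 = ‖p.1 - p.2‖ ^ 2 + 4 * η * ‖p.1 - p.2‖ + 4 * η ^ 2 := by
    intro p; ring
  simp_rw [e]
  have hi3 : Integrable (fun p : (EuclideanSpace ℝ (Fin d)) × (EuclideanSpace ℝ (Fin d)) =>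
      4 * η * ‖p.1 - p.2‖) π := hi1.const_mul _
  have hi4 : Integrable (fun p : (EuclideanSpace ℝ (Fin d)) × (EuclideanSpace ℝ (Fin d)) =>
      ‖p.1 - p.2‖ ^ 2 + 4 * η * ‖p.1 - p.2‖) π := hi2.add hi3
  rw [integral_add hi4 (integrable_const _), integral_add hi2 hi3, integral_const_mul,
    integral_const]
  simp

/-- abstract limit argument -/
theorem key_limit (L a V J0 J1 B c : ℝ)
    (h : ∀ η : ℝ, 0 < η → L ≤ a * Real.sqrt (V * (J0 + 4 * η * J1 + 4 * η ^ 2)) + B + c * η) :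
    L ≤ a * Real.sqrt (V * J0) + B := by
  have hcont : Continuous
      (fun η : ℝ => a * Real.sqrt (V * (J0 + 4 * η * J1 + 4 * η ^ 2)) + B + c * η) := by
    fun_prop
  have ht : Filter.Tendsto
      (fun η : ℝ => a * Real.sqrt (V * (J0 + 4 * η * J1 + 4 * η ^ 2)) + B + c * η)
      (nhdsWithin 0 (Set.Ioi 0)) (nhds (a * Real.sqrt (V * J0) + B)) := by
    have h0 := (hcont.tendsto 0).mono_left (nhdsWithin_le_nhds (s := Set.Ioi (0 : ℝ)))
    simpa using h0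
  apply ge_of_tendsto ht
  filter_upwards [self_mem_nhdsWithin] with η hη
  exact h η hη

/-- **The key inequality.** -/
theorem key_ineq {K : Set (EuclideanSpace ℝ (Fin d))} {R : ℝ} (hK : Body K R)
    (Y : Set (EuclideanSpace ℝ (Fin d))) (hY : IsCompact Y)
    (T S : (EuclideanSpace ℝ (Fin d)) → (EuclideanSpace ℝ (Fin d)))
    (hT : Measurable T) (hS : Measurable S)
    (φ ψ : (EuclideanSpace ℝ (Fin d)) → ℝ) (hφ : Continuous φ) (hψ : Continuous ψ)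
    (hφsub : ∀ᵐ x ∂(volume.restrict K), T x ∈ Y ∧ ∀ x', φ x + inner ℝ (T x) (x' - x) ≤ φ x')
    (hψsub : ∀ᵐ x ∂(volume.restrict K), S x ∈ Y ∧ ∀ x', ψ x + inner ℝ (S x) (x' - x) ≤ ψ x')
    (π : Measure ((EuclideanSpace ℝ (Fin d)) × (EuclideanSpace ℝ (Fin d))))
    [IsProbabilityMeasure π] (hπ : ∀ᵐ p ∂π, p.1 ∈ Y ∧ p.2 ∈ Y)
    (h1 : Measure.map Prod.fst π = Measure.map T (unif K))
    (h2 : Measure.map Prod.snd π = Measure.map S (unif K))
    (θ : (EuclideanSpace ℝ (Fin d)) → ℝ) (hθm : Measurable θ) (hθ0 : ∀ x, 0 ≤ θ x)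
    (hθ1 : ∀ x, θ x ≤ 1 / 2) (v : (EuclideanSpace ℝ (Fin d)))
    (hθK : ∀ x, θ x ≠ 0 → x ∈ K ∧ x + v ∈ K) :
    ∫ x in K, θ x * inner ℝ v (T x)
      ≤ 2000 * R * Real.sqrt (∫ x in K, θ x ^ 2)
          * Real.sqrt ((volume K).toReal * ∫ p, ‖p.1 - p.2‖ ^ 2 ∂π)
        + ∫ x in K, θ x * (ψ (x + v) - ψ x) := by
  have hs : Real.sqrt (4 * ∫ x in K, θ x ^ 2) = 2 * Real.sqrt (∫ x in K, θ x ^ 2) := by
    rw [Real.sqrt_mul (by norm_num : (0 : ℝ) ≤ 4)]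
    have : Real.sqrt 4 = 2 := by
      rw [show (4 : ℝ) = 2 ^ 2 by norm_num, Real.sqrt_sq (by norm_num)]
    rw [this]
  have key := key_limit (∫ x in K, θ x * inner ℝ v (T x))
    (1000 * R * Real.sqrt (4 * ∫ x in K, θ x ^ 2)) (volume K).toReal
    (∫ p, ‖p.1 - p.2‖ ^ 2 ∂π) (∫ p, ‖p.1 - p.2‖ ∂π)
    (∫ x in K, θ x * (ψ (x + v) - ψ x)) ((4 * R + ‖v‖) * (volume K).toReal) ?_
  · rw [hs] at key
    calc _ ≤ _ := key
      _ = _ := by ring
  · intro η hη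
    have h := key_ineq_eta hK Y hY T S hT hS φ ψ hφ hψ hφsub hψsub π hπ h1 h2 θ hθm hθ0 hθ1 v hθK
      η hη
    rw [key_expand Y hY π hπ η] at h
    calc _ ≤ _ := h
      _ = _ := by ring

end Vale.Agent.P074.Third
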