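import Vale.Agent.P074.Lower.L1Bound
import Vale.Agent.P074.Third.Key

open MeasureTheory Set Metric
open scoped ENNReal NNReal

namespace Vale.Agent.P074.Third

open Vale.Agent.P074 Vale.Agent.P074.Lower

variable {d : ℕ}

theorem continuous_of_lip (ψ : EuclideanSpace ℝ (Fin d) → ℝ) (RY : ℝ) (hRY0 : 0 < RY)
    (hψ : ∀ x y, |ψ x - ψ y| ≤ RY * ‖x - y‖) : Continuous ψ := by
  have hlip : LipschitzWith (Real.toNNReal RY) ψ := by
    refine LipschitzWith.of_dist_le_mul fun x y => ?_
    rw [Real.dist_eq, dist_eq_norm, Real.coe_toNNReal _ hRY0.le]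
    exact hψ x y
  exact hlip.continuous

/-- The key inequality with the choice `θ = 1_A (<e, T - S>)_+ / (4 RY)`, `v = t e`, `|e| = 1`:
here `A` is a measurable subset of `K` with `A ± t e ⊆ K`. -/
theorem dir_ineq {K : Set (EuclideanSpace ℝ (Fin d))} {R : ℝ} (hK : Body K R)
    (Y : Set (EuclideanSpace ℝ (Fin d))) (hY : IsCompact Y) (RY : ℝ)
    (hRY0 : 0 < RY) (hRY : ∀ y ∈ Y, ‖y‖ ≤ RY)
    (T S : (EuclideanSpace ℝ (Fin d)) → (EuclideanSpace ℝ (Fin d)))
    (hT : Measurable T) (hS : Measurable S)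
    (φ ψ : (EuclideanSpace ℝ (Fin d)) → ℝ) (hφ : ∀ x y, |φ x - φ y| ≤ RY * ‖x - y‖)
    (hψ : ∀ x y, |ψ x - ψ y| ≤ RY * ‖x - y‖)
    (hφsub : ∀ᵐ x ∂(volume.restrict K), T x ∈ Y ∧ ∀ x', φ x + inner ℝ (T x) (x' - x) ≤ φ x')
    (hψsub : ∀ᵐ x ∂(volume.restrict K), S x ∈ Y ∧ ∀ x', ψ x + inner ℝ (S x) (x' - x) ≤ ψ x')
    (π : Measure ((EuclideanSpace ℝ (Fin d)) × (EuclideanSpace ℝ (Fin d))))
    [IsProbabilityMeasure π] (hπ : ∀ᵐ p ∂π, p.1 ∈ Y ∧ p.2 ∈ Y)
    (h1 : Measure.map Prod.fst π = Measure.map T (unif K))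
    (h2 : Measure.map Prod.snd π = Measure.map S (unif K))
    (A : Set (EuclideanSpace ℝ (Fin d))) (hA : MeasurableSet A) (hAK : A ⊆ K)
    (e : (EuclideanSpace ℝ (Fin d))) (he : ‖e‖ = 1) (t : ℝ) (ht : 0 < t)
    (hA1 : ∀ x ∈ A, x + t • e ∈ K) (hA2 : ∀ x ∈ A, x - t • e ∈ K) :
    t * ∫ x in A, (max (inner ℝ e (T x - S x)) 0) ^ 2
      ≤ 2000 * R * Real.sqrt (∫ x in A, (max (inner ℝ e (T x - S x)) 0) ^ 2)
          * Real.sqrt ((volume K).toReal * ∫ p, ‖p.1 - p.2‖ ^ 2 ∂π)
        + 4 * RY ^ 2 * t * (volume (K \ A)).toReal := by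
  classical
  set v : EuclideanSpace ℝ (Fin d) := t • e with hv
  have hvn : ‖v‖ = t := by
    rw [hv, norm_smul, he, mul_one, Real.norm_eq_abs, abs_of_pos ht]
  have hKm : MeasurableSet K := hK.compact.measurableSet
  have hKfin : volume K ≠ ∞ := hK.compact.measure_lt_top.ne
  have : IsFiniteMeasure (volume.restrict K) :=
    ⟨by rw [Measure.restrict_apply_univ]; exact hK.compact.measure_lt_top⟩
  have hcφ : Continuous φ := continuous_of_lip φ RY hRY0 hφ
  have hcψ : Continuous ψ := continuous_of_lip ψ RY hRY0 hψ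
  set g : EuclideanSpace ℝ (Fin d) → ℝ := fun x => inner ℝ e (T x - S x) with hg
  have hgm : Measurable g := measurable_const.inner (hT.sub hS)
  set f : EuclideanSpace ℝ (Fin d) → ℝ := fun x => max (g x) 0 with hf
  have hfm : Measurable f := hgm.max measurable_const
  have hf0 : ∀ x, 0 ≤ f x := fun x => le_max_right _ _
  have hfg : ∀ x, f x * g x = f x ^ 2 := by
    intro x
    rcases le_total 0 (g x) with h | h
    · simp only [hf, max_eq_left h]; ring
    · simp only [hf, max_eq_right h]; ring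
  set θ : EuclideanSpace ℝ (Fin d) → ℝ :=
    A.indicator (fun x => min (f x / (4 * RY)) (1 / 2)) with hθ
  have hθm : Measurable θ := ((hfm.div_const _).min measurable_const).indicator hA
  have hθ0 : ∀ x, 0 ≤ θ x := fun x =>
    Set.indicator_nonneg (fun x _ => le_min (div_nonneg (hf0 x) (by positivity)) (by norm_num)) x
  have hθ1 : ∀ x, θ x ≤ 1 / 2 := fun x => by
    by_cases hx : x ∈ A
    · simp only [hθ, Set.indicator_of_mem hx]; exact min_le_right _ _
    · simp only [hθ, Set.indicator_of_notMem hx]; norm_num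
  have hθabs : ∀ x, |θ x| ≤ 1 / 2 := fun x => by rw [abs_of_nonneg (hθ0 x)]; exact hθ1 x
  have hθK : ∀ x, θ x ≠ 0 → x ∈ K ∧ x + v ∈ K := by
    intro x hx
    have hxA : x ∈ A := by
      by_contra h
      exact hx (Set.indicator_of_notMem h _)
    exact ⟨hAK hxA, hA1 x hxA⟩
  have key := key_ineq hK Y hY T S hT hS φ ψ hcφ hcψ hφsub hψsub π hπ h1 h2 θ hθm hθ0 hθ1 v hθK
  -- almost everywhere facts
  have hae : ∀ᵐ x ∂(volume.restrict K), ‖T x‖ ≤ RY ∧ ‖S x‖ ≤ RY ∧
      (∀ x', ψ x + inner ℝ (S x) (x' - x) ≤ ψ x') := by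
    filter_upwards [hφsub, hψsub] with x a1 a2
    exact ⟨hRY _ a1.1, hRY _ a2.1, a2.2⟩
  have hθae : ∀ᵐ x ∂(volume.restrict K), θ x = A.indicator (fun x => f x / (4 * RY)) x := by
    filter_upwards [hae] with x hx
    by_cases hxA : x ∈ A
    · simp only [hθ, Set.indicator_of_mem hxA]
      apply min_eq_left
      have hg2 : g x ≤ 2 * RY := by
        have c1 : g x ≤ ‖e‖ * ‖T x - S x‖ := real_inner_le_norm _ _
        have c2 : ‖T x - S x‖ ≤ ‖T x‖ + ‖S x‖ := norm_sub_le _ _
        rw [he, one_mul] at c1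
        linarith [hx.1, hx.2.1]
      have hf2 : f x ≤ 2 * RY := max_le hg2 (by positivity)
      rw [div_le_iff₀ (by positivity)]
      linarith
    · simp only [hθ, Set.indicator_of_notMem hxA]
  set I : ℝ := ∫ x in A, f x ^ 2 with hI
  have hI0 : 0 ≤ I := integral_nonneg fun x => sq_nonneg _
  have hKA : K ∩ A = A := inter_eq_right.2 hAK
  -- (a)
  have ha : ∫ x in K, θ x ^ 2 = I / (4 * RY) ^ 2 := by
    have e1 : ∫ x in K, θ x ^ 2 = ∫ x in K, A.indicator (fun x => f x ^ 2 / (4 * RY) ^ 2) x := by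
      refine integral_congr_ae ?_
      filter_upwards [hθae] with x hx
      rw [hx]
      by_cases hxA : x ∈ A
      · simp only [Set.indicator_of_mem hxA]; rw [div_pow]
      · simp only [Set.indicator_of_notMem hxA]; norm_num
    rw [e1, setIntegral_indicator hA, hKA, integral_div]
  -- integrability
  have hinner : ∀ w : EuclideanSpace ℝ (Fin d), ‖w‖ ≤ RY → |inner ℝ v w| ≤ t * RY := by
    intro w hw
    have c1 : |inner ℝ v w| ≤ ‖v‖ * ‖w‖ := abs_real_inner_le_norm _ _
    rw [hvn] at c1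
    exact c1.trans (mul_le_mul_of_nonneg_left hw ht.le)
  have iT : Integrable (fun x => θ x * inner ℝ v (T x)) (volume.restrict K) := by
    refine Integrable.of_bound (hθm.mul (measurable_const.inner hT)).aestronglyMeasurable
      (1 / 2 * (t * RY)) ?_
    filter_upwards [hae] with x hx
    rw [Real.norm_eq_abs, abs_mul]
    exact mul_le_mul (hθabs x) (hinner _ hx.1) (abs_nonneg _) (by norm_num)
  have iS : Integrable (fun x => θ x * inner ℝ v (S x)) (volume.restrict K) := by
    refine Integrable.of_bound (hθm.mul (measurable_const.inner hS)).aestronglyMeasurable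
      (1 / 2 * (t * RY)) ?_
    filter_upwards [hae] with x hx
    rw [Real.norm_eq_abs, abs_mul]
    exact mul_le_mul (hθabs x) (hinner _ hx.2.1) (abs_nonneg _) (by norm_num)
  have hψp : ∀ x, |ψ (x + v) - ψ x| ≤ RY * t := by
    intro x
    have := hψ (x + v) x
    rwa [add_sub_cancel_left, hvn] at this
  have hψn : ∀ x, |ψ (x - v) - ψ x| ≤ RY * t := by
    intro x
    have := hψ (x - v) x
    rwa [sub_sub_cancel_left, norm_neg, hvn] at this
  have hmp : Measurable fun x => ψ (x + v) :=
    (hcψ.comp (continuous_id.add continuous_const)).measurable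
  have hmn : Measurable fun x => ψ (x - v) :=
    (hcψ.comp (continuous_id.sub continuous_const)).measurable
  have iψ : Integrable (fun x => θ x * (ψ (x + v) - ψ x)) (volume.restrict K) := by
    refine Integrable.of_bound (hθm.mul (hmp.sub hcψ.measurable)).aestronglyMeasurable
      (1 / 2 * (RY * t)) ?_
    refine Filter.Eventually.of_forall fun x => ?_
    rw [Real.norm_eq_abs, abs_mul]
    exact mul_le_mul (hθabs x) (hψp x) (abs_nonneg _) (by norm_num)
  have isd : Integrable
      (A.indicator fun x => 1 / 2 * (ψ (x + v) + ψ (x - v) - 2 * ψ x)) (volume.restrict K) := by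
    refine Integrable.of_bound
      ((measurable_const.mul ((hmp.add hmn).sub
        (measurable_const.mul hcψ.measurable))).indicator hA).aestronglyMeasurable
      (RY * t) ?_
    refine Filter.Eventually.of_forall fun x => ?_
    rw [Real.norm_eq_abs]
    by_cases hxA : x ∈ A
    · simp only [Set.indicator_of_mem hxA]
      have a1 := abs_le.1 (hψp x)
      have a2 := abs_le.1 (hψn x)
      rw [abs_le]
      constructor <;> linarith [a1.1, a1.2, a2.1, a2.2]
    · simp only [Set.indicator_of_notMem hxA, abs_zero]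
      positivity
  -- (b)
  have hb : (∫ x in K, θ x * inner ℝ v (T x)) - ∫ x in K, θ x * inner ℝ v (S x)
      = t * I / (4 * RY) := by
    rw [← integral_sub iT iS]
    have e1 : ∫ x in K, (θ x * inner ℝ v (T x) - θ x * inner ℝ v (S x))
        = ∫ x in K, A.indicator (fun x => t * f x ^ 2 / (4 * RY)) x := by
      refine integral_congr_ae ?_
      filter_upwards [hθae] with x hx
      have e2 : (inner ℝ v (T x) : ℝ) - inner ℝ v (S x) = t * g x := by
        rw [← inner_sub_right, hv, real_inner_smul_left]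
      rw [← mul_sub, e2, hx]
      by_cases hxA : x ∈ A
      · simp only [Set.indicator_of_mem hxA]
        rw [← hfg x]; ring
      · simp only [Set.indicator_of_notMem hxA]; ring
    rw [e1, setIntegral_indicator hA, hKA, integral_div, integral_const_mul]
  -- (c)
  have hc : (∫ x in K, θ x * (ψ (x + v) - ψ x)) - ∫ x in K, θ x * inner ℝ v (S x)
      ≤ RY * t * (volume (K \ A)).toReal := by
    rw [← integral_sub iψ iS]
    have e1 : ∫ x in K, (θ x * (ψ (x + v) - ψ x) - θ x * inner ℝ v (S x))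
        ≤ ∫ x in K, A.indicator (fun x => 1 / 2 * (ψ (x + v) + ψ (x - v) - 2 * ψ x)) x := by
      refine integral_mono_ae (iψ.sub iS) isd ?_
      filter_upwards [hae] with x hx
      by_cases hxA : x ∈ A
      · simp only [Set.indicator_of_mem hxA]
        have b1 := hx.2.2 (x + v)
        have b2 := hx.2.2 (x - v)
        rw [add_sub_cancel_left] at b1
        rw [sub_sub_cancel_left, inner_neg_right] at b2
        rw [real_inner_comm] at b1 b2
        rw [← mul_sub]
        have b3 : 0 ≤ ψ (x + v) - ψ x - inner ℝ v (S x) := by linarith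
        calc θ x * (ψ (x + v) - ψ x - inner ℝ v (S x))
            ≤ 1 / 2 * (ψ (x + v) - ψ x - inner ℝ v (S x)) :=
              mul_le_mul_of_nonneg_right (hθ1 x) b3
          _ ≤ 1 / 2 * (ψ (x + v) + ψ (x - v) - 2 * ψ x) := by linarith
      · have : θ x = 0 := Set.indicator_of_notMem hxA _
        simp only [Set.indicator_of_notMem hxA, this]
        norm_num
    refine e1.trans ?_
    rw [setIntegral_indicator hA, hKA, integral_const_mul]
    have := secondDiff_integral_le ψ RY hRY0.le hψ A K hA hKm hKfin hAK v hA2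
    rw [hvn] at this
    linarith
  -- conclusion
  have hsq : Real.sqrt (I / (4 * RY) ^ 2) = Real.sqrt I / (4 * RY) := by
    rw [Real.sqrt_div hI0, Real.sqrt_sq (by positivity)]
  rw [ha, hsq] at key
  set Q : ℝ := Real.sqrt ((volume K).toReal * ∫ p, ‖p.1 - p.2‖ ^ 2 ∂π) with hQ
  have hfin : t * I / (4 * RY) ≤ 2000 * R * (Real.sqrt I / (4 * RY)) * Q
      + RY * t * (volume (K \ A)).toReal := by linarith
  have h4 : 0 < 4 * RY := by positivity
  have := mul_le_mul_of_nonneg_left hfin h4.le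
  have l1 : 4 * RY * (t * I / (4 * RY)) = t * I := by field_simp
  have l2 : 4 * RY * (2000 * R * (Real.sqrt I / (4 * RY)) * Q
      + RY * t * (volume (K \ A)).toReal)
      = 2000 * R * Real.sqrt I * Q + 4 * RY ^ 2 * t * (volume (K \ A)).toReal := by
    field_simp
  rw [l1, l2] at this
  exact this

end Vale.Agent.P074.Third
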