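import Vale.Agent.P074.Third.Defs

open MeasureTheory Set Metric
open scoped ENNReal NNReal

namespace Vale.Agent.P074.Third

variable {d : ℕ}


variable {ι : Type*} [Fintype ι]

theorem IsFuzzy.le_one {K : Set (EuclideanSpace ℝ (Fin d))} {w : (EuclideanSpace ℝ (Fin d)) → ℝ} {V : ι → ℝ} {χ : ι → (EuclideanSpace ℝ (Fin d)) → ℝ}
    (hχ : IsFuzzy K w V χ) (k : ι) : ∀ᵐ x ∂(volume.restrict K), χ k x ≤ 1 := by
  filter_upwards [hχ.sum_eq] with x hx
  rw [← hx]
  exact Finset.single_le_sum (f := fun k => χ k x) (fun i _ => hχ.nonneg i x) (Finset.mem_univ k)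

/-- `χ k * w * F` is integrable on `K` for bounded measurable `F`. -/
theorem IsFuzzy.integrableOn {K : Set (EuclideanSpace ℝ (Fin d))} {R : ℝ} (hK : Body K R) {w : (EuclideanSpace ℝ (Fin d)) → ℝ} (hw : Weight K w)
    {V : ι → ℝ} {χ : ι → (EuclideanSpace ℝ (Fin d)) → ℝ} (hχ : IsFuzzy K w V χ) (k : ι)
    {G : Type*} [NormedAddCommGroup G] [NormedSpace ℝ G] (F : (EuclideanSpace ℝ (Fin d)) → G)
    (hF : AEStronglyMeasurable F (volume.restrict K)) (M : ℝ) (hM : ∀ x ∈ K, ‖F x‖ ≤ M) :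
    IntegrableOn (fun x => (χ k x * w x) • F x) K := by
  have hfin : volume K ≠ ⊤ := hK.compact.measure_lt_top.ne
  have hc : IntegrableOn (fun _ : (EuclideanSpace ℝ (Fin d)) => (3 / 2 * M : ℝ)) K := integrableOn_const hfin
  refine Integrable.mono' hc ?_ ?_
  · exact ((hχ.meas k).mul hw.meas).aestronglyMeasurable.smul hF
  · filter_upwards [hχ.le_one k, ae_restrict_mem hK.compact.measurableSet] with x hx hxK
    have h0 : 0 ≤ χ k x := hχ.nonneg k x
    have h1 : 0 ≤ w x := by linarith [hw.lo x]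
    have h2 : w x ≤ 3 / 2 := hw.hi x
    have h3 : ‖F x‖ ≤ M := hM x hxK
    have h4 : 0 ≤ ‖F x‖ := norm_nonneg _
    rw [norm_smul, Real.norm_eq_abs, abs_of_nonneg (mul_nonneg h0 h1)]
    have h5 : χ k x * w x ≤ 3 / 2 := by nlinarith
    exact mul_le_mul h5 h3 h4 (by norm_num)

theorem inner_mom {K : Set (EuclideanSpace ℝ (Fin d))} {R : ℝ} (hK : Body K R) {w : (EuclideanSpace ℝ (Fin d)) → ℝ} (hw : Weight K w)
    {V : ι → ℝ} {χ : ι → (EuclideanSpace ℝ (Fin d)) → ℝ} (hχ : IsFuzzy K w V χ) (k : ι) (y : (EuclideanSpace ℝ (Fin d))) :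
    inner ℝ (mom K w χ k) y = ∫ x in K, χ k x * w x * inner ℝ x y := by
  have hint : IntegrableOn (fun x : (EuclideanSpace ℝ (Fin d)) => (χ k x * w x) • x) K :=
    hχ.integrableOn hK hw k (fun x => x) aestronglyMeasurable_id R hK.bound
  unfold mom
  rw [real_inner_comm, ← integral_inner hint y]
  refine integral_congr_ae (Filter.Eventually.of_forall (fun x => ?_))
  simp only [inner_smul_right, real_inner_comm]

theorem norm_mom_le {K : Set (EuclideanSpace ℝ (Fin d))} {R : ℝ} (hK : Body K R) {w : (EuclideanSpace ℝ (Fin d)) → ℝ} (hw : Weight K w)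
    {V : ι → ℝ} {χ : ι → (EuclideanSpace ℝ (Fin d)) → ℝ} (hχ : IsFuzzy K w V χ) (k : ι) :
    ‖mom K w χ k‖ ≤ R * V k := by
  have hint : IntegrableOn (fun x : (EuclideanSpace ℝ (Fin d)) => (χ k x * w x) • (1 : ℝ)) K :=
    hχ.integrableOn hK hw k (fun _ => (1 : ℝ)) aestronglyMeasurable_const 1 (by simp)
  have hint' : IntegrableOn (fun x : (EuclideanSpace ℝ (Fin d)) => χ k x * w x) K := by simpa using hint
  have h := norm_integral_le_of_norm_le (μ := volume.restrict K)
    (f := fun x : (EuclideanSpace ℝ (Fin d)) => (χ k x * w x) • x) (g := fun x => R * (χ k x * w x)) (hint'.const_mul R) (by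
      filter_upwards [ae_restrict_mem hK.compact.measurableSet] with x hxK
      have h0 : 0 ≤ χ k x := hχ.nonneg k x
      have h1 : 0 ≤ w x := by linarith [hw.lo x]
      rw [norm_smul, Real.norm_eq_abs, abs_of_nonneg (mul_nonneg h0 h1), mul_comm]
      exact mul_le_mul_of_nonneg_right (hK.bound x hxK) (mul_nonneg h0 h1))
  rw [integral_const_mul, hχ.mass k] at h
  exact h

/-- The value of a fuzzy partition is affine in the sites. -/
theorem val_add_sub (K : Set (EuclideanSpace ℝ (Fin d))) (w : (EuclideanSpace ℝ (Fin d)) → ℝ) (χ : ι → (EuclideanSpace ℝ (Fin d)) → ℝ) (y y' : ι → (EuclideanSpace ℝ (Fin d))) :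
    val K w χ y' = val K w χ y + ∑ k, inner ℝ (mom K w χ k) (y' k - y k) := by
  unfold val
  rw [← Finset.sum_add_distrib]
  refine Finset.sum_congr rfl (fun k _ => ?_)
  rw [inner_sub_right]
  ring

theorem exists_isFuzzy {K : Set (EuclideanSpace ℝ (Fin d))} {R : ℝ} (hK : Body K R) {w : (EuclideanSpace ℝ (Fin d)) → ℝ} (hw : Weight K w)
    {V : ι → ℝ} (hV : Masses K V) : ∃ χ : ι → (EuclideanSpace ℝ (Fin d)) → ℝ, IsFuzzy K w V χ := by
  have hfin : volume K ≠ ⊤ := hK.compact.measure_lt_top.ne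
  have hvol : (volume K).toReal ≠ 0 := ENNReal.toReal_ne_zero.mpr ⟨hK.vol_ne, hfin⟩
  refine ⟨fun k _ => V k / (volume K).toReal, ?_, ?_, ?_, ?_⟩
  · intro k
    exact measurable_const
  · intro k x
    exact div_nonneg (hV.pos k).le ENNReal.toReal_nonneg
  · refine Filter.Eventually.of_forall (fun x => ?_)
    rw [← Finset.sum_div, hV.total, div_self hvol]
  · intro k
    rw [integral_const_mul, hw.total, div_mul_cancel₀ _ hvol]

end Vale.Agent.P074.Third
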