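import Vale.Agent.P074.Third.Shift

open MeasureTheory Set Metric
open scoped ENNReal NNReal

namespace Vale.Agent.P074.Third

variable {d : ℕ}


variable {ι : Type*} [Fintype ι]

/-- Moving the mass `θ(x) dx` from `x` to `x + v` (keeping its label) turns a fuzzy partition for
the uniform density into one for the perturbed density, and shifts the moments explicitly. -/
theorem fuzzy_shift {K : Set (EuclideanSpace ℝ (Fin d))} {R : ℝ} (hK : Body K R) {V : ι → ℝ} {χ : ι → (EuclideanSpace ℝ (Fin d)) → ℝ}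
    (hχ : IsFuzzy K (fun _ => 1) V χ) (θ : (EuclideanSpace ℝ (Fin d)) → ℝ) (hθm : Measurable θ)
    (hθ0 : ∀ x, 0 ≤ θ x) (hθ1 : ∀ x, θ x ≤ 1 / 2) (v : (EuclideanSpace ℝ (Fin d)))
    (hθK : ∀ x, θ x ≠ 0 → x ∈ K ∧ x + v ∈ K) :
    ∃ χ' : ι → (EuclideanSpace ℝ (Fin d)) → ℝ, IsFuzzy K (fun x => 1 + θ (x - v) - θ x) V χ' ∧
      ∀ k, mom K (fun x => 1 + θ (x - v) - θ x) χ' k
        = mom K (fun _ => 1) χ k + (∫ x in K, θ x * χ k x) • v := by
  classical
  have hKm : MeasurableSet K := hK.compact.measurableSet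
  have hfin : volume K ≠ ⊤ := hK.compact.measure_lt_top.ne
  have hwpos : ∀ x, 0 < 1 + θ (x - v) - θ x := fun x => by
    have h1 := hθ0 (x - v)
    have h2 := hθ1 x
    linarith
  have hsubm : Measurable fun x : (EuclideanSpace ℝ (Fin d)) => x - v := measurable_id.sub_const v
  have hwm : Measurable fun x : (EuclideanSpace ℝ (Fin d)) => 1 + θ (x - v) - θ x :=
    (measurable_const.add (hθm.comp hsubm)).sub hθm
  let a : ι → (EuclideanSpace ℝ (Fin d)) → ℝ := fun k x => θ x * χ k x
  have ham : ∀ k, Measurable (a k) := fun k => hθm.mul (hχ.meas k)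
  have ham' : ∀ k, Measurable fun x => a k (x - v) := fun k => (ham k).comp hsubm
  have ha0 : ∀ k x, 0 ≤ a k x := fun k x => mul_nonneg (hθ0 x) (hχ.nonneg k x)
  have haχ : ∀ k x, a k x ≤ χ k x := fun k x => by
    have h1 : θ x * χ k x ≤ 1 * χ k x :=
      mul_le_mul_of_nonneg_right ((hθ1 x).trans (by norm_num)) (hχ.nonneg k x)
    simpa [a] using h1
  have hasupp : ∀ k x, a k x ≠ 0 → x ∈ K ∧ x + v ∈ K :=
    fun k x h => hθK x (left_ne_zero_of_mul h)
  have hale : ∀ k, ∀ᵐ x ∂(volume : Measure (EuclideanSpace ℝ (Fin d))), a k x ≤ 1 / 2 := by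
    intro k
    filter_upwards [(ae_restrict_iff' hKm).mp (hχ.le_one k)] with x hx
    by_cases h : θ x = 0
    · simp [a, h]
    · have h1 := hx (hθK x h).1
      calc a k x = θ x * χ k x := rfl
        _ ≤ 1 / 2 * 1 := mul_le_mul (hθ1 x) h1 (hχ.nonneg k x) (by norm_num)
        _ = 1 / 2 := by norm_num
  have hale' : ∀ k, ∀ᵐ x ∂(volume : Measure (EuclideanSpace ℝ (Fin d))), a k (x - v) ≤ 1 / 2 := fun k =>
    (measurePreserving_sub_right volume v).quasiMeasurePreserving.ae (hale k)
  have hsumshift : ∀ᵐ x ∂(volume : Measure (EuclideanSpace ℝ (Fin d))), x - v ∈ K → ∑ k, χ k (x - v) = 1 :=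
    (measurePreserving_sub_right volume v).quasiMeasurePreserving.ae
      ((ae_restrict_iff' hKm).mp hχ.sum_eq)
  have hprod : ∀ k x, (χ k x - a k x + a k (x - v)) / (1 + θ (x - v) - θ x)
      * (1 + θ (x - v) - θ x) = χ k x - a k x + a k (x - v) :=
    fun k x => div_mul_cancel₀ _ (hwpos x).ne'
  have hχi : ∀ k, IntegrableOn (χ k) K := fun k =>
    Measure.integrableOn_of_bounded (M := 1) hfin (hχ.meas k).aestronglyMeasurable (by
      filter_upwards [hχ.le_one k] with x hx
      rw [Real.norm_eq_abs, abs_of_nonneg (hχ.nonneg k x)]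
      exact hx)
  have hai : ∀ k, IntegrableOn (a k) K := fun k =>
    Measure.integrableOn_of_bounded (M := 1 / 2) hfin (ham k).aestronglyMeasurable (by
      filter_upwards [ae_restrict_of_ae (hale k)] with x hx
      rw [Real.norm_eq_abs, abs_of_nonneg (ha0 k x)]
      exact hx)
  have hai' : ∀ k, IntegrableOn (fun x => a k (x - v)) K := fun k =>
    Measure.integrableOn_of_bounded (M := 1 / 2) hfin (ham' k).aestronglyMeasurable (by
      filter_upwards [ae_restrict_of_ae (hale' k)] with x hx
      rw [Real.norm_eq_abs, abs_of_nonneg (ha0 k _)]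
      exact hx)
  have hsm : ∀ g : (EuclideanSpace ℝ (Fin d)) → ℝ, Measurable g → IntegrableOn g K →
      IntegrableOn (fun x => g x • x) K := by
    intro g hgm hg
    refine Integrable.mono' (hg.norm.const_mul R)
      (hgm.aestronglyMeasurable.smul aestronglyMeasurable_id) ?_
    filter_upwards [ae_restrict_mem hKm] with x hx
    rw [norm_smul, mul_comm]
    exact mul_le_mul_of_nonneg_right (hK.bound x hx) (norm_nonneg _)
  refine ⟨fun k x => (χ k x - a k x + a k (x - v)) / (1 + θ (x - v) - θ x), ⟨?_, ?_, ?_, ?_⟩, ?_⟩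
  · intro k
    exact (((hχ.meas k).sub (ham k)).add (ham' k)).div hwm
  · intro k x
    refine div_nonneg ?_ (hwpos x).le
    have h1 := haχ k x
    have h2 := ha0 k (x - v)
    linarith
  · filter_upwards [hχ.sum_eq, ae_restrict_of_ae hsumshift] with x h1 h2
    rw [← Finset.sum_div, div_eq_one_iff_eq (hwpos x).ne']
    have e1 : ∑ k, (χ k x - a k x + a k (x - v))
        = ∑ k, χ k x - θ x * ∑ k, χ k x + θ (x - v) * ∑ k, χ k (x - v) := by
      rw [Finset.mul_sum, Finset.mul_sum, ← Finset.sum_sub_distrib, ← Finset.sum_add_distrib]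
    rw [e1, h1]
    by_cases h : θ (x - v) = 0
    · rw [h]
      ring
    · rw [h2 (hθK _ h).1]
      ring
  · intro k
    simp only [hprod]
    rw [integral_add (f := fun x => χ k x - a k x) ((hχi k).sub (hai k)) (hai' k),
      integral_sub (hχi k) (hai k), setIntegral_shift K hKm v (a k) (hasupp k)]
    have h := hχ.mass k
    simp only [mul_one] at h
    rw [h]
    ring
  · intro k
    unfold mom
    simp only [hprod, mul_one]
    have e1 : ∀ x : (EuclideanSpace ℝ (Fin d)), (χ k x - a k x + a k (x - v)) • x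
        = χ k x • x - a k x • x + a k (x - v) • x := fun x => by
      rw [add_smul, sub_smul]
    simp only [e1]
    rw [integral_add (f := fun x => χ k x • x - a k x • x)
        ((hsm _ (hχ.meas k) (hχi k)).sub (hsm _ (ham k) (hai k))) (hsm _ (ham' k) (hai' k)),
      integral_sub (hsm _ (hχ.meas k) (hχi k)) (hsm _ (ham k) (hai k))]
    have e2 := setIntegral_shift K hKm v (fun x => a k x • (x + v)) (by
      intro x hx
      apply hasupp k x
      intro h0
      apply hx
      simp only [h0, zero_smul])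
    simp only [sub_add_cancel] at e2
    rw [e2]
    have e3 : ∫ x in K, a k x • (x + v) = (∫ x in K, a k x • x) + (∫ x in K, a k x) • v := by
      simp only [smul_add]
      rw [integral_add (hsm _ (ham k) (hai k)) ((hai k).smul_const v), integral_smul_const]
    rw [e3]
    abel

end Vale.Agent.P074.Third
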