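import Vale.Agent.P074.Third.Defs

open MeasureTheory Set Metric
open scoped ENNReal NNReal

namespace Vale.Agent.P074.Third

variable {d : ℕ}


theorem continuous_gw (κ : ℝ) : Continuous (gw κ : (EuclideanSpace ℝ (Fin d)) → ℝ) := by
  unfold gw
  fun_prop

theorem gw_pos (κ : ℝ) (x : (EuclideanSpace ℝ (Fin d))) : 0 < gw κ x := Real.exp_pos _

theorem gw_le_one (κ : ℝ) (hκ : 0 ≤ κ) (x : (EuclideanSpace ℝ (Fin d))) : gw κ x ≤ 1 := by
  unfold gw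
  rw [Real.exp_le_one_iff]
  have : 0 ≤ κ * ‖x‖ ^ 2 / 2 := by positivity
  linarith

/-- The exponent is between `0` and `1/256` on the ball. -/
private theorem expo_bounds (R : ℝ) (hR : 0 < R) (x : (EuclideanSpace ℝ (Fin d))) (hx : ‖x‖ ≤ R) :
    0 ≤ 1 / (128 * R ^ 2) * ‖x‖ ^ 2 / 2 ∧ 1 / (128 * R ^ 2) * ‖x‖ ^ 2 / 2 ≤ 1 / 256 := by
  constructor
  · positivity
  · have h1 : ‖x‖ ^ 2 ≤ R ^ 2 := by
      have := norm_nonneg x
      nlinarith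
    have hR2 : 0 < R ^ 2 := by positivity
    rw [div_mul_eq_mul_div, div_div, div_le_div_iff₀ (by positivity) (by norm_num)]
    nlinarith

/-- With `κ = 1 / (128 R²)` the Gaussian weight is at least `1/2` on the ball of radius `R`. -/
theorem half_le_gw (R : ℝ) (hR : 0 < R) (x : (EuclideanSpace ℝ (Fin d))) (hx : ‖x‖ ≤ R) :
    1 / 2 ≤ gw (1 / (128 * R ^ 2)) x := by
  unfold gw
  obtain ⟨h0, h1⟩ := expo_bounds R hR x hx
  have := Real.add_one_le_exp (-(1 / (128 * R ^ 2) * ‖x‖ ^ 2 / 2))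
  linarith

private theorem inv_gw_eq (κ : ℝ) (x : (EuclideanSpace ℝ (Fin d))) : (gw κ x)⁻¹ = Real.exp (κ * ‖x‖ ^ 2 / 2) := by
  unfold gw
  rw [Real.exp_neg, inv_inv]

private theorem inv_gw_le_two (R : ℝ) (hR : 0 < R) (x : (EuclideanSpace ℝ (Fin d))) (hx : ‖x‖ ≤ R) :
    (gw (1 / (128 * R ^ 2)) x)⁻¹ ≤ 2 := by
  have h := half_le_gw R hR x hx
  have hp := gw_pos (1 / (128 * R ^ 2)) x
  rw [inv_le_comm₀ hp (by norm_num)]
  linarith

private theorem exp_sub_le (s t : ℝ) (hs : Real.exp s ≤ 2) :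
    Real.exp s - Real.exp t ≤ 2 * |s - t| := by
  have h1 : t - s + 1 ≤ Real.exp (t - s) := Real.add_one_le_exp _
  have h2 : Real.exp t = Real.exp s * Real.exp (t - s) := by
    rw [← Real.exp_add]; congr 1; ring
  have hpos := Real.exp_pos s
  have h3 : Real.exp s - Real.exp t ≤ Real.exp s * (s - t) := by
    rw [h2]; nlinarith
  have h4 : s - t ≤ |s - t| := le_abs_self _
  have h5 : 0 ≤ |s - t| := abs_nonneg _
  nlinarith

/-- `1 / gw` is `1/(64 R)`-Lipschitz on the ball of radius `R`. -/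
theorem inv_gw_lipschitz (R : ℝ) (hR : 0 < R) (a b : (EuclideanSpace ℝ (Fin d))) (ha : ‖a‖ ≤ R) (hb : ‖b‖ ≤ R) :
    |(gw (1 / (128 * R ^ 2)) a)⁻¹ - (gw (1 / (128 * R ^ 2)) b)⁻¹| ≤ 1 / (64 * R) * ‖a - b‖ := by
  have hA := inv_gw_le_two R hR a ha
  have hB := inv_gw_le_two R hR b hb
  rw [inv_gw_eq] at hA hB ⊢
  rw [inv_gw_eq]
  set s := 1 / (128 * R ^ 2) * ‖a‖ ^ 2 / 2 with hs
  set t := 1 / (128 * R ^ 2) * ‖b‖ ^ 2 / 2 with ht
  have h1 := exp_sub_le s t hA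
  have h2 := exp_sub_le t s hB
  rw [abs_sub_comm t s] at h2
  have hst : |s - t| ≤ 1 / (128 * R) * ‖a - b‖ := by
    have e : s - t = 1 / (256 * R ^ 2) * ((‖a‖ - ‖b‖) * (‖a‖ + ‖b‖)) := by
      rw [hs, ht]; field_simp; ring
    rw [e, abs_mul, abs_mul]
    have k1 : |‖a‖ - ‖b‖| ≤ ‖a - b‖ := abs_norm_sub_norm_le a b
    have k2 : |‖a‖ + ‖b‖| ≤ 2 * R := by
      rw [abs_of_nonneg (by positivity)]; linarith
    have k3 : |1 / (256 * R ^ 2)| = 1 / (256 * R ^ 2) := abs_of_nonneg (by positivity)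
    rw [k3]
    have k4 : |‖a‖ - ‖b‖| * |‖a‖ + ‖b‖| ≤ ‖a - b‖ * (2 * R) :=
      mul_le_mul k1 k2 (abs_nonneg _) (norm_nonneg _)
    calc 1 / (256 * R ^ 2) * (|‖a‖ - ‖b‖| * |‖a‖ + ‖b‖|)
        ≤ 1 / (256 * R ^ 2) * (‖a - b‖ * (2 * R)) :=
          mul_le_mul_of_nonneg_left k4 (by positivity)
      _ = 1 / (128 * R) * ‖a - b‖ := by field_simp; ring
  have e2 : 1 / (64 * R) * ‖a - b‖ = 2 * (1 / (128 * R) * ‖a - b‖) := by
    field_simp; ring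
  rw [e2, abs_le]
  constructor <;> linarith

/-- `<u, x> / gw x` is `3`-Lipschitz on the ball of radius `R` when `|u| ≤ 1`. -/
theorem inner_inv_gw_lipschitz (R : ℝ) (hR : 0 < R) (u : (EuclideanSpace ℝ (Fin d))) (hu : ‖u‖ ≤ 1) (a b : (EuclideanSpace ℝ (Fin d)))
    (ha : ‖a‖ ≤ R) (hb : ‖b‖ ≤ R) :
    |inner ℝ u a * (gw (1 / (128 * R ^ 2)) a)⁻¹ - inner ℝ u b * (gw (1 / (128 * R ^ 2)) b)⁻¹|
      ≤ 3 * ‖a - b‖ := by
  have hA := inv_gw_le_two R hR a ha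
  have hA0 : 0 ≤ (gw (1 / (128 * R ^ 2)) a)⁻¹ := (inv_pos.mpr (gw_pos _ a)).le
  have hL := inv_gw_lipschitz R hR a b ha hb
  set A := (gw (1 / (128 * R ^ 2)) a)⁻¹
  set B := (gw (1 / (128 * R ^ 2)) b)⁻¹
  have e : inner ℝ u a * A - inner ℝ u b * B
      = inner ℝ u (a - b) * A + inner ℝ u b * (A - B) := by
    rw [inner_sub_right]; ring
  rw [e]
  have h1 : |inner ℝ u (a - b)| ≤ ‖a - b‖ := by
    calc |inner ℝ u (a - b)| ≤ ‖u‖ * ‖a - b‖ := abs_real_inner_le_norm _ _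
      _ ≤ 1 * ‖a - b‖ := mul_le_mul_of_nonneg_right hu (norm_nonneg _)
      _ = ‖a - b‖ := one_mul _
  have h2 : |inner ℝ u b| ≤ R := by
    calc |inner ℝ u b| ≤ ‖u‖ * ‖b‖ := abs_real_inner_le_norm _ _
      _ ≤ 1 * R := mul_le_mul hu hb (norm_nonneg _) (by norm_num)
      _ = R := one_mul _
  have t1 : |inner ℝ u (a - b) * A| ≤ ‖a - b‖ * 2 := by
    rw [abs_mul, abs_of_nonneg hA0]
    exact mul_le_mul h1 hA hA0 (norm_nonneg _)
  have t2 : |inner ℝ u b * (A - B)| ≤ R * (1 / (64 * R) * ‖a - b‖) := by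
    rw [abs_mul]
    exact mul_le_mul h2 hL (abs_nonneg _) hR.le
  have e3 : R * (1 / (64 * R) * ‖a - b‖) = 1 / 64 * ‖a - b‖ := by
    field_simp
  have hn := norm_nonneg (a - b)
  calc |inner ℝ u (a - b) * A + inner ℝ u b * (A - B)|
      ≤ |inner ℝ u (a - b) * A| + |inner ℝ u b * (A - B)| := abs_add_le _ _
    _ ≤ ‖a - b‖ * 2 + 1 / 64 * ‖a - b‖ := by rw [← e3]; exact add_le_add t1 t2
    _ ≤ 3 * ‖a - b‖ := by linarith

end Vale.Agent.P074.Third
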