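import Vale.Agent.P074.Third.Fuzzy

open MeasureTheory Set Metric
open scoped ENNReal NNReal

namespace Vale.Agent.P074.Third

variable {d : ℕ}

variable {ι : Type*} [Fintype ι]

/-- The constant weight `1`. -/
theorem weight_one_marginal (K : Set (EuclideanSpace ℝ (Fin d))) :
    Weight K (fun _ => (1 : ℝ)) := by
  refine ⟨measurable_const, fun _ => by norm_num, fun _ => by norm_num, ?_⟩
  simp [Measure.real]

/-- The labelled discrete measure evaluated on a measurable set. -/
theorem discrete_apply (V : ι → ℝ) (y : ι → EuclideanSpace ℝ (Fin d))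
    {s : Set (EuclideanSpace ℝ (Fin d))} (hs : MeasurableSet s) :
    (∑ k, ENNReal.ofReal (V k) • Measure.dirac (y k) : Measure (EuclideanSpace ℝ (Fin d))) s
      = ∑ k, ENNReal.ofReal (V k) * s.indicator 1 (y k) := by
  rw [Measure.finsetSum_apply]
  refine Finset.sum_congr rfl (fun k _ => ?_)
  rw [Measure.smul_apply, Measure.dirac_apply' _ hs, smul_eq_mul]

/-- If the labelled discrete measure `∑ V k δ_{y k}` is the image of Lebesgue measure on `K` under
`Tq`, there is a fuzzy partition whose `k`-th piece lives where `Tq x = y k`. -/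
theorem exists_fuzzy_of_marginal {K : Set (EuclideanSpace ℝ (Fin d))} {R : ℝ} (hK : Body K R)
    {V : ι → ℝ} (hV : Masses K V) (y : ι → EuclideanSpace ℝ (Fin d))
    (Tq : EuclideanSpace ℝ (Fin d) → EuclideanSpace ℝ (Fin d)) (hTq : Measurable Tq)
    (hmarg : Measure.map Tq (volume.restrict K) = ∑ k, ENNReal.ofReal (V k) • Measure.dirac (y k)) :
    ∃ χ : ι → EuclideanSpace ℝ (Fin d) → ℝ,
      IsFuzzy K (fun _ => 1) V χ ∧ ∀ k x, χ k x ≠ 0 → Tq x = y k := by
  classical
  -- total mass sitting at the point `a`
  set W : EuclideanSpace ℝ (Fin d) → ℝ := fun a => ∑ j, if y j = a then V j else 0 with hW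
  have hWpos : ∀ k, 0 < W (y k) := by
    intro k
    have h1 : V k ≤ W (y k) := by
      have := Finset.single_le_sum (f := fun j => if y j = y k then V j else 0)
        (fun j _ => by
          show 0 ≤ if y j = y k then V j else 0
          split_ifs
          · exact (hV.pos j).le
          · exact le_rfl) (Finset.mem_univ k)
      simpa using this
    exact lt_of_lt_of_le (hV.pos k) h1
  have hfib : ∀ a, (volume.restrict K) (Tq ⁻¹' {a}) = ENNReal.ofReal (W a) := by
    intro a
    have hs : MeasurableSet ({a} : Set (EuclideanSpace ℝ (Fin d))) := measurableSet_singleton a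
    rw [← Measure.map_apply hTq hs, hmarg, discrete_apply V y hs, hW]
    simp only
    rw [ENNReal.ofReal_sum_of_nonneg]
    · refine Finset.sum_congr rfl (fun j _ => ?_)
      by_cases h : y j = a
      · simp [h]
      · simp [h]
    · intro j _
      split_ifs
      · exact (hV.pos j).le
      · exact le_rfl
  have hrange : ∀ᵐ x ∂(volume.restrict K), Tq x ∈ range y := by
    have hs : MeasurableSet ((range y)ᶜ : Set (EuclideanSpace ℝ (Fin d))) :=
      (finite_range y).measurableSet.compl
    have h0 : (volume.restrict K) (Tq ⁻¹' (range y)ᶜ) = 0 := by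
      rw [← Measure.map_apply hTq hs, hmarg, discrete_apply V y hs]
      refine Finset.sum_eq_zero (fun j _ => ?_)
      simp
    rw [ae_iff]
    exact h0
  refine ⟨fun k => (Tq ⁻¹' {y k}).indicator (fun _ => V k / W (y k)), ⟨?_, ?_, ?_, ?_⟩, ?_⟩
  · intro k
    exact measurable_const.indicator (hTq (measurableSet_singleton _))
  · intro k x
    exact indicator_nonneg (fun _ _ => div_nonneg (hV.pos k).le (hWpos k).le) x
  · filter_upwards [hrange] with x hx
    obtain ⟨k0, hk0⟩ := hx
    have h1 : ∀ k, (Tq ⁻¹' {y k}).indicator (fun _ => V k / W (y k)) x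
        = (if y k = y k0 then V k else 0) / W (y k0) := by
      intro k
      by_cases h : y k = y k0
      · have hx : x ∈ Tq ⁻¹' {y k} := by
          simp [← hk0, h]
        rw [indicator_of_mem hx, if_pos h, h]
      · have hx : x ∉ Tq ⁻¹' {y k} := by
          simp only [mem_preimage, mem_singleton_iff, ← hk0]
          exact fun h' => h h'.symm
        rw [indicator_of_notMem hx, if_neg h, zero_div]
    simp only [h1]
    rw [← Finset.sum_div]
    exact div_self (hWpos k0).ne'
  · intro k
    simp only [mul_one]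
    rw [integral_indicator (hTq (measurableSet_singleton _)), setIntegral_const, smul_eq_mul,
      Measure.real, hfib, ENNReal.toReal_ofReal (hWpos k).le]
    field_simp [(hWpos k).ne']
  · intro k x hx
    have : x ∈ Tq ⁻¹' {y k} := by
      by_contra h
      exact hx (indicator_of_notMem h _)
    exact this

/-- Integration against the labelled discrete measure. -/
theorem sum_mass_mul_eq {K : Set (EuclideanSpace ℝ (Fin d))} {R : ℝ} (hK : Body K R) {V : ι → ℝ}
    (hV : Masses K V) (y : ι → EuclideanSpace ℝ (Fin d))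
    (Tq : EuclideanSpace ℝ (Fin d) → EuclideanSpace ℝ (Fin d)) (hTq : Measurable Tq)
    (hmarg : Measure.map Tq (volume.restrict K) = ∑ k, ENNReal.ofReal (V k) • Measure.dirac (y k))
    (F : EuclideanSpace ℝ (Fin d) → ℝ) (hF : Continuous F) :
    ∑ k, V k * F (y k) = ∫ x in K, F (Tq x) := by
  rw [← integral_map hTq.aemeasurable hF.aestronglyMeasurable, hmarg,
    integral_finsetSum_measure]
  · refine Finset.sum_congr rfl (fun k _ => ?_)
    rw [integral_smul_measure, integral_dirac, ENNReal.toReal_ofReal (hV.pos k).le, smul_eq_mul]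
  · intro k _
    refine Integrable.smul_measure ?_ ENNReal.ofReal_ne_top
    exact integrable_dirac (by simp)

/-- For a fuzzy partition whose `k`-th piece lives where `Tq x = y k`. -/
theorem sum_integral_fuzzy_eq {K : Set (EuclideanSpace ℝ (Fin d))} {R : ℝ} (hK : Body K R)
    {V : ι → ℝ} {χ : ι → EuclideanSpace ℝ (Fin d) → ℝ} (hχ : IsFuzzy K (fun _ => 1) V χ)
    (y : ι → EuclideanSpace ℝ (Fin d))
    (Tq : EuclideanSpace ℝ (Fin d) → EuclideanSpace ℝ (Fin d))
    (hχT : ∀ k x, χ k x ≠ 0 → Tq x = y k) (a : EuclideanSpace ℝ (Fin d) → ℝ) (ha : Measurable a)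
    (M : ℝ) (haM : ∀ x, |a x| ≤ M) (b : EuclideanSpace ℝ (Fin d) → EuclideanSpace ℝ (Fin d))
    (hb : Measurable b) (hbM : ∀ x ∈ K, ‖b x‖ ≤ M) :
    ∑ k, ∫ x in K, a x * χ k x * inner ℝ (b x) (y k) = ∫ x in K, a x * inner ℝ (b x) (Tq x) := by
  have hint : ∀ k, IntegrableOn (fun x => a x * χ k x * inner ℝ (b x) (y k)) K := by
    intro k
    have hM0 : 0 ≤ M := le_trans (abs_nonneg _) (haM 0)
    have h := hχ.integrableOn hK (weight_one_marginal K) k (fun x => a x * inner ℝ (b x) (y k))
      (ha.mul (hb.inner measurable_const)).aestronglyMeasurable (M * (M * ‖y k‖)) (by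
        intro x hx
        rw [norm_mul, Real.norm_eq_abs]
        refine mul_le_mul (haM x) ?_ (norm_nonneg _) hM0
        exact le_trans (norm_inner_le_norm _ _)
          (mul_le_mul_of_nonneg_right (hbM x hx) (norm_nonneg _)))
    refine h.congr (Filter.Eventually.of_forall (fun x => ?_))
    simp only [smul_eq_mul]
    ring
  rw [← integral_finsetSum _ (fun k _ => hint k)]
  refine integral_congr_ae ?_
  filter_upwards [hχ.sum_eq] with x hx
  have h1 : ∀ k, a x * χ k x * inner ℝ (b x) (y k) = χ k x * (a x * inner ℝ (b x) (Tq x)) := by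
    intro k
    by_cases h : χ k x = 0
    · simp [h]
    · rw [hχT k x h]
      ring
  simp only [h1]
  rw [← Finset.sum_mul, hx, one_mul]

end Vale.Agent.P074.Third
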