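import Vale.Agent.P074.Lower.Conjugate
import Vale.Agent.P074.Lower.Gap
import Vale.Agent.P074.Third.Corr
import Vale.Agent.P074.Third.FuzzyShift
import Vale.Agent.P074.Third.Marginal

open MeasureTheory Set Metric
open scoped ENNReal NNReal

namespace Vale.Agent.P074.Third

open Vale.Agent.P074 Vale.Agent.P074.Lower

variable {d : ℕ}


variable {ι : Type*} [Fintype ι]

private theorem weight_one' {K : Set (EuclideanSpace ℝ (Fin d))} {R : ℝ} (_hK : Body K R) :
    Weight K (fun _ => (1 : ℝ)) := by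
  refine ⟨measurable_const, fun _ => by norm_num, fun _ => by norm_num, ?_⟩
  simp [Measure.real]

/-- The value of a fuzzy partition adapted to `Tq`, for the uniform density. -/
private theorem val_one_eq {K : Set (EuclideanSpace ℝ (Fin d))} {R : ℝ} (hK : Body K R) {V : ι → ℝ}
    {χ : ι → (EuclideanSpace ℝ (Fin d)) → ℝ} (hχ : IsFuzzy K (fun _ => 1) V χ) (y : ι → (EuclideanSpace ℝ (Fin d))) (Tq : (EuclideanSpace ℝ (Fin d)) → (EuclideanSpace ℝ (Fin d)))
    (hχT : ∀ k x, χ k x ≠ 0 → Tq x = y k) :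
    val K (fun _ => 1) χ y = ∫ x in K, inner ℝ x (Tq x) := by
  have h := sum_integral_fuzzy_eq hK hχ y Tq hχT (fun _ => (1 : ℝ)) measurable_const (max 1 R)
    (fun x => by simp) (fun x => x) measurable_id
    (fun x hx => (hK.bound x hx).trans (le_max_right _ _))
  simp only [one_mul] at h
  rw [← h]
  unfold val
  refine Finset.sum_congr rfl fun k _ => ?_
  rw [inner_mom hK (weight_one' hK) hχ k (y k)]
  simp only [mul_one]

/-- Lower bound for the maximal correlation with the uniform density. -/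
theorem corr_one_ge {K : Set (EuclideanSpace ℝ (Fin d))} {R : ℝ} (hK : Body K R) {V : ι → ℝ}
    (hV : Masses K V) (y : ι → (EuclideanSpace ℝ (Fin d))) (Tq : (EuclideanSpace ℝ (Fin d)) → (EuclideanSpace ℝ (Fin d))) (hTq : Measurable Tq)
    (hmarg : Measure.map Tq (volume.restrict K) = ∑ k, ENNReal.ofReal (V k) • Measure.dirac (y k)) :
    ∫ x in K, inner ℝ x (Tq x) ≤ corr K (fun _ => 1) V y := by
  obtain ⟨χ, hχ, hχT⟩ := exists_fuzzy_of_marginal hK hV y Tq hTq hmarg
  rw [← val_one_eq hK hχ y Tq hχT]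
  exact val_le_corr hK (weight_one' hK) hV y hχ

/-- Lower bound for the maximal correlation with the perturbed density. -/
theorem corr_shift_ge {K : Set (EuclideanSpace ℝ (Fin d))} {R : ℝ} (hK : Body K R) {V : ι → ℝ}
    (hV : Masses K V) (y : ι → (EuclideanSpace ℝ (Fin d))) (Tq : (EuclideanSpace ℝ (Fin d)) → (EuclideanSpace ℝ (Fin d))) (hTq : Measurable Tq)
    (hmarg : Measure.map Tq (volume.restrict K) = ∑ k, ENNReal.ofReal (V k) • Measure.dirac (y k))
    (θ : (EuclideanSpace ℝ (Fin d)) → ℝ) (hθm : Measurable θ) (hθ0 : ∀ x, 0 ≤ θ x) (hθ1 : ∀ x, θ x ≤ 1 / 2) (v : (EuclideanSpace ℝ (Fin d)))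
    (hθK : ∀ x, θ x ≠ 0 → x ∈ K ∧ x + v ∈ K) :
    (∫ x in K, inner ℝ x (Tq x)) + ∫ x in K, θ x * inner ℝ v (Tq x)
      ≤ corr K (fun x => 1 + θ (x - v) - θ x) V y := by
  obtain ⟨χ, hχ, hχT⟩ := exists_fuzzy_of_marginal hK hV y Tq hTq hmarg
  obtain ⟨χ', hχ', hmom⟩ := fuzzy_shift hK hχ θ hθm hθ0 hθ1 v hθK
  have hw := weight_shift hK θ hθm hθ0 hθ1 v hθK
  have h1 := val_le_corr hK hw hV y hχ'
  have h2 := sum_integral_fuzzy_eq hK hχ y Tq hχT θ hθm (max (1 / 2) ‖v‖)
    (fun x => by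
      rw [abs_of_nonneg (hθ0 x)]
      exact (hθ1 x).trans (le_max_left _ _))
    (fun _ => v) measurable_const (fun x _ => le_max_right _ _)
  have h3 : val K (fun x => 1 + θ (x - v) - θ x) χ' y =
      val K (fun _ => 1) χ y + ∑ k, ∫ x in K, θ x * χ k x * inner ℝ v (y k) := by
    unfold val
    rw [← Finset.sum_add_distrib]
    refine Finset.sum_congr rfl fun k _ => ?_
    rw [hmom k, inner_add_left, inner_smul_left, integral_mul_const]
    simp
  rw [h3, h2, val_one_eq hK hχ y Tq hχT] at h1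
  exact h1

/-- Upper bound for the maximal correlation by weak duality. -/
theorem corr_le_conj {K : Set (EuclideanSpace ℝ (Fin d))} {R : ℝ} (hK : Body K R) {w : (EuclideanSpace ℝ (Fin d)) → ℝ} (hw : Weight K w)
    {V : ι → ℝ} (hV : Masses K V) (y : ι → (EuclideanSpace ℝ (Fin d))) (Tq : (EuclideanSpace ℝ (Fin d)) → (EuclideanSpace ℝ (Fin d))) (hTq : Measurable Tq)
    (hmarg : Measure.map Tq (volume.restrict K) = ∑ k, ENNReal.ofReal (V k) • Measure.dirac (y k))
    (φ : (EuclideanSpace ℝ (Fin d)) → ℝ) (hφ : Continuous φ) :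
    corr K w V y ≤ (∫ x in K, φ x * w x) + ∫ x in K, conj K φ (Tq x) := by
  have hne : K.Nonempty := by
    rw [Set.nonempty_iff_ne_empty]
    intro h
    exact hK.vol_ne (by rw [h]; simp)
  have h1 := corr_le_dual hK hw hV y φ hφ (conj K φ) (fun x hx k => by
    have := le_conj K hK.compact φ hφ x (y k) hx
    linarith)
  rw [sum_mass_mul_eq hK hV y Tq hTq hmarg (conj K φ)
    (continuous_conj K hK.compact hne φ hφ)] at h1
  exact h1

end Vale.Agent.P074.Third
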