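import Vale.Agent.P074.Defs
import Vale.Agent.P074.Third.Defs

open MeasureTheory Set Metric
open scoped ENNReal NNReal

namespace Vale.Agent.P074.Third

open Vale.Agent.P074

variable {d : ℕ}


/-- The restriction of a measure to a finite set is a finite sum of point masses. -/
theorem restrict_finset_eq_sum {α : Type*} [MeasurableSpace α] [MeasurableSingletonClass α]
    (ν : Measure α) (G : Finset α) :
    ν.restrict (G : Set α) = ∑ g ∈ G, ν {g} • Measure.dirac g := by
  classical
  induction G using Finset.induction_on with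
  | empty => simp
  | insert a G ha ih =>
    rw [Finset.sum_insert ha, Finset.coe_insert, Set.insert_eq,
      Measure.restrict_union (by simpa using ha) G.measurableSet, Measure.restrict_singleton, ih]

/-- A measure carried by a finite set is the sum of its (nonzero) point masses. -/
theorem eq_sum_dirac_of_finset {α : Type*} [MeasurableSpace α] [MeasurableSingletonClass α]
    [DecidableEq α] (ν : Measure α) (G : Finset α) (hG : ν (G : Set α)ᶜ = 0) :
    ν = ∑ g ∈ G.filter (fun g => ν {g} ≠ 0), ν {g} • Measure.dirac g := by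
  have h1 : ν.restrict (G : Set α) = ν := by
    apply Measure.restrict_eq_self_of_ae_mem
    rw [ae_iff]
    exact hG
  have h2 := restrict_finset_eq_sum ν G
  rw [h1] at h2
  rw [Finset.sum_filter]
  conv_lhs => rw [h2]
  refine Finset.sum_congr rfl (fun g _ => ?_)
  by_cases hg : ν {g} = 0
  · simp [hg]
  · simp [hg]

/-- Discretisation of a coupling: the labels are the pairs `(a, b)` of values of the rounding map
`P` which carry positive mass. -/
theorem exists_labels {K : Set (EuclideanSpace ℝ (Fin d))} {R : ℝ} (hK : Body K R) (T S : (EuclideanSpace ℝ (Fin d)) → (EuclideanSpace ℝ (Fin d))) (hT : Measurable T)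
    (hS : Measurable S) (π : Measure ((EuclideanSpace ℝ (Fin d)) × (EuclideanSpace ℝ (Fin d))))
    (h1 : Measure.map Prod.fst π = Measure.map T (unif K))
    (h2 : Measure.map Prod.snd π = Measure.map S (unif K)) (P : SimpleFunc (EuclideanSpace ℝ (Fin d)) (EuclideanSpace ℝ (Fin d))) :
    ∃ (F : Finset ((EuclideanSpace ℝ (Fin d)) × (EuclideanSpace ℝ (Fin d)))) (V : F → ℝ), F.Nonempty ∧ Masses K V ∧
      Measure.map (fun x => P (T x)) (volume.restrict K)
        = ∑ k : F, ENNReal.ofReal (V k) • Measure.dirac k.1.1 ∧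
      Measure.map (fun x => P (S x)) (volume.restrict K)
        = ∑ k : F, ENNReal.ofReal (V k) • Measure.dirac k.1.2 ∧
      ∑ k : F, V k * ‖k.1.1 - k.1.2‖ ^ 2
        = (volume K).toReal * ∫ p, ‖P p.1 - P p.2‖ ^ 2 ∂π := by
  classical
  have hfin : volume K ≠ ⊤ := hK.compact.measure_lt_top.ne
  have hne : volume K ≠ 0 := hK.vol_ne
  have hvolpos : 0 < (volume K).toReal := ENNReal.toReal_pos hne hfin
  -- the uniform measure
  have hunif : unif K univ = 1 := by
    simp only [unif, Measure.smul_apply, Measure.restrict_apply MeasurableSet.univ, univ_inter,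
      smul_eq_mul]
    exact ENNReal.inv_mul_cancel hne hfin
  have hrestr : volume.restrict K = volume K • unif K := by
    simp only [unif]
    rw [smul_smul, ENNReal.mul_inv_cancel hne hfin, one_smul]
  have hπ : π univ = 1 := by
    have : (Measure.map Prod.fst π) univ = 1 := by
      rw [h1, Measure.map_apply hT MeasurableSet.univ, preimage_univ, hunif]
    rwa [Measure.map_apply measurable_fst MeasurableSet.univ, preimage_univ] at this
  -- the rounded coupling
  let Q : (EuclideanSpace ℝ (Fin d)) × (EuclideanSpace ℝ (Fin d)) → (EuclideanSpace ℝ (Fin d)) × (EuclideanSpace ℝ (Fin d)) := fun p => (P p.1, P p.2)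
  have hQ : Measurable Q :=
    (P.measurable.comp measurable_fst).prodMk (P.measurable.comp measurable_snd)
  set ν : Measure ((EuclideanSpace ℝ (Fin d)) × (EuclideanSpace ℝ (Fin d))) := Measure.map Q π with hν
  have hνuniv : ν univ = 1 := by
    rw [hν, Measure.map_apply hQ MeasurableSet.univ, preimage_univ, hπ]
  let G : Finset ((EuclideanSpace ℝ (Fin d)) × (EuclideanSpace ℝ (Fin d))) := P.range ×ˢ P.range
  have hG : ν (G : Set ((EuclideanSpace ℝ (Fin d)) × (EuclideanSpace ℝ (Fin d))))ᶜ = 0 := by
    rw [hν, Measure.map_apply hQ G.measurableSet.compl]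
    have : Q ⁻¹' (G : Set ((EuclideanSpace ℝ (Fin d)) × (EuclideanSpace ℝ (Fin d))))ᶜ = ∅ := by
      ext p
      simp [Q, G]
    rw [this, measure_empty]
  set F : Finset ((EuclideanSpace ℝ (Fin d)) × (EuclideanSpace ℝ (Fin d))) := G.filter (fun g => ν {g} ≠ 0) with hF
  have hνsum : ν = ∑ g ∈ F, ν {g} • Measure.dirac g := eq_sum_dirac_of_finset ν G hG
  have hνfin : ∀ g, ν {g} ≠ ⊤ := by
    intro g
    have : ν {g} ≤ 1 := hνuniv ▸ measure_mono (subset_univ _)
    exact ne_top_of_le_ne_top ENNReal.one_ne_top this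
  have hmass : ∑ g ∈ F, ν {g} = 1 := by
    have h3 : (∑ g ∈ F, ν {g} • Measure.dirac g) univ = 1 := by
      rw [← hνsum]
      exact hνuniv
    rw [Measure.finsetSum_apply] at h3
    simpa using h3
  have hofReal : ∀ g, ENNReal.ofReal ((volume K).toReal * (ν {g}).toReal) = volume K * ν {g} := by
    intro g
    rw [← ENNReal.toReal_mul, ENNReal.ofReal_toReal (ENNReal.mul_ne_top hfin (hνfin g))]
  -- general marginal computation
  have hmarg : ∀ (U : (EuclideanSpace ℝ (Fin d)) → (EuclideanSpace ℝ (Fin d))) (pr : (EuclideanSpace ℝ (Fin d)) × (EuclideanSpace ℝ (Fin d)) → (EuclideanSpace ℝ (Fin d))), Measurable U → Measurable pr →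
      (∀ p, pr (Q p) = P (pr p)) → Measure.map pr π = Measure.map U (unif K) →
      Measure.map (fun x => P (U x)) (volume.restrict K)
        = ∑ g ∈ F, ENNReal.ofReal ((volume K).toReal * (ν {g}).toReal) • Measure.dirac (pr g) := by
    intro U pr hU hpr hprQ hmap
    have e1 : Measure.map (fun x => P (U x)) (unif K) = Measure.map pr ν := by
      have : (fun x => P (U x)) = P ∘ U := rfl
      rw [this, ← Measure.map_map P.measurable hU, ← hmap, Measure.map_map P.measurable hpr, hν,
        Measure.map_map hpr hQ]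
      refine congrArg (fun f => Measure.map f π) ?_
      funext p
      exact (hprQ p).symm
    have e2 : Measure.map pr ν = ∑ g ∈ F, ν {g} • Measure.dirac (pr g) := by
      conv_lhs => rw [hνsum]
      rw [Measure.map_finset_sum hpr.aemeasurable]
      refine Finset.sum_congr rfl (fun g _ => ?_)
      rw [Measure.map_smul, Measure.map_dirac]
    rw [hrestr, Measure.map_smul, e1, e2, Finset.smul_sum]
    refine Finset.sum_congr rfl (fun g _ => ?_)
    rw [hofReal, smul_smul]
  refine ⟨F, fun k => (volume K).toReal * (ν {k.1}).toReal, ?_, ⟨?_, ?_⟩, ?_, ?_, ?_⟩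
  · by_contra hemp
    rw [Finset.not_nonempty_iff_eq_empty] at hemp
    rw [hemp] at hmass
    simp at hmass
  · intro k
    have hk : ν {k.1} ≠ 0 := (Finset.mem_filter.mp k.2).2
    exact mul_pos hvolpos (ENNReal.toReal_pos hk (hνfin _))
  · rw [← Finset.mul_sum, Finset.sum_coe_sort F (fun g => (ν {g}).toReal),
      ← ENNReal.toReal_sum (fun g _ => hνfin g), hmass]
    simp
  · rw [hmarg T Prod.fst hT measurable_fst (fun _ => rfl) h1]
    exact (Finset.sum_coe_sort F (fun g =>
      ENNReal.ofReal ((volume K).toReal * (ν {g}).toReal) • Measure.dirac g.1)).symm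
  · rw [hmarg S Prod.snd hS measurable_snd (fun _ => rfl) h2]
    exact (Finset.sum_coe_sort F (fun g =>
      ENNReal.ofReal ((volume K).toReal * (ν {g}).toReal) • Measure.dirac g.2)).symm
  · rw [Finset.sum_coe_sort F (fun g => (volume K).toReal * (ν {g}).toReal * ‖g.1 - g.2‖ ^ 2)]
    have hcont : Continuous (fun q : (EuclideanSpace ℝ (Fin d)) × (EuclideanSpace ℝ (Fin d)) => ‖q.1 - q.2‖ ^ 2) := by fun_prop
    have e3 : ∫ p, ‖P p.1 - P p.2‖ ^ 2 ∂π = ∫ q, ‖q.1 - q.2‖ ^ 2 ∂ν := by
      rw [hν, integral_map hQ.aemeasurable hcont.aestronglyMeasurable]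
    have e4 : ∫ q, ‖q.1 - q.2‖ ^ 2 ∂ν = ∑ g ∈ F, (ν {g}).toReal * ‖g.1 - g.2‖ ^ 2 := by
      conv_lhs => rw [hνsum]
      rw [integral_finsetSum_measure]
      · refine Finset.sum_congr rfl (fun g _ => ?_)
        rw [integral_smul_measure, integral_dirac, smul_eq_mul]
      · intro g _
        exact (integrable_dirac (by simp)).smul_measure (hνfin g)
    rw [e3, e4, Finset.mul_sum]
    refine Finset.sum_congr rfl (fun g _ => ?_)
    ring

end Vale.Agent.P074.Third
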