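import Vale.Agent.P074.Third.MassLe

open MeasureTheory Set Metric
open scoped ENNReal NNReal

namespace Vale.Agent.P074.Third

variable {d : ℕ}


variable {ι : Type*} [Fintype ι] [Nonempty ι]

/-- Existence of Laguerre cells with prescribed masses. -/
theorem laguerre_exists {K : Set (EuclideanSpace ℝ (Fin d))} {R : ℝ} (hK : Body K R) {w : (EuclideanSpace ℝ (Fin d)) → ℝ} (hw : Weight K w)
    {V : ι → ℝ} (hV : Masses K V) (y : ι → (EuclideanSpace ℝ (Fin d))) (hy : Function.Injective y) :
    ∃ c : ι → ℝ, ∀ k, ∫ x in cell K y c k, w x = V k := by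
  obtain ⟨c, hc⟩ := exists_lagG_min hK hw hV y
  refine ⟨c, ?_⟩
  have hle : ∀ k ∈ Finset.univ, ∫ x in cell K y c k, w x ≤ V k :=
    fun k _ => mass_le_of_min hK hw hV y hy c hc k
  have hint : IntegrableOn w K := by
    refine Measure.integrableOn_of_bounded (M := 3 / 2) hK.compact.measure_lt_top.ne
      hw.meas.aestronglyMeasurable ?_
    refine Filter.Eventually.of_forall fun x => ?_
    rw [Real.norm_eq_abs, abs_le]
    constructor
    · have := hw.lo x; linarith
    · exact hw.hi x
  have hsum : ∑ k, ∫ x in cell K y c k, w x = ∑ k, V k := by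
    rw [sum_setIntegral_cell K hK.compact.isClosed y hy c w hint, hw.total, hV.total]
  have := (Finset.sum_eq_sum_iff_of_le hle).mp hsum
  exact fun k => this k (Finset.mem_univ k)

end Vale.Agent.P074.Third
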