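import Vale.Agent.P074.Third.CellSum
import Vale.Agent.P074.Third.Corr

open MeasureTheory Set Metric
open scoped ENNReal NNReal

namespace Vale.Agent.P074.Third

variable {d : ℕ}


variable {ι : Type*} [Fintype ι] [Nonempty ι]

/-- The indicator functions of Laguerre cells with the right masses form a fuzzy partition. -/
theorem cell_isFuzzy {K : Set (EuclideanSpace ℝ (Fin d))} {R : ℝ} (hK : Body K R) {w : (EuclideanSpace ℝ (Fin d)) → ℝ} (hw : Weight K w)
    {V : ι → ℝ} (y : ι → (EuclideanSpace ℝ (Fin d))) (hy : Function.Injective y) (c : ι → ℝ)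
    (hc : ∀ k, ∫ x in cell K y c k, w x = V k) :
    IsFuzzy K w V (fun k => (cell K y c k).indicator (fun _ => (1 : ℝ))) := by
  refine ⟨fun k => measurable_const.indicator (measurableSet_cell K hK.compact.isClosed y c k),
    fun k x => Set.indicator_nonneg (fun _ _ => zero_le_one) x,
    ae_sum_indicator_cell K hK.compact.isClosed y hy c, fun k => ?_⟩
  have h1 : (fun x => (cell K y c k).indicator (fun _ => (1 : ℝ)) x * w x)
      = (cell K y c k).indicator w := by
    funext x
    by_cases hx : x ∈ cell K y c k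
    · simp [Set.indicator_of_mem hx]
    · simp [Set.indicator_of_notMem hx]
  rw [h1, setIntegral_indicator (measurableSet_cell K hK.compact.isClosed y c k),
    Set.inter_eq_self_of_subset_right (cell_subset K y c k), hc k]

theorem mom_cell {K : Set (EuclideanSpace ℝ (Fin d))} {R : ℝ} (hK : Body K R) (w : (EuclideanSpace ℝ (Fin d)) → ℝ)
    (y : ι → (EuclideanSpace ℝ (Fin d))) (c : ι → ℝ) (k : ι) :
    mom K w (fun k => (cell K y c k).indicator (fun _ => (1 : ℝ))) k
      = ∫ x in cell K y c k, w x • x := by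
  unfold mom
  have h1 : (fun x => ((cell K y c k).indicator (fun _ => (1 : ℝ)) x * w x) • x)
      = (cell K y c k).indicator (fun x => w x • x) := by
    funext x
    by_cases hx : x ∈ cell K y c k
    · simp [Set.indicator_of_mem hx]
    · simp [Set.indicator_of_notMem hx]
  rw [h1, setIntegral_indicator (measurableSet_cell K hK.compact.isClosed y c k),
    Set.inter_eq_self_of_subset_right (cell_subset K y c k)]

/-- integrability of the shifted integrand -/
private theorem integrableOn_shift {K : Set (EuclideanSpace ℝ (Fin d))} {R : ℝ} (hK : Body K R) {w : (EuclideanSpace ℝ (Fin d)) → ℝ}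
    (hw : Weight K w) {V : ι → ℝ} {χ : ι → (EuclideanSpace ℝ (Fin d)) → ℝ} (hχ : IsFuzzy K w V χ) (k : ι) (z : (EuclideanSpace ℝ (Fin d))) (t : ℝ) :
    IntegrableOn (fun x => χ k x * w x * (inner ℝ x z - t)) K := by
  have hcont : Continuous (fun x : (EuclideanSpace ℝ (Fin d)) => inner ℝ x z - t) := by fun_prop
  have := hχ.integrableOn hK hw k (fun x : (EuclideanSpace ℝ (Fin d)) => inner ℝ x z - t)
    hcont.aestronglyMeasurable (R * ‖z‖ + |t|) (by
      intro x hx
      rw [Real.norm_eq_abs]
      calc |inner ℝ x z - t| ≤ |inner ℝ x z| + |t| := abs_sub _ _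
        _ ≤ ‖x‖ * ‖z‖ + |t| := by gcongr; exact abs_real_inner_le_norm x z
        _ ≤ R * ‖z‖ + |t| := by gcongr; exact hK.bound x hx)
  simpa [smul_eq_mul] using this

/-- the value in terms of the shifted integrands -/
private theorem val_eq_shift {K : Set (EuclideanSpace ℝ (Fin d))} {R : ℝ} (hK : Body K R) {w : (EuclideanSpace ℝ (Fin d)) → ℝ}
    (hw : Weight K w) {V : ι → ℝ} {χ : ι → (EuclideanSpace ℝ (Fin d)) → ℝ} (hχ : IsFuzzy K w V χ) (y : ι → (EuclideanSpace ℝ (Fin d)))
    (c : ι → ℝ) :
    val K w χ y = (∑ k, ∫ x in K, χ k x * w x * (inner ℝ x (y k) - c k)) + ∑ k, c k * V k := by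
  unfold val
  rw [← Finset.sum_add_distrib]
  refine Finset.sum_congr rfl fun k _ => ?_
  rw [inner_mom hK hw hχ k (y k)]
  have h0 := integrableOn_shift hK hw hχ k (y k) 0
  have h1 := integrableOn_shift hK hw hχ k (0 : (EuclideanSpace ℝ (Fin d))) (-1)
  simp only [sub_zero] at h0
  simp only [inner_zero_right, zero_sub, neg_neg, mul_one] at h1
  have h2 : (fun x => χ k x * w x * (inner ℝ x (y k) - c k))
      = fun x => χ k x * w x * inner ℝ x (y k) - c k * (χ k x * w x) := by
    funext x; ring
  rw [h2, integral_sub h0 (h1.const_mul _), integral_const_mul, hχ.mass k]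
  ring

/-- Laguerre cells are optimal among fuzzy partitions with the same masses. -/
theorem val_le_val_cell {K : Set (EuclideanSpace ℝ (Fin d))} {R : ℝ} (hK : Body K R) {w : (EuclideanSpace ℝ (Fin d)) → ℝ} (hw : Weight K w)
    {V : ι → ℝ} (hV : Masses K V) (y : ι → (EuclideanSpace ℝ (Fin d))) (hy : Function.Injective y) (c : ι → ℝ)
    (hc : ∀ k, ∫ x in cell K y c k, w x = V k) {χ : ι → (EuclideanSpace ℝ (Fin d)) → ℝ} (hχ : IsFuzzy K w V χ) :
    val K w χ y ≤ ∑ k, inner ℝ (∫ x in cell K y c k, w x • x) (y k) := by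
  have hχ0 := cell_isFuzzy hK hw y hy c hc
  have hR : ∑ k, inner ℝ (∫ x in cell K y c k, w x • x) (y k)
      = val K w (fun k => (cell K y c k).indicator (fun _ => (1 : ℝ))) y := by
    unfold val
    refine Finset.sum_congr rfl fun k _ => ?_
    rw [mom_cell hK w y c k]
  rw [hR, val_eq_shift hK hw hχ y c, val_eq_shift hK hw hχ0 y c]
  gcongr ?_ + _
  rw [← integral_finsetSum _ (fun k _ => integrableOn_shift hK hw hχ k (y k) (c k)),
    ← integral_finsetSum _ (fun k _ => integrableOn_shift hK hw hχ0 k (y k) (c k))]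
  refine integral_mono_ae
    (integrable_finsetSum _ (fun k _ => integrableOn_shift hK hw hχ k (y k) (c k)))
    (integrable_finsetSum _ (fun k _ => integrableOn_shift hK hw hχ0 k (y k) (c k))) ?_
  have hmem : ∀ᵐ x ∂(volume.restrict K), x ∈ K :=
    ae_restrict_mem hK.compact.isClosed.measurableSet
  filter_upwards [hχ.sum_eq, hχ0.sum_eq, hmem] with x h1 h2 hx
  obtain ⟨k0, hk0⟩ := exists_mem_cell K y c x hx
  have hw0 : 0 ≤ w x := le_trans (by norm_num) (hw.lo x)
  have hL : ∑ k, χ k x * w x * (inner ℝ x (y k) - c k)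
      ≤ ∑ k, χ k x * w x * (inner ℝ x (y k0) - c k0) := by
    refine Finset.sum_le_sum fun k _ => ?_
    exact mul_le_mul_of_nonneg_left (hk0.2 k) (mul_nonneg (hχ.nonneg k x) hw0)
  have hRr : ∑ k, (cell K y c k).indicator (fun _ => (1 : ℝ)) x * w x * (inner ℝ x (y k) - c k)
      = ∑ k, (cell K y c k).indicator (fun _ => (1 : ℝ)) x * w x
          * (inner ℝ x (y k0) - c k0) := by
    refine Finset.sum_congr rfl fun k _ => ?_
    by_cases hxk : x ∈ cell K y c k
    · have : inner ℝ x (y k) - c k = inner ℝ x (y k0) - c k0 :=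
        le_antisymm (hk0.2 k) (hxk.2 k0)
      rw [this]
    · simp [Set.indicator_of_notMem hxk]
  calc ∑ k, χ k x * w x * (inner ℝ x (y k) - c k)
      ≤ ∑ k, χ k x * w x * (inner ℝ x (y k0) - c k0) := hL
    _ = (∑ k, χ k x) * (w x * (inner ℝ x (y k0) - c k0)) := by
        rw [Finset.sum_mul]; exact Finset.sum_congr rfl fun k _ => by ring
    _ = (∑ k, (cell K y c k).indicator (fun _ => (1 : ℝ)) x)
          * (w x * (inner ℝ x (y k0) - c k0)) := by rw [h1, h2]
    _ = ∑ k, (cell K y c k).indicator (fun _ => (1 : ℝ)) x * w x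
          * (inner ℝ x (y k0) - c k0) := by
        rw [Finset.sum_mul]; exact Finset.sum_congr rfl fun k _ => by ring
    _ = _ := hRr.symm

theorem corr_eq_cell {K : Set (EuclideanSpace ℝ (Fin d))} {R : ℝ} (hK : Body K R) {w : (EuclideanSpace ℝ (Fin d)) → ℝ} (hw : Weight K w)
    {V : ι → ℝ} (hV : Masses K V) (y : ι → (EuclideanSpace ℝ (Fin d))) (hy : Function.Injective y) (c : ι → ℝ)
    (hc : ∀ k, ∫ x in cell K y c k, w x = V k) :
    corr K w V y = ∑ k, inner ℝ (∫ x in cell K y c k, w x • x) (y k) := by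
  refine le_antisymm (corr_le hK hw hV y _ fun χ hχ => val_le_val_cell hK hw hV y hy c hc hχ) ?_
  have hχ0 := cell_isFuzzy hK hw y hy c hc
  have hR : ∑ k, inner ℝ (∫ x in cell K y c k, w x • x) (y k)
      = val K w (fun k => (cell K y c k).indicator (fun _ => (1 : ℝ))) y := by
    unfold val
    refine Finset.sum_congr rfl fun k _ => ?_
    rw [mom_cell hK w y c k]
  rw [hR]
  exact val_le_corr hK hw hV y hχ0

/-- Subgradient inequality for the maximal correlation at sites with a Laguerre partition. -/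
theorem corr_subgradient {K : Set (EuclideanSpace ℝ (Fin d))} {R : ℝ} (hK : Body K R) {w : (EuclideanSpace ℝ (Fin d)) → ℝ} (hw : Weight K w)
    {V : ι → ℝ} (hV : Masses K V) (y : ι → (EuclideanSpace ℝ (Fin d))) (hy : Function.Injective y) (c : ι → ℝ)
    (hc : ∀ k, ∫ x in cell K y c k, w x = V k) (y' : ι → (EuclideanSpace ℝ (Fin d))) :
    corr K w V y + ∑ k, inner ℝ (∫ x in cell K y c k, w x • x) (y' k - y k) ≤ corr K w V y' := by
  have hχ0 := cell_isFuzzy hK hw y hy c hc
  have h1 := val_le_corr hK hw hV y' hχ0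
  rw [val_add_sub K w _ y y'] at h1
  have hR : ∑ k, inner ℝ (∫ x in cell K y c k, w x • x) (y k)
      = val K w (fun k => (cell K y c k).indicator (fun _ => (1 : ℝ))) y := by
    unfold val
    refine Finset.sum_congr rfl fun k _ => ?_
    rw [mom_cell hK w y c k]
  rw [corr_eq_cell hK hw hV y hy c hc, hR]
  have h2 : ∑ k, inner ℝ (∫ x in cell K y c k, w x • x) (y' k - y k)
      = ∑ k, inner ℝ (mom K w (fun k => (cell K y c k).indicator (fun _ => (1 : ℝ))) k)
          (y' k - y k) := by
    refine Finset.sum_congr rfl fun k _ => ?_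
    rw [mom_cell hK w y c k]
  rw [h2]
  exact h1

theorem norm_cell_moment_le {K : Set (EuclideanSpace ℝ (Fin d))} {R : ℝ} (hK : Body K R) {w : (EuclideanSpace ℝ (Fin d)) → ℝ} (hw : Weight K w)
    {V : ι → ℝ} (y : ι → (EuclideanSpace ℝ (Fin d))) (c : ι → ℝ)
    (hc : ∀ k, ∫ x in cell K y c k, w x = V k) (k : ι) :
    ‖∫ x in cell K y c k, w x • x‖ ≤ R * V k := by
  have hms := measurableSet_cell K hK.compact.isClosed y c k
  have hfin : volume (cell K y c k) < ⊤ :=
    lt_of_le_of_lt (measure_mono (cell_subset K y c k)) hK.compact.measure_lt_top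
  have hwint : IntegrableOn w (cell K y c k) := by
    refine Measure.integrableOn_of_bounded (M := 3 / 2) hfin.ne hw.meas.aestronglyMeasurable ?_
    refine Filter.Eventually.of_forall fun x => ?_
    rw [Real.norm_eq_abs, abs_le]
    exact ⟨by linarith [hw.lo x], hw.hi x⟩
  calc ‖∫ x in cell K y c k, w x • x‖ ≤ ∫ x in cell K y c k, ‖w x • x‖ :=
        norm_integral_le_integral_norm _
    _ ≤ ∫ x in cell K y c k, R * w x := by
        refine integral_mono_of_nonneg (Filter.Eventually.of_forall fun x => norm_nonneg _)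
          (hwint.const_mul R) ?_
        filter_upwards [ae_restrict_mem hms] with x hx
        have hw0 : 0 ≤ w x := le_trans (by norm_num) (hw.lo x)
        rw [norm_smul, Real.norm_eq_abs, abs_of_nonneg hw0, mul_comm]
        exact mul_le_mul_of_nonneg_right (hK.bound x (cell_subset K y c k hx)) hw0
    _ = R * V k := by rw [integral_const_mul, hc k]

end Vale.Agent.P074.Third
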