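import Mathlib

open Set

namespace Vale.Agent.P074.Third

/-- Comparison of the increments of two convex functions from a bound on the difference of
selected subgradients outside a finite set of bad times. -/
theorem telescope (f h a b : ℝ → ℝ) (Bad : Set ℝ) (hBad : Bad.Finite) (B Λ : ℝ) (hB : 0 ≤ B)
    (hΛ : 0 ≤ Λ)
    (hf : ∀ s ∈ Icc (0 : ℝ) 1, s ∉ Bad → ∀ s' ∈ Icc (0 : ℝ) 1, f s + a s * (s' - s) ≤ f s')
    (hh : ∀ s ∈ Icc (0 : ℝ) 1, s ∉ Bad → ∀ s' ∈ Icc (0 : ℝ) 1, h s + b s * (s' - s) ≤ h s')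
    (hb : ∀ s ∈ Icc (0 : ℝ) 1, s ∉ Bad → |b s| ≤ B)
    (hab : ∀ s ∈ Icc (0 : ℝ) 1, s ∉ Bad → a s - b s ≤ Λ)
    (hfl : ∀ s ∈ Icc (0 : ℝ) 1, ∀ s' ∈ Icc (0 : ℝ) 1, |f s - f s'| ≤ B * |s - s'|)
    (hhl : ∀ s ∈ Icc (0 : ℝ) 1, ∀ s' ∈ Icc (0 : ℝ) 1, |h s - h s'| ≤ B * |s - s'|) :
    (f 1 - h 1) - (f 0 - h 0) ≤ Λ := by
  have key : ∀ n : ℕ, 1 ≤ n → (f 1 - h 1) - (f 0 - h 0) ≤ Λ + 6 * B / n := by
    intro n hn
    have hnpos : (0 : ℝ) < n := by exact_mod_cast hn
    have hinv : (0 : ℝ) < 1 / n := by positivity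
    -- the bad shifts
    have hfin : (⋃ j ∈ Finset.range n, {τ : ℝ | τ + (j : ℝ) / n ∈ Bad}).Finite := by
      apply Set.Finite.biUnion (Finset.finite_toSet _)
      intro j _
      have : {τ : ℝ | τ + (j : ℝ) / n ∈ Bad} = (fun τ : ℝ => τ + (j : ℝ) / n) ⁻¹' Bad := rfl
      rw [this]
      exact hBad.preimage (fun x _ y _ hxy => by simpa using hxy)
    obtain ⟨τ, hτ, hτbad⟩ := (Set.Ioo_infinite hinv).exists_notMem_finite hfin
    have hgood : ∀ j : ℕ, j < n → τ + (j : ℝ) / n ∉ Bad := by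
      intro j hj hmem
      apply hτbad
      simp only [Set.mem_iUnion]
      exact ⟨j, Finset.mem_range.mpr hj, hmem⟩
    have hmemI : ∀ j : ℕ, j < n → τ + (j : ℝ) / n ∈ Icc (0 : ℝ) 1 := by
      intro j hj
      have h1 : (j : ℝ) + 1 ≤ n := by exact_mod_cast hj
      have h2 : (j : ℝ) / n + 1 / n ≤ 1 := by
        rw [← add_div, div_le_one hnpos]
        exact h1
      have h3 : (0 : ℝ) ≤ (j : ℝ) / n := by positivity
      constructor
      · linarith [hτ.1]
      · linarith [hτ.2]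
    set s : ℕ → ℝ := fun j => τ + (j : ℝ) / n with hs
    have hstep : ∀ j : ℕ, s (j + 1) - s j = 1 / n := by
      intro j
      simp only [hs]
      push_cast
      ring
    have hind : ∀ j : ℕ, j < n →
        (f (s j) - h (s j)) - (f (s 0) - h (s 0)) ≤ j * (Λ / n) + (b (s j) - b (s 0)) / n := by
      intro j
      induction j with
      | zero => intro _; simp
      | succ j ih =>
        intro hj
        have hj' : j < n := by omega
        have ih' := ih hj'
        have e1 := hf (s (j + 1)) (hmemI _ hj) (hgood _ hj) (s j) (hmemI _ hj')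
        have e2 := hh (s j) (hmemI _ hj') (hgood _ hj') (s (j + 1)) (hmemI _ hj)
        have e3 := hab (s (j + 1)) (hmemI _ hj) (hgood _ hj)
        have d1 : s j - s (j + 1) = -(1 / n) := by linarith [hstep j]
        rw [d1] at e1
        rw [hstep j] at e2
        have e4 : (a (s (j + 1)) - b (s (j + 1))) * (1 / n) ≤ Λ * (1 / n) :=
          mul_le_mul_of_nonneg_right e3 hinv.le
        push_cast
        have x1 : (b (s (j + 1)) - b (s 0)) / n = b (s (j + 1)) * (1 / n) - b (s 0) * (1 / n) := by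
          ring
        have x2 : (b (s j) - b (s 0)) / n = b (s j) * (1 / n) - b (s 0) * (1 / n) := by ring
        have x3 : Λ / n = Λ * (1 / n) := by ring
        rw [x1, x3]
        rw [x2, x3] at ih'
        nlinarith
    have hlast : n - 1 < n := by omega
    have hz : 0 < n := by omega
    have m := hind (n - 1) hlast
    have b1 := hb (s (n - 1)) (hmemI _ hlast) (hgood _ hlast)
    have b0 := hb (s 0) (hmemI _ hz) (hgood _ hz)
    have c1 : ((n - 1 : ℕ) : ℝ) = (n : ℝ) - 1 := by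
      rw [Nat.cast_sub hn]; simp
    have hs0 : s 0 = τ := by simp [hs]
    have hsl : s (n - 1) = τ + 1 - 1 / n := by
      simp only [hs]
      rw [c1]
      field_simp
      ring
    have m1 : ((n - 1 : ℕ) : ℝ) * (Λ / n) ≤ Λ := by
      rw [c1]
      have : ((n : ℝ) - 1) * (Λ / n) = Λ - Λ / n := by field_simp
      rw [this]
      have : 0 ≤ Λ / n := by positivity
      linarith
    have m2 : (b (s (n - 1)) - b (s 0)) / n ≤ 2 * B / n := by
      apply div_le_div_of_nonneg_right _ hnpos.le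
      have := abs_le.mp b1
      have := abs_le.mp b0
      linarith
    have z0 : (0 : ℝ) ∈ Icc (0 : ℝ) 1 := ⟨le_refl _, zero_le_one⟩
    have z1 : (1 : ℝ) ∈ Icc (0 : ℝ) 1 := ⟨zero_le_one, le_refl _⟩
    have f0 := hfl (s 0) (hmemI _ hz) 0 z0
    have h0 := hhl (s 0) (hmemI _ hz) 0 z0
    have f1 := hfl 1 z1 (s (n - 1)) (hmemI _ hlast)
    have h1 := hhl 1 z1 (s (n - 1)) (hmemI _ hlast)
    have a0 : |s 0 - 0| ≤ 1 / n := by
      rw [hs0, sub_zero, abs_of_pos hτ.1]
      exact hτ.2.le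
    have a1 : |1 - s (n - 1)| ≤ 1 / n := by
      rw [hsl]
      have : (1 : ℝ) - (τ + 1 - 1 / n) = 1 / n - τ := by ring
      rw [this, abs_of_pos (by linarith [hτ.2])]
      linarith [hτ.1]
    have k0 : B * |s 0 - 0| ≤ B * (1 / n) := mul_le_mul_of_nonneg_left a0 hB
    have k1 : B * |1 - s (n - 1)| ≤ B * (1 / n) := mul_le_mul_of_nonneg_left a1 hB
    have f0' := abs_le.mp (f0.trans k0)
    have h0' := abs_le.mp (h0.trans k0)
    have f1' := abs_le.mp (f1.trans k1)
    have h1' := abs_le.mp (h1.trans k1)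
    have y1 : 6 * B / n = 6 * (B * (1 / n)) := by ring
    have y2 : 2 * B / n = 2 * (B * (1 / n)) := by ring
    rw [y1]
    rw [y2] at m2
    linarith [f0'.1, f0'.2, h0'.1, h0'.2, f1'.1, f1'.2, h1'.1, h1'.2]
  apply le_of_forall_pos_le_add
  intro ε hε
  obtain ⟨n, hn⟩ := exists_nat_gt (6 * B / ε)
  have hn0 : (0 : ℝ) < n := lt_of_le_of_lt (by positivity) hn
  have hn1 : 1 ≤ n := by exact_mod_cast hn0
  have := key n hn1
  have h2 : 6 * B / n ≤ ε := by
    rw [div_le_iff₀ hn0]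
    rw [div_lt_iff₀ hε] at hn
    linarith
  linarith

end Vale.Agent.P074.Third
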