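import Vale.Agent.P074.Third.MixedAux
import Vale.Agent.P074.Third.LagExist
import Vale.Agent.P074.Third.LagOpt
import Vale.Agent.P074.Third.Telescope

open MeasureTheory Set Metric
open scoped ENNReal NNReal

namespace Vale.Agent.P074.Third

variable {d : ℕ}


variable {ι : Type*} [Fintype ι] [Nonempty ι]

/-- **Mixed estimate**: the maximal correlation has a bounded mixed second difference in
(source density, sites). -/
theorem mixed {K : Set (EuclideanSpace ℝ (Fin d))} {R : ℝ} (hK : Body K R) {w : (EuclideanSpace ℝ (Fin d)) → ℝ} (hw : Weight K w)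
    {V : ι → ℝ} (hV : Masses K V) (y z : ι → (EuclideanSpace ℝ (Fin d))) (hyz : Function.Injective fun k => (y k, z k)) :
    (corr K w V y - corr K (fun _ => 1) V y) - (corr K w V z - corr K (fun _ => 1) V z)
      ≤ 1000 * R * Real.sqrt (∫ x in K, (w x - 1) ^ 2)
        * Real.sqrt (∑ k, V k * ‖y k - z k‖ ^ 2) := by
  classical
  have hw1 : Weight K (fun _ => (1 : ℝ)) := weight_one hK
  set u : ℝ → ι → (EuclideanSpace ℝ (Fin d)) := fun s k => (1 - s) • z k + s • y k with hu
  set ζ : ι → (EuclideanSpace ℝ (Fin d)) := fun k => y k - z k with hζ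
  have hdiff : ∀ s s' k, u s' k - u s k = (s' - s) • ζ k := by
    intro s s' k
    simp only [hu, hζ]
    module
  set Bad : Set ℝ := {s : ℝ | ¬ Function.Injective (u s)} with hBaddef
  have hBad : Bad.Finite := finite_collision y z hyz
  have H1 : ∀ s, ∃ c : ι → ℝ, Function.Injective (u s) →
      ∀ k, ∫ x in cell K (u s) c k, w x = V k := by
    intro s
    by_cases hs : Function.Injective (u s)
    · obtain ⟨c, hc⟩ := laguerre_exists hK hw hV (u s) hs
      exact ⟨c, fun _ => hc⟩
    · exact ⟨0, fun h => absurd h hs⟩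
  have H0 : ∀ s, ∃ c : ι → ℝ, Function.Injective (u s) →
      ∀ k, ∫ _x in cell K (u s) c k, (1 : ℝ) = V k := by
    intro s
    by_cases hs : Function.Injective (u s)
    · obtain ⟨c, hc⟩ := laguerre_exists hK hw1 hV (u s) hs
      exact ⟨c, fun _ => hc⟩
    · exact ⟨0, fun h => absurd h hs⟩
  choose c1 hc1 using H1
  choose c0 hc0 using H0
  set a : ℝ → ℝ := fun s => ∑ k, inner ℝ (∫ x in cell K (u s) (c1 s) k, w x • x) (ζ k) with ha
  set b : ℝ → ℝ := fun s => ∑ k, inner ℝ (∫ x in cell K (u s) (c0 s) k, (1 : ℝ) • x) (ζ k)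
    with hb
  set B : ℝ := R * ∑ k, V k * ‖y k - z k‖ with hBdef
  have hB0 : 0 ≤ B := by
    have := hK.pos.le
    have h2 : 0 ≤ ∑ k, V k * ‖y k - z k‖ :=
      Finset.sum_nonneg fun k _ => mul_nonneg (hV.pos k).le (norm_nonneg _)
    positivity
  set Λ : ℝ := 1000 * R * Real.sqrt (∫ x in K, (w x - 1) ^ 2)
        * Real.sqrt (∑ k, V k * ‖y k - z k‖ ^ 2) with hΛdef
  have hΛ0 : 0 ≤ Λ := by
    have := hK.pos.le
    positivity
  have hinj : ∀ s, s ∉ Bad → Function.Injective (u s) := by
    intro s hs
    by_contra h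
    exact hs h
  -- general subgradient statement
  have sub : ∀ (w' : (EuclideanSpace ℝ (Fin d)) → ℝ) (_ : Weight K w') (s : ℝ) (c : ι → ℝ),
      Function.Injective (u s) → (∀ k, ∫ x in cell K (u s) c k, w' x = V k) → ∀ s',
      corr K w' V (u s) + (∑ k, inner ℝ (∫ x in cell K (u s) c k, w' x • x) (ζ k)) * (s' - s)
        ≤ corr K w' V (u s') := by
    intro w' hw' s c hs hc s'
    have := corr_subgradient hK hw' hV (u s) hs c hc (u s')
    have e : ∑ k, inner ℝ (∫ x in cell K (u s) c k, w' x • x) (u s' k - u s k)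
        = (∑ k, inner ℝ (∫ x in cell K (u s) c k, w' x • x) (ζ k)) * (s' - s) := by
      rw [Finset.sum_mul]
      refine Finset.sum_congr rfl fun k _ => ?_
      rw [hdiff, inner_smul_right, mul_comm]
    rwa [e] at this
  have lip : ∀ (w' : (EuclideanSpace ℝ (Fin d)) → ℝ) (_ : Weight K w') (s s' : ℝ),
      |corr K w' V (u s) - corr K w' V (u s')| ≤ B * |s - s'| := by
    intro w' hw' s s'
    have key : ∀ s s' : ℝ, corr K w' V (u s) - corr K w' V (u s') ≤ B * |s - s'| := by
      intro s s'
      have := corr_sub_le hK hw' hV (u s) (u s')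
      have e : R * ∑ k, V k * ‖u s k - u s' k‖ = B * |s - s'| := by
        rw [hBdef, mul_assoc, Finset.sum_mul]
        congr 1
        refine Finset.sum_congr rfl fun k _ => ?_
        rw [hdiff, norm_smul, Real.norm_eq_abs]
        ring
      rwa [e] at this
    rw [abs_le]
    constructor
    · have := key s' s
      rw [abs_sub_comm] at this
      linarith
    · exact key s s'
  have main := telescope (fun s => corr K w V (u s)) (fun s => corr K (fun _ => 1) V (u s)) a b
    Bad hBad B Λ hB0 hΛ0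
    (fun s _ hs s' _ => sub w hw s (c1 s) (hinj s hs) (hc1 s (hinj s hs)) s')
    (fun s _ hs s' _ => sub (fun _ => 1) hw1 s (c0 s) (hinj s hs) (hc0 s (hinj s hs)) s')
    (fun s _ hs => by
      simp only [hb]
      calc |∑ k, inner ℝ (∫ x in cell K (u s) (c0 s) k, (1 : ℝ) • x) (ζ k)|
          ≤ ∑ k, |inner ℝ (∫ x in cell K (u s) (c0 s) k, (1 : ℝ) • x) (ζ k)| :=
            Finset.abs_sum_le_sum_abs _ _
        _ ≤ ∑ k, (R * V k) * ‖ζ k‖ := by
            refine Finset.sum_le_sum fun k _ => ?_
            refine (abs_real_inner_le_norm _ _).trans ?_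
            gcongr
            exact norm_cell_moment_le hK hw1 (u s) (c0 s) (hc0 s (hinj s hs)) k
        _ = B := by
            rw [hBdef, Finset.mul_sum]
            exact Finset.sum_congr rfl fun k _ => by simp only [hζ]; ring)
    (fun s _ hs => deriv_diff_le hK hw hV (u s) (hinj s hs) (c0 s) (c1 s)
      (hc0 s (hinj s hs)) (hc1 s (hinj s hs)) ζ)
    (fun s _ s' _ => lip w hw s s')
    (fun s _ s' _ => lip (fun _ => 1) hw1 s s')
  have u1 : u 1 = y := by
    funext k; simp [hu]
  have u0 : u 0 = z := by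
    funext k; simp [hu]
  simp only [u1, u0] at main
  exact main

end Vale.Agent.P074.Third
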