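import Vale.Agent.P074.Third.Defs
import Vale.Agent.P074.Lower.Coupling

open MeasureTheory Set Metric
open scoped ENNReal NNReal

namespace Vale.Agent.P074.Third

open Vale.Agent.P074 Vale.Agent.P074.Lower

variable {d : ℕ}

/-- A measurable rounding map with finitely many values which moves the points of a compact set by
at most `η`. -/
theorem exists_rounding (Y : Set (EuclideanSpace ℝ (Fin d))) (hY : IsCompact Y) (η : ℝ)
    (hη : 0 < η) :
    ∃ r : SimpleFunc (EuclideanSpace ℝ (Fin d)) (EuclideanSpace ℝ (Fin d)),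
      ∀ y ∈ Y, ‖r y - y‖ ≤ η := by
  classical
  let e : ℕ → EuclideanSpace ℝ (Fin d) := TopologicalSpace.denseSeq (EuclideanSpace ℝ (Fin d))
  have hdense : DenseRange e := TopologicalSpace.denseRange_denseSeq _
  have hcover : Y ⊆ ⋃ k, ball (e k) η := by
    intro y _
    obtain ⟨k, hk⟩ := hdense.exists_dist_lt y hη
    exact mem_iUnion.2 ⟨k, hk⟩
  obtain ⟨t, ht⟩ := hY.elim_finite_subcover (fun k => ball (e k) η) (fun _ => isOpen_ball) hcover
  refine ⟨SimpleFunc.nearestPt e (t.sup id), fun y hy => ?_⟩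
  obtain ⟨k, hkt, hk⟩ := mem_iUnion₂.1 (ht hy)
  have hkN : k ≤ t.sup id := Finset.le_sup (f := id) hkt
  have h1 : edist (SimpleFunc.nearestPt e (t.sup id) y) y ≤ edist (e k) y :=
    SimpleFunc.edist_nearestPt_le e y hkN
  rw [edist_dist, edist_dist, ENNReal.ofReal_le_ofReal_iff dist_nonneg] at h1
  rw [← dist_eq_norm]
  have h2 : dist (e k) y < η := by
    rw [dist_comm]
    exact hk
  linarith

end Vale.Agent.P074.Third
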