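import Vale.Agent.P074.Lower.Gap
import Vale.Agent.P074.Third.KeyDiscrete
import Vale.Agent.P074.Third.Mixed
import Vale.Agent.P074.Third.Rounding
import Vale.Agent.P074.Third.Labels

open MeasureTheory Set Metric
open scoped ENNReal NNReal

namespace Vale.Agent.P074.Third

open Vale.Agent.P074 Vale.Agent.P074.Lower

variable {d : ℕ}


/-- bounded measurable real functions are integrable on the body -/
private theorem intOn_of_bdd {K : Set (EuclideanSpace ℝ (Fin d))} {R : ℝ} (hK : Body K R) (f : (EuclideanSpace ℝ (Fin d)) → ℝ) (hf : Measurable f)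
    (M : ℝ) (hM : ∀ᵐ x ∂(volume.restrict K), |f x| ≤ M) : IntegrableOn f K :=
  Measure.integrableOn_of_bounded (M := M) hK.compact.measure_lt_top.ne
    hf.aestronglyMeasurable (by simpa only [Real.norm_eq_abs] using hM)

private theorem body_nonempty {K : Set (EuclideanSpace ℝ (Fin d))} {R : ℝ} (hK : Body K R) : K.Nonempty := by
  by_contra h
  rw [Set.not_nonempty_iff_eq_empty] at h
  exact hK.vol_ne (by rw [h, measure_empty])

private theorem ae_memK {K : Set (EuclideanSpace ℝ (Fin d))} {R : ℝ} (hK : Body K R) :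
    ∀ᵐ x ∂(volume.restrict K), x ∈ K :=
  ae_restrict_mem hK.compact.isClosed.measurableSet

/-- Rounding the optimal map costs at most `2 R η vol K` in the duality gap. -/
theorem rounded_gap_le {K : Set (EuclideanSpace ℝ (Fin d))} {R : ℝ} (hK : Body K R) (Y : Set (EuclideanSpace ℝ (Fin d))) (hY : IsCompact Y)
    (T : (EuclideanSpace ℝ (Fin d)) → (EuclideanSpace ℝ (Fin d))) (hT : Measurable T) (φ : (EuclideanSpace ℝ (Fin d)) → ℝ) (hφ : Continuous φ)
    (hφsub : ∀ᵐ x ∂(volume.restrict K), T x ∈ Y ∧ ∀ x', φ x + inner ℝ (T x) (x' - x) ≤ φ x')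
    (P : SimpleFunc (EuclideanSpace ℝ (Fin d)) (EuclideanSpace ℝ (Fin d))) (η : ℝ) (hη : 0 < η) (hP : ∀ y ∈ Y, ‖P y - y‖ ≤ η) :
    (∫ x in K, φ x) + (∫ x in K, conj K φ (P (T x))) - ∫ x in K, inner ℝ x (P (T x))
      ≤ 2 * R * η * (volume K).toReal := by
  have hne := body_nonempty hK
  obtain ⟨MP, hMP⟩ := P.exists_forall_norm_le
  obtain ⟨MQ, hMQ⟩ := (P.map (conj K φ)).exists_forall_norm_le
  have hcc := continuous_conj K hK.compact hne φ hφ
  have i1 : IntegrableOn φ K := hφ.continuousOn.integrableOn_compact hK.compact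
  have i2 : IntegrableOn (fun x => conj K φ (P (T x))) K := by
    refine intOn_of_bdd hK _ (hcc.measurable.comp (P.measurable.comp hT)) MQ ?_
    refine Filter.Eventually.of_forall fun x => ?_
    have := hMQ (T x)
    simpa [SimpleFunc.map_apply] using this
  have i3 : IntegrableOn (fun x => inner ℝ x (P (T x))) K := by
    refine intOn_of_bdd hK _ (measurable_id.inner (P.measurable.comp hT)) (R * MP) ?_
    filter_upwards [ae_memK hK] with x hx
    refine (abs_real_inner_le_norm _ _).trans ?_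
    have h0 : 0 ≤ ‖x‖ := norm_nonneg _
    have h1 := hK.bound x hx
    have h2 := hMP (T x)
    have h3 : 0 ≤ ‖P (T x)‖ := norm_nonneg _
    have := hK.pos.le
    gcongr
  have i12 : IntegrableOn (fun x => φ x + conj K φ (P (T x))) K := i1.add i2
  have i123 : IntegrableOn (fun x => φ x + conj K φ (P (T x)) - inner ℝ x (P (T x))) K :=
    i12.sub i3
  rw [← integral_add i1 i2, ← integral_sub i12 i3]
  have hconst : ∫ _x in K, 2 * R * η = 2 * R * η * (volume K).toReal := by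
    rw [setIntegral_const, smul_eq_mul, mul_comm]
    rfl
  rw [← hconst]
  refine integral_mono_ae i123 (integrableOn_const hK.compact.measure_lt_top.ne) ?_
  filter_upwards [ae_memK hK, hφsub] with x hx hsub
  have e1 := conj_eq_of_subgradient K hK.compact φ hφ x (T x) hx (fun x' _ => hsub.2 x')
  have e2 := conj_le_add K hK.compact hne φ hφ R hK.bound (P (T x)) (T x)
  have e3 := hP (T x) hsub.1
  have e4 : inner ℝ x (T x) - inner ℝ x (P (T x)) ≤ R * η := by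
    rw [← inner_sub_right]
    refine (real_inner_le_norm _ _).trans ?_
    rw [norm_sub_rev]
    have h1 := hK.bound x hx
    have := hK.pos.le
    gcongr
  have e5 : R * ‖P (T x) - T x‖ ≤ R * η := by
    have := hK.pos.le
    gcongr
  linarith

theorem rounded_theta_le {K : Set (EuclideanSpace ℝ (Fin d))} {R : ℝ} (hK : Body K R) (Y : Set (EuclideanSpace ℝ (Fin d))) (hY : IsCompact Y)
    (T : (EuclideanSpace ℝ (Fin d)) → (EuclideanSpace ℝ (Fin d))) (hT : Measurable T) (hTY : ∀ᵐ x ∂(volume.restrict K), T x ∈ Y)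
    (P : SimpleFunc (EuclideanSpace ℝ (Fin d)) (EuclideanSpace ℝ (Fin d))) (η : ℝ) (hη : 0 < η) (hP : ∀ y ∈ Y, ‖P y - y‖ ≤ η)
    (θ : (EuclideanSpace ℝ (Fin d)) → ℝ) (hθm : Measurable θ) (hθ0 : ∀ x, 0 ≤ θ x) (hθ1 : ∀ x, θ x ≤ 1 / 2) (v : (EuclideanSpace ℝ (Fin d))) :
    ∫ x in K, θ x * inner ℝ v (T x)
      ≤ (∫ x in K, θ x * inner ℝ v (P (T x))) + ‖v‖ * η * (volume K).toReal := by
  obtain ⟨MP, hMP⟩ := P.exists_forall_norm_le
  obtain ⟨RY, hRY⟩ := hY.isBounded.exists_norm_le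
  have bd : ∀ (x : (EuclideanSpace ℝ (Fin d))) (q : (EuclideanSpace ℝ (Fin d))) (M : ℝ), ‖q‖ ≤ M → |θ x * inner ℝ v q| ≤ 1 / 2 * (‖v‖ * M) := by
    intro x q M hq
    rw [abs_mul, abs_of_nonneg (hθ0 x)]
    have h1 : |inner ℝ v q| ≤ ‖v‖ * M :=
      (abs_real_inner_le_norm _ _).trans (by gcongr)
    have h2 := hθ1 x
    have h3 := hθ0 x
    have h4 : 0 ≤ |inner ℝ v q| := abs_nonneg _
    gcongr
  have i1 : IntegrableOn (fun x => θ x * inner ℝ v (T x)) K := by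
    refine intOn_of_bdd hK _ (hθm.mul (measurable_const.inner hT)) (1 / 2 * (‖v‖ * RY)) ?_
    filter_upwards [hTY] with x hx
    exact bd x _ _ (hRY _ hx)
  have i2 : IntegrableOn (fun x => θ x * inner ℝ v (P (T x))) K := by
    refine intOn_of_bdd hK _ (hθm.mul (measurable_const.inner (P.measurable.comp hT)))
      (1 / 2 * (‖v‖ * MP)) ?_
    exact Filter.Eventually.of_forall fun x => bd x _ _ (hMP _)
  have hconst : ∫ _x in K, ‖v‖ * η = ‖v‖ * η * (volume K).toReal := by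
    rw [setIntegral_const, smul_eq_mul, mul_comm]
    rfl
  have ic : IntegrableOn (fun _ : (EuclideanSpace ℝ (Fin d)) => ‖v‖ * η) K :=
    integrableOn_const hK.compact.measure_lt_top.ne
  have i2c : IntegrableOn (fun x => θ x * inner ℝ v (P (T x)) + ‖v‖ * η) K := i2.add ic
  rw [← hconst, ← integral_add i2 ic]
  refine integral_mono_ae i1 i2c ?_
  filter_upwards [hTY] with x hx
  have e3 := hP (T x) hx
  have e4 : inner ℝ v (T x) - inner ℝ v (P (T x)) ≤ ‖v‖ * η := by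
    rw [← inner_sub_right]
    refine (real_inner_le_norm _ _).trans ?_
    rw [norm_sub_rev]
    gcongr
  have h2 := hθ1 x
  have h3 := hθ0 x
  have h5 : 0 ≤ ‖v‖ * η := by positivity
  nlinarith

theorem rounded_cost_le (Y : Set (EuclideanSpace ℝ (Fin d))) (hY : IsCompact Y) (π : Measure ((EuclideanSpace ℝ (Fin d)) × (EuclideanSpace ℝ (Fin d))))
    [IsProbabilityMeasure π] (hπ : ∀ᵐ p ∂π, p.1 ∈ Y ∧ p.2 ∈ Y)
    (P : SimpleFunc (EuclideanSpace ℝ (Fin d)) (EuclideanSpace ℝ (Fin d))) (η : ℝ) (hη : 0 < η) (hP : ∀ y ∈ Y, ‖P y - y‖ ≤ η) :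
    ∫ p, ‖P p.1 - P p.2‖ ^ 2 ∂π ≤ ∫ p, (‖p.1 - p.2‖ + 2 * η) ^ 2 ∂π := by
  obtain ⟨MP, hMP⟩ := P.exists_forall_norm_le
  obtain ⟨RY, hRY⟩ := hY.isBounded.exists_norm_le
  have m1 : Measurable fun p : (EuclideanSpace ℝ (Fin d)) × (EuclideanSpace ℝ (Fin d)) => ‖P p.1 - P p.2‖ ^ 2 :=
    (((P.measurable.comp measurable_fst).sub (P.measurable.comp measurable_snd)).norm).pow_const 2
  have m2 : Measurable fun p : (EuclideanSpace ℝ (Fin d)) × (EuclideanSpace ℝ (Fin d)) => (‖p.1 - p.2‖ + 2 * η) ^ 2 :=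
    (((measurable_fst.sub measurable_snd).norm).add_const _).pow_const 2
  have i1 : Integrable (fun p : (EuclideanSpace ℝ (Fin d)) × (EuclideanSpace ℝ (Fin d)) => ‖P p.1 - P p.2‖ ^ 2) π := by
    refine Integrable.of_bound m1.aestronglyMeasurable ((MP + MP) ^ 2) ?_
    refine Filter.Eventually.of_forall fun p => ?_
    rw [Real.norm_eq_abs, abs_of_nonneg (by positivity)]
    have : ‖P p.1 - P p.2‖ ≤ MP + MP :=
      (norm_sub_le _ _).trans (add_le_add (hMP _) (hMP _))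
    gcongr
  have i2 : Integrable (fun p : (EuclideanSpace ℝ (Fin d)) × (EuclideanSpace ℝ (Fin d)) => (‖p.1 - p.2‖ + 2 * η) ^ 2) π := by
    refine Integrable.of_bound m2.aestronglyMeasurable ((RY + RY + 2 * η) ^ 2) ?_
    filter_upwards [hπ] with p hp
    rw [Real.norm_eq_abs, abs_of_nonneg (by positivity)]
    have : ‖p.1 - p.2‖ ≤ RY + RY :=
      (norm_sub_le _ _).trans (add_le_add (hRY _ hp.1) (hRY _ hp.2))
    gcongr
  refine integral_mono_ae i1 i2 ?_
  filter_upwards [hπ] with p hp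
  have a1 := hP _ hp.1
  have a2 := hP _ hp.2
  have : ‖P p.1 - P p.2‖ ≤ ‖p.1 - p.2‖ + 2 * η := by
    have e : P p.1 - P p.2 = (P p.1 - p.1) + (p.1 - p.2) - (P p.2 - p.2) := by abel
    rw [e]
    calc ‖(P p.1 - p.1) + (p.1 - p.2) - (P p.2 - p.2)‖
        ≤ ‖(P p.1 - p.1) + (p.1 - p.2)‖ + ‖P p.2 - p.2‖ := norm_sub_le _ _
      _ ≤ ‖P p.1 - p.1‖ + ‖p.1 - p.2‖ + ‖P p.2 - p.2‖ := by gcongr; exact norm_add_le _ _
      _ ≤ _ := by linarith
  show ‖P p.1 - P p.2‖ ^ 2 ≤ (‖p.1 - p.2‖ + 2 * η) ^ 2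
  gcongr

/-- The key inequality, up to a discretisation error `η`. -/
theorem key_ineq_eta {K : Set (EuclideanSpace ℝ (Fin d))} {R : ℝ} (hK : Body K R) (Y : Set (EuclideanSpace ℝ (Fin d))) (hY : IsCompact Y)
    (T S : (EuclideanSpace ℝ (Fin d)) → (EuclideanSpace ℝ (Fin d))) (hT : Measurable T) (hS : Measurable S)
    (φ ψ : (EuclideanSpace ℝ (Fin d)) → ℝ) (hφ : Continuous φ) (hψ : Continuous ψ)
    (hφsub : ∀ᵐ x ∂(volume.restrict K), T x ∈ Y ∧ ∀ x', φ x + inner ℝ (T x) (x' - x) ≤ φ x')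
    (hψsub : ∀ᵐ x ∂(volume.restrict K), S x ∈ Y ∧ ∀ x', ψ x + inner ℝ (S x) (x' - x) ≤ ψ x')
    (π : Measure ((EuclideanSpace ℝ (Fin d)) × (EuclideanSpace ℝ (Fin d)))) [IsProbabilityMeasure π] (hπ : ∀ᵐ p ∂π, p.1 ∈ Y ∧ p.2 ∈ Y)
    (h1 : Measure.map Prod.fst π = Measure.map T (unif K))
    (h2 : Measure.map Prod.snd π = Measure.map S (unif K))
    (θ : (EuclideanSpace ℝ (Fin d)) → ℝ) (hθm : Measurable θ) (hθ0 : ∀ x, 0 ≤ θ x) (hθ1 : ∀ x, θ x ≤ 1 / 2) (v : (EuclideanSpace ℝ (Fin d)))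
    (hθK : ∀ x, θ x ≠ 0 → x ∈ K ∧ x + v ∈ K) (η : ℝ) (hη : 0 < η) :
    ∫ x in K, θ x * inner ℝ v (T x)
      ≤ 1000 * R * Real.sqrt (4 * ∫ x in K, θ x ^ 2)
          * Real.sqrt ((volume K).toReal * ∫ p, (‖p.1 - p.2‖ + 2 * η) ^ 2 ∂π)
        + (∫ x in K, θ x * (ψ (x + v) - ψ x)) + (4 * R + ‖v‖) * η * (volume K).toReal := by
  classical
  obtain ⟨P, hP⟩ := exists_rounding Y hY η hη
  obtain ⟨F, V, hFne, hV, hm1, hm2, hcost⟩ := exists_labels hK T S hT hS π h1 h2 P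
  have : Nonempty F := hFne.to_subtype
  have hw := weight_shift hK θ hθm hθ0 hθ1 v hθK
  have hw1 : Weight K (fun _ => (1 : ℝ)) := weight_one hK
  have hPT : Measurable fun x => P (T x) := P.measurable.comp hT
  have hPS : Measurable fun x => P (S x) := P.measurable.comp hS
  have hinj : Function.Injective fun k : F => (k.1.1, k.1.2) := by
    intro a b hab
    exact Subtype.ext (Prod.ext (congrArg Prod.fst hab) (congrArg Prod.snd hab))
  have hmix := mixed hK hw hV (fun k : F => k.1.1) (fun k : F => k.1.2) hinj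
  have l1 := corr_shift_ge hK hV (fun k : F => k.1.1) (fun x => P (T x)) hPT hm1 θ hθm hθ0 hθ1 v hθK
  have l2 := corr_le_conj hK hw1 hV (fun k : F => k.1.1) (fun x => P (T x)) hPT hm1 φ hφ
  have l3 := corr_le_conj hK hw hV (fun k : F => k.1.2) (fun x => P (S x)) hPS hm2 ψ hψ
  have l4 := corr_one_ge hK hV (fun k : F => k.1.2) (fun x => P (S x)) hPS hm2
  have l5 := shift_integral_mul hK θ hθm hθ0 hθ1 v hθK ψ hψ
  have l6 := shift_sq_le hK θ hθm hθ0 hθ1 v hθK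
  have g1 := rounded_gap_le hK Y hY T hT φ hφ hφsub P η hη hP
  have g2 := rounded_gap_le hK Y hY S hS ψ hψ hψsub P η hη hP
  have g3 := rounded_theta_le hK Y hY T hT (hφsub.mono fun x hx => hx.1) P η hη hP θ hθm hθ0 hθ1 v
  have g4 := rounded_cost_le Y hY π hπ P η hη hP
  simp only [mul_one] at l2
  rw [l5] at l3
  have hvol : 0 ≤ (volume K).toReal := ENNReal.toReal_nonneg
  have s1 : Real.sqrt (∫ x in K, ((1 + θ (x - v) - θ x) - 1) ^ 2)
      ≤ Real.sqrt (4 * ∫ x in K, θ x ^ 2) := Real.sqrt_le_sqrt l6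
  have s2 : Real.sqrt (∑ k : F, V k * ‖k.1.1 - k.1.2‖ ^ 2)
      ≤ Real.sqrt ((volume K).toReal * ∫ p, (‖p.1 - p.2‖ + 2 * η) ^ 2 ∂π) := by
    rw [hcost]
    exact Real.sqrt_le_sqrt (mul_le_mul_of_nonneg_left g4 hvol)
  have s3 : 1000 * R * Real.sqrt (∫ x in K, ((1 + θ (x - v) - θ x) - 1) ^ 2)
        * Real.sqrt (∑ k : F, V k * ‖k.1.1 - k.1.2‖ ^ 2)
      ≤ 1000 * R * Real.sqrt (4 * ∫ x in K, θ x ^ 2)
          * Real.sqrt ((volume K).toReal * ∫ p, (‖p.1 - p.2‖ + 2 * η) ^ 2 ∂π) := by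
    have := hK.pos.le
    gcongr
  have e : (4 * R + ‖v‖) * η * (volume K).toReal
      = 2 * R * η * (volume K).toReal + 2 * R * η * (volume K).toReal
        + ‖v‖ * η * (volume K).toReal := by ring
  rw [e]
  linarith

end Vale.Agent.P074.Third
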