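import Vale.Agent.P074.Third.Direction

open MeasureTheory Set Metric
open scoped ENNReal NNReal

namespace Vale.Agent.P074.Third

open Vale.Agent.P074 Vale.Agent.P074.Lower

variable {d : ℕ}

theorem sq_pos_parts (a : ℝ) : (max a 0) ^ 2 + (max (-a) 0) ^ 2 = a ^ 2 := by
  rcases le_total 0 a with h | h
  · rw [max_eq_left h, max_eq_right (by linarith)]; ring
  · rw [max_eq_right h, max_eq_left (by linarith)]; ring

/-- `|u|² = ∑_i (<e_i,u>_+² + <-e_i,u>_+²)`. -/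
theorem norm_sq_eq_sum_pos_parts (u : EuclideanSpace ℝ (Fin d)) :
    ‖u‖ ^ 2 = ∑ i : Fin d, ((max (inner ℝ (EuclideanSpace.single i (1 : ℝ)) u) 0) ^ 2
      + (max (inner ℝ (-EuclideanSpace.single i (1 : ℝ)) u) 0) ^ 2) := by
  rw [EuclideanSpace.norm_sq_eq]
  refine Finset.sum_congr rfl (fun i _ => ?_)
  rw [inner_neg_left, sq_pos_parts, EuclideanSpace.inner_single_left]
  simp

/-- `<e,u>_+² ≤ |u|²` for a unit vector `e`. -/
theorem pos_part_sq_le (e u : EuclideanSpace ℝ (Fin d)) (he : ‖e‖ = 1) :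
    (max (inner ℝ e u) 0) ^ 2 ≤ ‖u‖ ^ 2 := by
  have h1 : inner ℝ e u ≤ ‖u‖ := by
    have := real_inner_le_norm e u
    rwa [he, one_mul] at this
  have h2 : max (inner ℝ e u) 0 ≤ ‖u‖ := max_le h1 (norm_nonneg u)
  exact pow_le_pow_left₀ (le_max_right _ _) h2 2

theorem norm_sub_sq_le_ae (K B : Set (EuclideanSpace ℝ (Fin d)))
    (hBK : B ⊆ K) (RY : ℝ)
    (T S : EuclideanSpace ℝ (Fin d) → EuclideanSpace ℝ (Fin d))
    (hTY : ∀ᵐ x ∂(volume.restrict K), ‖T x‖ ≤ RY) (hSY : ∀ᵐ x ∂(volume.restrict K), ‖S x‖ ≤ RY) :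
    ∀ᵐ x ∂(volume.restrict B), ‖T x - S x‖ ^ 2 ≤ 4 * RY ^ 2 := by
  filter_upwards [norm_sub_le_ae K B hBK RY T S hTY hSY] with x hx
  have := pow_le_pow_left₀ (norm_nonneg _) hx 2
  calc ‖T x - S x‖ ^ 2 ≤ (2 * RY) ^ 2 := this
    _ = 4 * RY ^ 2 := by ring

theorem integrableOn_norm_sub_sq (K B : Set (EuclideanSpace ℝ (Fin d))) (hKc : IsCompact K)
    (hBK : B ⊆ K) (RY : ℝ)
    (T S : EuclideanSpace ℝ (Fin d) → EuclideanSpace ℝ (Fin d)) (hT : Measurable T)
    (hS : Measurable S)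
    (hTY : ∀ᵐ x ∂(volume.restrict K), ‖T x‖ ≤ RY) (hSY : ∀ᵐ x ∂(volume.restrict K), ‖S x‖ ≤ RY) :
    IntegrableOn (fun x => ‖T x - S x‖ ^ 2) B := by
  have hfin : volume B ≠ ∞ :=
    ((measure_mono hBK).trans_lt hKc.measure_lt_top).ne
  refine Measure.integrableOn_of_bounded (M := 4 * RY ^ 2) hfin
    (((hT.sub hS).norm.pow_const 2).aestronglyMeasurable) ?_
  filter_upwards [norm_sub_sq_le_ae K B hBK RY T S hTY hSY] with x hx
  rw [Real.norm_of_nonneg (by positivity)]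
  exact hx

theorem integrableOn_pos_part_sq (K B : Set (EuclideanSpace ℝ (Fin d))) (hKc : IsCompact K)
    (hBK : B ⊆ K) (RY : ℝ)
    (T S : EuclideanSpace ℝ (Fin d) → EuclideanSpace ℝ (Fin d)) (hT : Measurable T)
    (hS : Measurable S)
    (hTY : ∀ᵐ x ∂(volume.restrict K), ‖T x‖ ≤ RY) (hSY : ∀ᵐ x ∂(volume.restrict K), ‖S x‖ ≤ RY)
    (e : EuclideanSpace ℝ (Fin d)) (he : ‖e‖ = 1) :
    IntegrableOn (fun x => (max (inner ℝ e (T x - S x)) 0) ^ 2) B := by
  have hfin : volume B ≠ ∞ :=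
    ((measure_mono hBK).trans_lt hKc.measure_lt_top).ne
  have hm : Measurable (fun x => (max (inner ℝ e (T x - S x)) 0) ^ 2) :=
    (((measurable_const.inner (hT.sub hS))).max measurable_const).pow_const 2
  refine Measure.integrableOn_of_bounded (M := 4 * RY ^ 2) hfin hm.aestronglyMeasurable ?_
  filter_upwards [norm_sub_sq_le_ae K B hBK RY T S hTY hSY] with x hx
  rw [Real.norm_of_nonneg (by positivity)]
  exact (pos_part_sq_le e _ he).trans hx

/-- One direction of the interior estimate. -/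
theorem dir_bound {K : Set (EuclideanSpace ℝ (Fin d))} {R : ℝ} (hK : Body K R)
    (c : EuclideanSpace ℝ (Fin d)) (r : ℝ) (hr : 0 < r)
    (hc : closedBall c r ⊆ K) (Y : Set (EuclideanSpace ℝ (Fin d))) (hY : IsCompact Y) (RY : ℝ)
    (hRY0 : 0 < RY) (hRY : ∀ y ∈ Y, ‖y‖ ≤ RY)
    (T S : EuclideanSpace ℝ (Fin d) → EuclideanSpace ℝ (Fin d)) (hT : Measurable T)
    (hS : Measurable S)
    (φ ψ : EuclideanSpace ℝ (Fin d) → ℝ) (hφ : ∀ x y, |φ x - φ y| ≤ RY * ‖x - y‖)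
    (hψ : ∀ x y, |ψ x - ψ y| ≤ RY * ‖x - y‖)
    (hφsub : ∀ᵐ x ∂(volume.restrict K), T x ∈ Y ∧ ∀ x', φ x + inner ℝ (T x) (x' - x) ≤ φ x')
    (hψsub : ∀ᵐ x ∂(volume.restrict K), S x ∈ Y ∧ ∀ x', ψ x + inner ℝ (S x) (x' - x) ≤ ψ x')
    (π : Measure (EuclideanSpace ℝ (Fin d) × EuclideanSpace ℝ (Fin d))) [IsProbabilityMeasure π]
    (hπ : ∀ᵐ p ∂π, p.1 ∈ Y ∧ p.2 ∈ Y)
    (h1 : Measure.map Prod.fst π = Measure.map T (unif K))
    (h2 : Measure.map Prod.snd π = Measure.map S (unif K))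
    (s : ℝ) (hs0 : 0 < s) (hs1 : s < 1) (e : EuclideanSpace ℝ (Fin d)) (he : ‖e‖ = 1) :
    (s * r) * ∫ x in shrink c s K, (max (inner ℝ e (T x - S x)) 0) ^ 2
      ≤ 2000 * R * Real.sqrt (∫ x in K, ‖T x - S x‖ ^ 2)
          * (Real.sqrt (volume K).toReal * Real.sqrt (∫ p, ‖p.1 - p.2‖ ^ 2 ∂π))
        + 4 * RY ^ 2 * (s * r) * (d * s * (volume K).toReal) := by
  have hKc := hK.compact
  have hKconv := hK.convex
  have hR := hK.pos
  have ht : 0 < s * r := mul_pos hs0 hr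
  have hAK : shrink c s K ⊆ K := shrink_subset K hKconv c r hr hc s hs0 hs1
  have hAc : IsCompact (shrink c s K) := isCompact_shrink K hKc c s
  have hAm : MeasurableSet (shrink c s K) := hAc.measurableSet
  have hKm : MeasurableSet K := hKc.measurableSet
  have hTY : ∀ᵐ x ∂(volume.restrict K), ‖T x‖ ≤ RY := by
    filter_upwards [hφsub] with x hx
    exact hRY _ hx.1
  have hSY : ∀ᵐ x ∂(volume.restrict K), ‖S x‖ ≤ RY := by
    filter_upwards [hψsub] with x hx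
    exact hRY _ hx.1
  have hnorm : ‖(s * r) • e‖ ≤ s * r := by
    rw [norm_smul, he, mul_one, Real.norm_of_nonneg ht.le]
  have hA1 : ∀ x ∈ shrink c s K, x + (s * r) • e ∈ K := fun x hx =>
    shrink_add_mem K hKconv c r hr hc s hs0 hs1 x hx _ hnorm
  have hA2 : ∀ x ∈ shrink c s K, x - (s * r) • e ∈ K := by
    intro x hx
    have := shrink_add_mem K hKconv c r hr hc s hs0 hs1 x hx (-((s * r) • e))
      (by rw [norm_neg]; exact hnorm)
    simpa [sub_eq_add_neg] using this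
  have hmain := dir_ineq hK Y hY RY hRY0 hRY T S hT hS φ ψ hφ hψ hφsub hψsub π hπ h1 h2
    (shrink c s K) hAm hAK e he (s * r) ht hA1 hA2
  have hvol := volume_diff_shrink_le K hKc hKconv c r hr hc s hs0 hs1
  have hIle : ∫ x in shrink c s K, (max (inner ℝ e (T x - S x)) 0) ^ 2
      ≤ ∫ x in K, ‖T x - S x‖ ^ 2 := by
    calc ∫ x in shrink c s K, (max (inner ℝ e (T x - S x)) 0) ^ 2
        ≤ ∫ x in shrink c s K, ‖T x - S x‖ ^ 2 :=
          integral_mono (integrableOn_pos_part_sq K _ hKc hAK RY T S hT hS hTY hSY e he)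
            (integrableOn_norm_sub_sq K _ hKc hAK RY T S hT hS hTY hSY)
            (fun x => pos_part_sq_le e _ he)
      _ ≤ ∫ x in K, ‖T x - S x‖ ^ 2 := by
          refine setIntegral_mono_set
            (integrableOn_norm_sub_sq K _ hKc subset_rfl RY T S hT hS hTY hSY) ?_
            (Filter.Eventually.of_forall hAK)
          exact Filter.Eventually.of_forall (fun x => by positivity)
  have hsq := Real.sqrt_le_sqrt hIle
  rw [Real.sqrt_mul ENNReal.toReal_nonneg] at hmain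
  have hW : 0 ≤ Real.sqrt (volume K).toReal * Real.sqrt (∫ p, ‖p.1 - p.2‖ ^ 2 ∂π) :=
    mul_nonneg (Real.sqrt_nonneg _) (Real.sqrt_nonneg _)
  generalize Real.sqrt (volume K).toReal * Real.sqrt (∫ p, ‖p.1 - p.2‖ ^ 2 ∂π) = W at hmain hW ⊢
  generalize Real.sqrt (∫ x in shrink c s K, (max (inner ℝ e (T x - S x)) 0) ^ 2) = a
    at hmain hsq ⊢
  generalize Real.sqrt (∫ x in K, ‖T x - S x‖ ^ 2) = b at hsq ⊢
  generalize (∫ x in shrink c s K, (max (inner ℝ e (T x - S x)) 0) ^ 2) = I at hmain ⊢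
  generalize (volume (K \ shrink c s K)).toReal = v at hmain hvol ⊢
  generalize (volume K).toReal = V at hvol ⊢
  refine hmain.trans ?_
  have hfirst : 2000 * R * a * W ≤ 2000 * R * b * W :=
    mul_le_mul_of_nonneg_right (mul_le_mul_of_nonneg_left hsq (by positivity)) hW
  have hsecond : 4 * RY ^ 2 * (s * r) * v ≤ 4 * RY ^ 2 * (s * r) * (d * s * V) :=
    mul_le_mul_of_nonneg_left hvol (by positivity)
  linarith

/-- The `L²` estimate with a free parameter `s ∈ (0,1)`. -/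
theorem l2_param {K : Set (EuclideanSpace ℝ (Fin d))} {R : ℝ} (hK : Body K R)
    (c : EuclideanSpace ℝ (Fin d)) (r : ℝ) (hr : 0 < r)
    (hc : closedBall c r ⊆ K) (Y : Set (EuclideanSpace ℝ (Fin d))) (hY : IsCompact Y) (RY : ℝ)
    (hRY0 : 0 < RY) (hRY : ∀ y ∈ Y, ‖y‖ ≤ RY)
    (T S : EuclideanSpace ℝ (Fin d) → EuclideanSpace ℝ (Fin d)) (hT : Measurable T)
    (hS : Measurable S)
    (φ ψ : EuclideanSpace ℝ (Fin d) → ℝ) (hφ : ∀ x y, |φ x - φ y| ≤ RY * ‖x - y‖)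
    (hψ : ∀ x y, |ψ x - ψ y| ≤ RY * ‖x - y‖)
    (hφsub : ∀ᵐ x ∂(volume.restrict K), T x ∈ Y ∧ ∀ x', φ x + inner ℝ (T x) (x' - x) ≤ φ x')
    (hψsub : ∀ᵐ x ∂(volume.restrict K), S x ∈ Y ∧ ∀ x', ψ x + inner ℝ (S x) (x' - x) ≤ ψ x')
    (π : Measure (EuclideanSpace ℝ (Fin d) × EuclideanSpace ℝ (Fin d))) [IsProbabilityMeasure π]
    (hπ : ∀ᵐ p ∂π, p.1 ∈ Y ∧ p.2 ∈ Y)
    (h1 : Measure.map Prod.fst π = Measure.map T (unif K))
    (h2 : Measure.map Prod.snd π = Measure.map S (unif K))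
    (s : ℝ) (hs0 : 0 < s) (hs1 : s < 1) :
    Real.sqrt (∫ x in K, ‖T x - S x‖ ^ 2) ^ 2
      ≤ (4000 * d * R * Real.sqrt (volume K).toReal / r) * Real.sqrt (∫ x in K, ‖T x - S x‖ ^ 2)
          * Real.sqrt (∫ p, ‖p.1 - p.2‖ ^ 2 ∂π) / s
        + ((8 * d ^ 2 + 4 * d) * RY ^ 2 * (volume K).toReal) * s := by
  have hKc := hK.compact
  have hKconv := hK.convex
  have hR := hK.pos
  have ht : 0 < s * r := mul_pos hs0 hr
  have hAK : shrink c s K ⊆ K := shrink_subset K hKconv c r hr hc s hs0 hs1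
  have hAc : IsCompact (shrink c s K) := isCompact_shrink K hKc c s
  have hAm : MeasurableSet (shrink c s K) := hAc.measurableSet
  have hKm : MeasurableSet K := hKc.measurableSet
  have hTY : ∀ᵐ x ∂(volume.restrict K), ‖T x‖ ≤ RY := by
    filter_upwards [hφsub] with x hx
    exact hRY _ hx.1
  have hSY : ∀ᵐ x ∂(volume.restrict K), ‖S x‖ ≤ RY := by
    filter_upwards [hψsub] with x hx
    exact hRY _ hx.1
  have hE0 : 0 ≤ ∫ x in K, ‖T x - S x‖ ^ 2 := integral_nonneg (fun x => by positivity)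
  rw [Real.sq_sqrt hE0]
  set E : ℝ := Real.sqrt (∫ x in K, ‖T x - S x‖ ^ 2) with hEdef
  set V : ℝ := (volume K).toReal with hVdef
  set W : ℝ := Real.sqrt (∫ p, ‖p.1 - p.2‖ ^ 2 ∂π) with hWdef
  have hone : ∀ i : Fin d, ‖(EuclideanSpace.single i (1 : ℝ) : EuclideanSpace ℝ (Fin d))‖ = 1 := by
    intro i
    rw [PiLp.norm_single, norm_one]
  have hone' : ∀ i : Fin d,
      ‖-(EuclideanSpace.single i (1 : ℝ) : EuclideanSpace ℝ (Fin d))‖ = 1 := by
    intro i
    rw [norm_neg, hone]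
  have hp : ∀ i : Fin d, IntegrableOn
      (fun x => (max (inner ℝ (EuclideanSpace.single i (1 : ℝ)) (T x - S x)) 0) ^ 2)
      (shrink c s K) := fun i =>
    integrableOn_pos_part_sq K _ hKc hAK RY T S hT hS hTY hSY _ (hone i)
  have hn : ∀ i : Fin d, IntegrableOn
      (fun x => (max (inner ℝ (-EuclideanSpace.single i (1 : ℝ)) (T x - S x)) 0) ^ 2)
      (shrink c s K) := fun i =>
    integrableOn_pos_part_sq K _ hKc hAK RY T S hT hS hTY hSY _ (hone' i)
  -- interior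
  have hint : ∫ x in shrink c s K, ‖T x - S x‖ ^ 2
      = ∑ i : Fin d, ((∫ x in shrink c s K,
          (max (inner ℝ (EuclideanSpace.single i (1 : ℝ)) (T x - S x)) 0) ^ 2)
        + ∫ x in shrink c s K,
          (max (inner ℝ (-EuclideanSpace.single i (1 : ℝ)) (T x - S x)) 0) ^ 2) := by
    have : ∀ x, ‖T x - S x‖ ^ 2 = ∑ i : Fin d,
        ((max (inner ℝ (EuclideanSpace.single i (1 : ℝ)) (T x - S x)) 0) ^ 2
        + (max (inner ℝ (-EuclideanSpace.single i (1 : ℝ)) (T x - S x)) 0) ^ 2) :=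
      fun x => norm_sq_eq_sum_pos_parts _
    simp_rw [this]
    rw [integral_finsetSum (f := fun (i : Fin d) x =>
        (max (inner ℝ (EuclideanSpace.single i (1 : ℝ)) (T x - S x)) 0) ^ 2
        + (max (inner ℝ (-EuclideanSpace.single i (1 : ℝ)) (T x - S x)) 0) ^ 2) _
        (fun i _ => Integrable.add (hp i) (hn i))]
    refine Finset.sum_congr rfl (fun i _ => ?_)
    exact integral_add (hp i) (hn i)
  have hdirp := fun i : Fin d => dir_bound hK c r hr hc Y hY RY hRY0 hRY T S hT hS φ ψ hφ hψ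
    hφsub hψsub π hπ h1 h2 s hs0 hs1 _ (hone i)
  have hdirn := fun i : Fin d => dir_bound hK c r hr hc Y hY RY hRY0 hRY T S hT hS φ ψ hφ hψ
    hφsub hψsub π hπ h1 h2 s hs0 hs1 _ (hone' i)
  have hinterior : (s * r) * ∫ x in shrink c s K, ‖T x - S x‖ ^ 2
      ≤ d * (2 * (2000 * R * E * (Real.sqrt V * W) + 4 * RY ^ 2 * (s * r) * (d * s * V))) := by
    rw [hint, Finset.mul_sum]
    calc _ ≤ ∑ _i : Fin d,
          2 * (2000 * R * E * (Real.sqrt V * W) + 4 * RY ^ 2 * (s * r) * (d * s * V)) := by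
          refine Finset.sum_le_sum (fun i _ => ?_)
          have a := hdirp i
          have b := hdirn i
          rw [mul_add]
          linarith
      _ = _ := by simp [Finset.sum_const, nsmul_eq_mul]
  -- boundary layer
  have hBK : K \ shrink c s K ⊆ K := sdiff_subset
  have hfin : volume (K \ shrink c s K) ≠ ∞ :=
    ((measure_mono hBK).trans_lt hKc.measure_lt_top).ne
  have hvol := volume_diff_shrink_le K hKc hKconv c r hr hc s hs0 hs1
  have hlayer : ∫ x in K \ shrink c s K, ‖T x - S x‖ ^ 2 ≤ 4 * RY ^ 2 * (d * s * V) := by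
    have hconst : IntegrableOn (fun _ : EuclideanSpace ℝ (Fin d) => 4 * RY ^ 2)
        (K \ shrink c s K) := integrableOn_const hfin
    calc ∫ x in K \ shrink c s K, ‖T x - S x‖ ^ 2 ≤ ∫ _x in K \ shrink c s K, 4 * RY ^ 2 :=
          integral_mono_ae (integrableOn_norm_sub_sq K _ hKc hBK RY T S hT hS hTY hSY) hconst
            (norm_sub_sq_le_ae K _ hBK RY T S hTY hSY)
      _ = 4 * RY ^ 2 * (volume (K \ shrink c s K)).toReal := by
          rw [setIntegral_const, Measure.real, smul_eq_mul, mul_comm]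
      _ ≤ 4 * RY ^ 2 * (d * s * V) := mul_le_mul_of_nonneg_left hvol (by positivity)
  have hsplit : ∫ x in K, ‖T x - S x‖ ^ 2 = (∫ x in shrink c s K, ‖T x - S x‖ ^ 2)
      + ∫ x in K \ shrink c s K, ‖T x - S x‖ ^ 2 := by
    have hU : K = shrink c s K ∪ (K \ shrink c s K) := (union_sdiff_cancel hAK).symm
    conv_lhs => rw [hU]
    exact setIntegral_union disjoint_sdiff_right (hKm.diff hAm)
      (integrableOn_norm_sub_sq K _ hKc hAK RY T S hT hS hTY hSY)
      (integrableOn_norm_sub_sq K _ hKc sdiff_subset RY T S hT hS hTY hSY)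
  have h3 : ∫ x in shrink c s K, ‖T x - S x‖ ^ 2 ≤
      (d * (2 * (2000 * R * E * (Real.sqrt V * W) + 4 * RY ^ 2 * (s * r) * (d * s * V))))
        / (s * r) := by
    rw [le_div_iff₀ ht]
    linarith
  have h4 : (d * (2 * (2000 * R * E * (Real.sqrt V * W) + 4 * RY ^ 2 * (s * r) * (d * s * V))))
        / (s * r) = (4000 * d * R * Real.sqrt V / r) * E * W / s + 8 * d ^ 2 * RY ^ 2 * V * s := by
    field_simp
    ring
  rw [hsplit]
  rw [h4] at h3
  nlinarith [hlayer, h3]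

end Vale.Agent.P074.Third
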