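import Mathlib

open scoped ENNReal NNReal

namespace Vale.Agent.P074.Third

/-- Optimisation over the free parameter. -/
theorem optimise_third (E a b m W : ℝ) (hE : 0 ≤ E) (ha : 0 ≤ a) (hb : 0 ≤ b) (hm : 0 ≤ m)
    (hW : 0 ≤ W) (hEm : E ≤ m) (h : ∀ s : ℝ, 0 < s → s < 1 → E ^ 2 ≤ a * E * W / s + b * s) :
    E ≤ (a + Real.sqrt b + m) * W ^ (1 / 3 : ℝ) := by
  have hc0 : 0 ≤ Real.sqrt b := Real.sqrt_nonneg b
  have hc2 : Real.sqrt b ^ 2 = b := Real.sq_sqrt hb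
  set c := Real.sqrt b with hc
  rcases le_or_gt 1 W with h1 | h1
  · have hu : (1 : ℝ) ≤ W ^ (1 / 3 : ℝ) := Real.one_le_rpow h1 (by norm_num)
    nlinarith
  rcases hW.eq_or_lt with h0 | h0
  · -- W = 0
    rw [← h0, Real.zero_rpow (by norm_num), mul_zero]
    by_contra hne
    have hEpos : 0 < E := lt_of_not_ge hne
    have hE2 : 0 < E ^ 2 := by positivity
    set s := min (1 / 2 : ℝ) (E ^ 2 / (2 * (b + 1))) with hs
    have hs0 : 0 < s := lt_min (by norm_num) (by positivity)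
    have hs1 : s < 1 := lt_of_le_of_lt (min_le_left _ _) (by norm_num)
    have hs2 : s ≤ E ^ 2 / (2 * (b + 1)) := min_le_right _ _
    have := h s hs0 hs1
    rw [← h0] at this
    simp only [mul_zero, zero_div, zero_add] at this
    have h3 : s * (2 * (b + 1)) ≤ E ^ 2 := by
      rwa [le_div_iff₀ (by positivity)] at hs2
    nlinarith
  · -- 0 < W < 1
    set u := W ^ (1 / 3 : ℝ) with hu
    have hu0 : 0 < u := Real.rpow_pos_of_pos h0 _
    have hu3 : u ^ 3 = W := by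
      rw [hu, ← Real.rpow_natCast, ← Real.rpow_mul hW]
      norm_num
    have hu1 : u < 1 := Real.rpow_lt_one hW h1 (by norm_num)
    have hs0 : 0 < u ^ 2 := by positivity
    have hs1 : u ^ 2 < 1 := by nlinarith
    have h2 := h (u ^ 2) hs0 hs1
    have h3 : a * E * W / u ^ 2 = a * E * u := by
      rw [← hu3]
      field_simp
    rw [h3] at h2
    have h4 : E ≤ (a + c) * u := by
      by_contra hne
      have hlt : (a + c) * u < E := lt_of_not_ge hne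
      have hcu : 0 ≤ c * u := by positivity
      have hacu : 0 ≤ (a + c) * u := by positivity
      nlinarith [mul_lt_mul_of_pos_left hlt (lt_of_le_of_lt hacu hlt),
        mul_le_mul_of_nonneg_left hlt.le hcu, mul_nonneg (mul_nonneg hc0 ha) hs0.le]
    nlinarith [mul_nonneg hm hu0.le]

/-- Passing to the infimum over couplings. -/
theorem le_mul_iInf_rpow_third {ι : Type*} (J : ℝ≥0∞) (C : ℝ≥0) (hC : 0 < C) (I : ι → ℝ≥0∞)
    (h : ∀ i, J ≤ C * (I i ^ (1 / 2 : ℝ)) ^ (1 / 3 : ℝ)) :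
    J ≤ (C : ℝ≥0∞) * ((⨅ i, I i) ^ (1 / 2 : ℝ)) ^ (1 / 3 : ℝ) := by
  have hC0 : (C : ℝ≥0∞) ≠ 0 := by
    exact_mod_cast hC.ne'
  have hCt : (C : ℝ≥0∞) ≠ ∞ := ENNReal.coe_ne_top
  have h1 : ∀ i, (J / C) ^ (6 : ℝ) ≤ I i := by
    intro i
    have h2 : J / C ≤ (I i ^ (1 / 2 : ℝ)) ^ (1 / 3 : ℝ) := by
      rw [ENNReal.div_le_iff_le_mul (Or.inl hC0) (Or.inl hCt), mul_comm]
      exact h i
    calc (J / C) ^ (6 : ℝ) ≤ ((I i ^ (1 / 2 : ℝ)) ^ (1 / 3 : ℝ)) ^ (6 : ℝ) :=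
          ENNReal.rpow_le_rpow h2 (by norm_num)
      _ = I i := by
          rw [← ENNReal.rpow_mul, ← ENNReal.rpow_mul]
          norm_num
  have h3 : (J / C) ^ (6 : ℝ) ≤ ⨅ i, I i := le_iInf h1
  have h4 : J / C ≤ ((⨅ i, I i) ^ (1 / 2 : ℝ)) ^ (1 / 3 : ℝ) := by
    calc J / C = (((J / C) ^ (6 : ℝ)) ^ (1 / 2 : ℝ)) ^ (1 / 3 : ℝ) := by
          rw [← ENNReal.rpow_mul, ← ENNReal.rpow_mul]
          norm_num
      _ ≤ ((⨅ i, I i) ^ (1 / 2 : ℝ)) ^ (1 / 3 : ℝ) :=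
          ENNReal.rpow_le_rpow (ENNReal.rpow_le_rpow h3 (by norm_num)) (by norm_num)
  rw [ENNReal.div_le_iff_le_mul (Or.inl hC0) (Or.inl hCt), mul_comm] at h4
  exact h4

end Vale.Agent.P074.Third
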