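import Vale.Agent.P074.Lower.Main
import Vale.Agent.P074.Third.L2Param
import Vale.Agent.P074.Third.Optimise

open MeasureTheory Set Metric
open scoped ENNReal NNReal

namespace Vale.Agent.P074.Third

open Vale.Agent.P074 Vale.Agent.P074.Lower

variable {d : ℕ}

/-- The trivial `L²` bound for maps with values in a ball. -/
theorem trivial_l2_bound (K : Set (EuclideanSpace ℝ (Fin d))) (hKfin : volume K ≠ ∞) (RY : ℝ)
    (hRY0 : 0 ≤ RY)
    (T S : EuclideanSpace ℝ (Fin d) → EuclideanSpace ℝ (Fin d))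
    (hTY : ∀ᵐ x ∂(volume.restrict K), ‖T x‖ ≤ RY) (hSY : ∀ᵐ x ∂(volume.restrict K), ‖S x‖ ≤ RY) :
    Real.sqrt (∫ x in K, ‖T x - S x‖ ^ 2) ≤ 2 * RY * Real.sqrt (volume K).toReal := by
  have : IsFiniteMeasure (volume.restrict K) := ⟨by
    rw [Measure.restrict_apply_univ]; exact lt_top_iff_ne_top.mpr hKfin⟩
  have h1 : ∫ x in K, ‖T x - S x‖ ^ 2 ≤ ∫ _x in K, (2 * RY) ^ 2 := by
    refine integral_mono_of_nonneg (Filter.Eventually.of_forall fun x => by positivity)
      (integrable_const _) ?_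
    filter_upwards [hTY, hSY] with x h1 h2
    have h3 : ‖T x - S x‖ ≤ 2 * RY := by
      calc ‖T x - S x‖ ≤ ‖T x‖ + ‖S x‖ := norm_sub_le _ _
        _ ≤ 2 * RY := by linarith
    exact pow_le_pow_left₀ (norm_nonneg _) h3 2
  have h2 : ∫ _x in K, (2 * RY) ^ 2 = (2 * RY) ^ 2 * (volume K).toReal := by
    rw [integral_const, measureReal_def, Measure.restrict_apply_univ, smul_eq_mul]
    ring
  calc Real.sqrt (∫ x in K, ‖T x - S x‖ ^ 2)
      ≤ Real.sqrt ((2 * RY) ^ 2 * (volume K).toReal) := Real.sqrt_le_sqrt (h1.trans h2.le)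
    _ = 2 * RY * Real.sqrt (volume K).toReal := by
        rw [Real.sqrt_mul (by positivity), Real.sqrt_sq (by positivity)]

/-- A coupling of two measures concentrated on `Y`, the first one a probability measure, is a
probability measure concentrated on `Y × Y`. -/
theorem coupling_props_mem (Y : Set (EuclideanSpace ℝ (Fin d))) (hY : MeasurableSet Y)
    (μ ν : Measure (EuclideanSpace ℝ (Fin d))) [IsProbabilityMeasure μ] (hμ : μ Yᶜ = 0)
    (hν : ν Yᶜ = 0)
    (π : Measure (EuclideanSpace ℝ (Fin d) × EuclideanSpace ℝ (Fin d)))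
    (h1 : Measure.map Prod.fst π = μ) (h2 : Measure.map Prod.snd π = ν) :
    IsProbabilityMeasure π ∧ ∀ᵐ p ∂π, p.1 ∈ Y ∧ p.2 ∈ Y := by
  constructor
  · constructor
    have h3 : μ univ = 1 := measure_univ
    rw [← h1, Measure.map_apply measurable_fst MeasurableSet.univ, preimage_univ] at h3
    exact h3
  · rw [← h1, Measure.map_apply measurable_fst hY.compl] at hμ
    rw [← h2, Measure.map_apply measurable_snd hY.compl] at hν
    filter_upwards [measure_eq_zero_iff_ae_notMem.mp hμ, measure_eq_zero_iff_ae_notMem.mp hν]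
      with p hp1 hp2
    refine ⟨?_, ?_⟩
    · by_contra hc
      exact hp1 hc
    · by_contra hc
      exact hp2 hc

/-- The uniform measure on a set of positive finite volume is a probability measure. -/
theorem isProbabilityMeasure_unif' (K : Set (EuclideanSpace ℝ (Fin d)))
    (h0 : volume K ≠ 0) (h1 : volume K ≠ ∞) : IsProbabilityMeasure (unif K) := by
  constructor
  unfold unif
  rw [Measure.smul_apply, Measure.restrict_apply_univ, smul_eq_mul]
  exact ENNReal.inv_mul_cancel h0 h1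

/-- The `L²` stability estimate with exponent `1/3`, in real form. -/
theorem l2_stability (hd : 0 < d) (K : Set (EuclideanSpace ℝ (Fin d))) (hKc : IsCompact K)
    (hKconv : Convex ℝ K) (hKint : (interior K).Nonempty) (Y : Set (EuclideanSpace ℝ (Fin d)))
    (hY : IsCompact Y) :
    ∃ C : ℝ, 0 ≤ C ∧ ∀ μ ν : Measure (EuclideanSpace ℝ (Fin d)), μ Yᶜ = 0 → ν Yᶜ = 0 →
      ∀ T S : EuclideanSpace ℝ (Fin d) → EuclideanSpace ℝ (Fin d),
      IsOTMap (unif K) μ T → IsOTMap (unif K) ν S →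
      ∀ π : Measure (EuclideanSpace ℝ (Fin d) × EuclideanSpace ℝ (Fin d)),
      Measure.map Prod.fst π = μ → Measure.map Prod.snd π = ν →
      Real.sqrt (∫ x in K, ‖T x - S x‖ ^ 2)
        ≤ C * (Real.sqrt (∫ p, ‖p.1 - p.2‖ ^ 2 ∂π)) ^ (1 / 3 : ℝ) := by
  obtain ⟨c, r, hr, hcr⟩ := exists_closedBall_subset K hKint
  obtain ⟨RK0, hRK0⟩ := hKc.isBounded.exists_norm_le
  obtain ⟨RY0, hRY0⟩ := hY.isBounded.exists_norm_le
  set R : ℝ := |RK0| + 1 with hR
  set RY : ℝ := |RY0| + 1 with hRYdef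
  have hRpos : 0 < R := by positivity
  have hRYpos : 0 < RY := by positivity
  have hRK : ∀ x ∈ K, ‖x‖ ≤ R := fun x hx =>
    (hRK0 x hx).trans ((le_abs_self _).trans (by rw [hR]; linarith))
  have hRY : ∀ y ∈ Y, ‖y‖ ≤ RY := fun x hx =>
    (hRY0 x hx).trans ((le_abs_self _).trans (by rw [hRYdef]; linarith))
  have hK0 : volume K ≠ 0 := volume_ne_zero_of_interior K hKint
  have hKfin : volume K ≠ ∞ := hKc.measure_lt_top.ne
  have hBody : Body K R := ⟨hKc, hKconv, hRpos, hRK, hK0⟩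
  refine ⟨(4000 * d * R * Real.sqrt (volume K).toReal / r)
    + Real.sqrt ((8 * d ^ 2 + 4 * d) * RY ^ 2 * (volume K).toReal)
    + 2 * RY * Real.sqrt (volume K).toReal, by positivity, ?_⟩
  intro μ ν hμ hν T S hT hS π h1 h2
  obtain ⟨φ, hφ, hφsub⟩ := exists_potential hd K hKc hKconv hKint Y hY _ hRY μ hμ T hT
  obtain ⟨ψ, hψ, hψsub⟩ := exists_potential hd K hKc hKconv hKint Y hY _ hRY ν hν S hS
  have hTY : ∀ᵐ x ∂(volume.restrict K), ‖T x‖ ≤ RY := hφsub.mono fun x hx => hRY _ hx.1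
  have hSY : ∀ᵐ x ∂(volume.restrict K), ‖S x‖ ≤ RY := hψsub.mono fun x hx => hRY _ hx.1
  have hU : IsProbabilityMeasure (unif K) := isProbabilityMeasure_unif' K hK0 hKfin
  have hμp : IsProbabilityMeasure μ := by
    rw [← hT.2.1]
    exact Measure.isProbabilityMeasure_map hT.1.aemeasurable
  obtain ⟨hπp, hπY⟩ := coupling_props_mem Y hY.measurableSet μ ν hμ hν π h1 h2
  refine optimise_third _ _ _ _ _ (Real.sqrt_nonneg _) (by positivity) (by positivity)
    (by positivity) (Real.sqrt_nonneg _) (trivial_l2_bound K hKfin RY hRYpos.le T S hTY hSY) ?_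
  intro s hs0 hs1
  exact l2_param hBody c r hr hcr Y hY RY hRYpos hRY T S hT.1 hS.1 φ ψ hφ hψ hφsub hψsub π hπY
    (h1.trans hT.2.1.symm) (h2.trans hS.2.1.symm) s hs0 hs1

end Vale.Agent.P074.Third
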