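import Vale.Agent.P074.Third.CellSum

open MeasureTheory Set Metric
open scoped ENNReal NNReal

namespace Vale.Agent.P074.Third

variable {d : ℕ}


variable {ι : Type*} [Fintype ι] [Nonempty ι]

/-- `max_k (<x, y k> - c k)`. -/
noncomputable def lagMax (y : ι → (EuclideanSpace ℝ (Fin d))) (c : ι → ℝ) (x : (EuclideanSpace ℝ (Fin d))) : ℝ :=
  Finset.univ.sup' Finset.univ_nonempty (fun k => inner ℝ x (y k) - c k)

/-- The Kantorovich functional of the semi-discrete problem. -/
noncomputable def lagG (K : Set (EuclideanSpace ℝ (Fin d))) (w : (EuclideanSpace ℝ (Fin d)) → ℝ) (V : ι → ℝ) (y : ι → (EuclideanSpace ℝ (Fin d))) (c : ι → ℝ) : ℝ :=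
  (∫ x in K, lagMax y c x * w x) + ∑ k, V k * c k

theorem continuous_lagMax (y : ι → (EuclideanSpace ℝ (Fin d))) (c : ι → ℝ) : Continuous (lagMax y c) := by
  unfold lagMax
  apply Continuous.finset_sup'_apply
  intro k _
  fun_prop

theorem le_lagMax (y : ι → (EuclideanSpace ℝ (Fin d))) (c : ι → ℝ) (x : (EuclideanSpace ℝ (Fin d))) (k : ι) :
    inner ℝ x (y k) - c k ≤ lagMax y c x :=
  Finset.le_sup' (fun k => inner ℝ x (y k) - c k) (Finset.mem_univ k)

theorem lagMax_le (y : ι → (EuclideanSpace ℝ (Fin d))) (c : ι → ℝ) (x : (EuclideanSpace ℝ (Fin d))) (B : ℝ)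
    (hB : ∀ k, inner ℝ x (y k) - c k ≤ B) : lagMax y c x ≤ B :=
  Finset.sup'_le _ _ (fun k _ => hB k)

theorem integrableOn_lagMax_mul {K : Set (EuclideanSpace ℝ (Fin d))} {R : ℝ} (hK : Body K R) {w : (EuclideanSpace ℝ (Fin d)) → ℝ} (hw : Weight K w)
    (y : ι → (EuclideanSpace ℝ (Fin d))) (c : ι → ℝ) : IntegrableOn (fun x => lagMax y c x * w x) K := by
  have h1 : IntegrableOn (lagMax y c) K :=
    (continuous_lagMax y c).continuousOn.integrableOn_compact hK.compact
  refine Integrable.mul_bdd (c := 3 / 2) h1 hw.meas.aestronglyMeasurable ?_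
  refine Filter.Eventually.of_forall (fun x => ?_)
  rw [Real.norm_eq_abs, abs_le]
  constructor
  · linarith [hw.lo x]
  · exact hw.hi x

theorem integrableOn_weight {K : Set (EuclideanSpace ℝ (Fin d))} {R : ℝ} (hK : Body K R) {w : (EuclideanSpace ℝ (Fin d)) → ℝ} (hw : Weight K w) :
    IntegrableOn w K := by
  have h1 : IntegrableOn (fun _ : (EuclideanSpace ℝ (Fin d)) => (1 : ℝ)) K :=
    continuous_const.continuousOn.integrableOn_compact hK.compact
  have h2 : IntegrableOn (fun x => (1 : ℝ) * w x) K := by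
    refine Integrable.mul_bdd (c := 3 / 2) h1 hw.meas.aestronglyMeasurable ?_
    refine Filter.Eventually.of_forall (fun x => ?_)
    rw [Real.norm_eq_abs, abs_le]
    constructor
    · linarith [hw.lo x]
    · exact hw.hi x
  simpa using h2

theorem lagMax_le_add (y : ι → (EuclideanSpace ℝ (Fin d))) (c c' : ι → ℝ) (ε : ℝ)
    (h : ∀ k, |c k - c' k| ≤ ε) (x : (EuclideanSpace ℝ (Fin d))) : lagMax y c x ≤ lagMax y c' x + ε := by
  apply lagMax_le
  intro k
  have h1 := le_lagMax y c' x k
  have h2 := (abs_le.mp (h k)).1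
  linarith

/-- `lagG` is Lipschitz for the sup norm. -/
theorem lagG_sub_le {K : Set (EuclideanSpace ℝ (Fin d))} {R : ℝ} (hK : Body K R) {w : (EuclideanSpace ℝ (Fin d)) → ℝ} (hw : Weight K w)
    {V : ι → ℝ} (hV : Masses K V) (y : ι → (EuclideanSpace ℝ (Fin d))) (c c' : ι → ℝ) (ε : ℝ)
    (h : ∀ k, |c k - c' k| ≤ ε) :
    lagG K w V y c - lagG K w V y c' ≤ 2 * (volume K).toReal * ε := by
  have hwI := integrableOn_weight hK hw
  have h1 : (∫ x in K, lagMax y c x * w x) ≤ ∫ x in K, (lagMax y c' x * w x + ε * w x) := by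
    refine setIntegral_mono_on (integrableOn_lagMax_mul hK hw y c)
      ((integrableOn_lagMax_mul hK hw y c').add (hwI.const_mul ε)) hK.compact.measurableSet ?_
    intro x _
    have h3 := lagMax_le_add y c c' ε h x
    have h4 : 0 ≤ w x := by linarith [hw.lo x]
    nlinarith
  have h2 : (∫ x in K, (lagMax y c' x * w x + ε * w x))
      = (∫ x in K, lagMax y c' x * w x) + ε * (volume K).toReal := by
    rw [integral_add (integrableOn_lagMax_mul hK hw y c') (hwI.const_mul ε), integral_const_mul,
      hw.total]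
  have h3 : ∑ k, V k * c k ≤ ∑ k, V k * c' k + (volume K).toReal * ε := by
    rw [← hV.total, Finset.sum_mul, ← Finset.sum_add_distrib]
    refine Finset.sum_le_sum (fun k _ => ?_)
    have h5 := (abs_le.mp (h k)).2
    have h6 := hV.pos k
    nlinarith
  unfold lagG
  linarith

theorem continuous_lagG {K : Set (EuclideanSpace ℝ (Fin d))} {R : ℝ} (hK : Body K R) {w : (EuclideanSpace ℝ (Fin d)) → ℝ} (hw : Weight K w)
    {V : ι → ℝ} (hV : Masses K V) (y : ι → (EuclideanSpace ℝ (Fin d))) : Continuous (lagG K w V y) := by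
  have hL : LipschitzWith (Real.toNNReal (2 * (volume K).toReal)) (lagG K w V y) := by
    apply LipschitzWith.of_le_add_mul
    intro c c'
    have h := lagG_sub_le hK hw hV y c c' (dist c c') (fun k => by
      have := norm_le_pi_norm (c - c') k
      rw [dist_eq_norm]
      simpa [Real.norm_eq_abs] using this)
    rw [Real.coe_toNNReal _ (by positivity)]
    linarith
  exact hL.continuous

theorem lagMax_add_const (y : ι → (EuclideanSpace ℝ (Fin d))) (c : ι → ℝ) (a : ℝ) (x : (EuclideanSpace ℝ (Fin d))) :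
    lagMax y (fun k => c k + a) x = lagMax y c x - a := by
  apply le_antisymm
  · apply lagMax_le
    intro k
    have := le_lagMax y c x k
    linarith
  · have : lagMax y c x ≤ lagMax y (fun k => c k + a) x + a := by
      apply lagMax_le
      intro k
      have := le_lagMax y (fun k => c k + a) x k
      linarith
    linarith

/-- `lagG` is invariant under adding a constant to the weights. -/
theorem lagG_add_const {K : Set (EuclideanSpace ℝ (Fin d))} {R : ℝ} (hK : Body K R) {w : (EuclideanSpace ℝ (Fin d)) → ℝ} (hw : Weight K w)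
    {V : ι → ℝ} (hV : Masses K V) (y : ι → (EuclideanSpace ℝ (Fin d))) (c : ι → ℝ) (a : ℝ) :
    lagG K w V y (fun k => c k + a) = lagG K w V y c := by
  have hwI := integrableOn_weight hK hw
  have h1 : (∫ x in K, lagMax y (fun k => c k + a) x * w x)
      = (∫ x in K, lagMax y c x * w x) - a * (volume K).toReal := by
    have : (fun x => lagMax y (fun k => c k + a) x * w x)
        = fun x => lagMax y c x * w x - a * w x := by
      funext x
      rw [lagMax_add_const]
      ring
    rw [this, integral_sub (integrableOn_lagMax_mul hK hw y c) (hwI.const_mul a),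
      integral_const_mul, hw.total]
  have h2 : ∑ k, V k * (c k + a) = ∑ k, V k * c k + (volume K).toReal * a := by
    rw [← hV.total, Finset.sum_mul, ← Finset.sum_add_distrib]
    refine Finset.sum_congr rfl (fun k _ => ?_)
    ring
  unfold lagG
  rw [h1, h2]
  ring

/-- Coercivity modulo constants. -/
theorem lagG_coercive {K : Set (EuclideanSpace ℝ (Fin d))} {R : ℝ} (hK : Body K R) {w : (EuclideanSpace ℝ (Fin d)) → ℝ} (hw : Weight K w)
    {V : ι → ℝ} (hV : Masses K V) (y : ι → (EuclideanSpace ℝ (Fin d))) (RY : ℝ) (hRY : ∀ k, ‖y k‖ ≤ RY) (c : ι → ℝ)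
    (j k : ι) (hj : ∀ i, c j ≤ c i) :
    V k * (c k - c j) - R * RY * (volume K).toReal ≤ lagG K w V y c := by
  have hwI := integrableOn_weight hK hw
  have h1 : (∫ x in K, (-(R * RY) - c j) * w x) ≤ ∫ x in K, lagMax y c x * w x := by
    refine setIntegral_mono_on (hwI.const_mul _) (integrableOn_lagMax_mul hK hw y c)
      hK.compact.measurableSet ?_
    intro x hx
    have h3 := le_lagMax y c x j
    have h4 : 0 ≤ w x := by linarith [hw.lo x]
    have h5 : |inner ℝ x (y j)| ≤ ‖x‖ * ‖y j‖ := abs_real_inner_le_norm x (y j)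
    have h6 : ‖x‖ * ‖y j‖ ≤ R * RY :=
      mul_le_mul (hK.bound x hx) (hRY j) (norm_nonneg _) hK.pos.le
    have h7 := (abs_le.mp h5).1
    have h8 : -(R * RY) - c j ≤ lagMax y c x := by linarith
    exact mul_le_mul_of_nonneg_right h8 h4
  rw [integral_const_mul, hw.total] at h1
  have h2 : V k * (c k - c j) + c j * (volume K).toReal ≤ ∑ i, V i * c i := by
    have h3 : ∑ i, V i * c i = ∑ i, V i * (c i - c j) + c j * (volume K).toReal := by
      rw [← hV.total, Finset.mul_sum, ← Finset.sum_add_distrib]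
      refine Finset.sum_congr rfl (fun i _ => ?_)
      ring
    rw [h3]
    have h4 : V k * (c k - c j) ≤ ∑ i, V i * (c i - c j) :=
      Finset.single_le_sum (f := fun i => V i * (c i - c j))
        (fun i _ => mul_nonneg (hV.pos i).le (by linarith [hj i])) (Finset.mem_univ k)
    linarith
  unfold lagG
  nlinarith

end Vale.Agent.P074.Third
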