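import Vale.Agent.P074.Third.LagG

open MeasureTheory Set Metric
open scoped ENNReal NNReal

namespace Vale.Agent.P074.Third

variable {d : ℕ}


variable {ι : Type*} [Fintype ι] [Nonempty ι]

/-- The Kantorovich functional has a minimiser. -/
theorem exists_lagG_min {K : Set (EuclideanSpace ℝ (Fin d))} {R : ℝ} (hK : Body K R) {w : (EuclideanSpace ℝ (Fin d)) → ℝ} (hw : Weight K w)
    {V : ι → ℝ} (hV : Masses K V) (y : ι → (EuclideanSpace ℝ (Fin d))) :
    ∃ c : ι → ℝ, ∀ c' : ι → ℝ, lagG K w V y c ≤ lagG K w V y c' := by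
  classical
  -- bound on the sites
  set RY : ℝ := ∑ k, ‖y k‖ with hRYdef
  have hRY : ∀ k, ‖y k‖ ≤ RY := fun k =>
    Finset.single_le_sum (f := fun k => ‖y k‖) (fun i _ => norm_nonneg _) (Finset.mem_univ k)
  -- minimal mass
  obtain ⟨k0, hk0⟩ := Finite.exists_min V
  set Vmin : ℝ := V k0 with hVmin
  have hVpos : 0 < Vmin := hV.pos k0
  set G := lagG K w V y with hG
  set E : ℝ := R * RY * (volume K).toReal with hE
  set B : ℝ := |G 0 + E| / Vmin + 1 with hB
  have hB0 : 0 ≤ B := by positivity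
  set S : Set (ι → ℝ) := Set.pi Set.univ (fun _ => Set.Icc (0 : ℝ) B) with hS
  have hScomp : IsCompact S := isCompact_univ_pi (fun _ => isCompact_Icc)
  have h0S : (0 : ι → ℝ) ∈ S := by
    intro k _
    exact ⟨le_refl _, hB0⟩
  obtain ⟨cs, hcsS, hcs⟩ := hScomp.exists_isMinOn ⟨0, h0S⟩
    (continuous_lagG hK hw hV y).continuousOn
  refine ⟨cs, fun c' => ?_⟩
  obtain ⟨j, hj⟩ := Finite.exists_min c'
  set c'' : ι → ℝ := fun k => c' k + (-(c' j)) with hc''
  have hsame : G c'' = G c' := lagG_add_const hK hw hV y c' (-(c' j))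
  have hnn : ∀ k, 0 ≤ c'' k := fun k => by
    have := hj k
    simp only [hc'']; linarith
  have hjz : c'' j = 0 := by simp [hc'']
  rw [← hsame]
  by_cases hin : c'' ∈ S
  · exact hcs hin
  · have : ∃ k, B < c'' k := by
      by_contra hcon
      push Not at hcon
      exact hin (fun k _ => ⟨hnn k, hcon k⟩)
    obtain ⟨k, hk⟩ := this
    have hco := lagG_coercive hK hw hV y RY hRY c'' j k (fun i => by rw [hjz]; exact hnn i)
    rw [hjz, sub_zero] at hco
    have h1 : Vmin * B ≤ V k * c'' k := by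
      have := hk0 k
      have h2 : Vmin * B ≤ V k * B := by gcongr
      have h3 : V k * B ≤ V k * c'' k := by
        have := (hV.pos k).le
        gcongr
      linarith
    have h4 : Vmin * B = |G 0 + E| + Vmin := by
      rw [hB]; field_simp
    have h5 : G 0 + E ≤ |G 0 + E| := le_abs_self _
    have h6 : G cs ≤ G 0 := hcs h0S
    show G cs ≤ G c''
    have hco' : V k * c'' k - E ≤ G c'' := hco
    linarith

end Vale.Agent.P074.Third
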