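import Vale.Agent.P074.Third.L2Stab
import Vale.Agent.P074.Third.Convert3

open MeasureTheory Set Metric
open scoped ENNReal NNReal

namespace Vale.Agent.P074.Third

open Vale.Agent.P074 Vale.Agent.P074.Lower

variable {d : ℕ}


/-- **The exponent `1/3` is admissible.** -/
theorem admissible_third (hd : 0 < d) : Admissible d (1 / 3) := by
  intro K hKc hKconv hKint Y hY _
  obtain ⟨C, hC, h⟩ := l2_stability hd K hKc hKconv hKint Y hY
  obtain ⟨RY0, hRY0⟩ := hY.isBounded.exists_norm_le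
  have hRY : ∀ y ∈ Y, ‖y‖ ≤ |RY0| := fun x hx => (hRY0 x hx).trans (le_abs_self _)
  have hK0 : volume K ≠ 0 := volume_ne_zero_of_interior K hKint
  have hKfin : volume K ≠ ∞ := hKc.measure_lt_top.ne
  refine ⟨(C * (Real.sqrt (volume K).toReal)⁻¹).toNNReal + 1, ?_⟩
  intro μ ν hμp hνp hμ hν T S hT hS
  unfold L2dist W2
  refine le_mul_iInf_rpow_third _ _ (by positivity) _ ?_
  rintro ⟨π, h1, h2⟩
  obtain ⟨hπp, hπ⟩ := coupling_props Y hY.measurableSet _ hRY μ ν hμ hν π h1 h2
  have hTY : ∀ᵐ x ∂(volume.restrict K), ‖T x‖ ≤ |RY0| := by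
    rw [ae_restrict_iff' hKc.measurableSet]
    filter_upwards [measure_eq_zero_iff_ae_notMem.mp
      (volume_inter_preimage_compl K hKfin Y hY.measurableSet μ hμ T hT)] with x hx hxK
    refine hRY _ ?_
    by_contra hc
    exact hx ⟨hc, hxK⟩
  have hSY : ∀ᵐ x ∂(volume.restrict K), ‖S x‖ ≤ |RY0| := by
    rw [ae_restrict_iff' hKc.measurableSet]
    filter_upwards [measure_eq_zero_iff_ae_notMem.mp
      (volume_inter_preimage_compl K hKfin Y hY.measurableSet ν hν S hS)] with x hx hxK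
    refine hRY _ ?_
    by_contra hc
    exact hx ⟨hc, hxK⟩
  have key := ennreal_of_real K hKc.measurableSet hK0 hKfin |RY0| C (abs_nonneg _) hC T S hT.1 hS.1
    hTY hSY π hπ (h μ ν hμ hν T S hT hS π h1 h2)
  refine key.trans ?_
  refine mul_le_mul_left ?_ _
  exact_mod_cast le_self_add

end Vale.Agent.P074.Third
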