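import Vale.Agent.P074.Third.LagMin

open MeasureTheory Set Metric
open scoped ENNReal NNReal

namespace Vale.Agent.P074.Third

variable {d : ℕ}


variable {ι : Type*} [Fintype ι] [Nonempty ι]

/-- The part of the `k`-th cell where the `k`-th affine function wins by at least `ε`. -/
def cellGap (K : Set (EuclideanSpace ℝ (Fin d))) (y : ι → (EuclideanSpace ℝ (Fin d))) (c : ι → ℝ) (k : ι) (ε : ℝ) : Set (EuclideanSpace ℝ (Fin d)) :=
  {x | x ∈ K ∧ ∀ j, j ≠ k → inner ℝ x (y j) - c j ≤ inner ℝ x (y k) - c k - ε}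

omit [Nonempty ι] in
theorem measurableSet_cellGap (K : Set (EuclideanSpace ℝ (Fin d))) (hK : MeasurableSet K) (y : ι → (EuclideanSpace ℝ (Fin d))) (c : ι → ℝ) (k : ι)
    (ε : ℝ) : MeasurableSet (cellGap K y c k ε) := by
  have h : cellGap K y c k ε
      = K ∩ ⋂ j, {x | j ≠ k → inner ℝ x (y j) - c j ≤ inner ℝ x (y k) - c k - ε} := by
    ext x
    simp [cellGap]
  rw [h]
  refine hK.inter (MeasurableSet.iInter fun j => ?_)
  by_cases hj : j = k
  · simp [hj]
  · simp only [ne_eq, hj, not_false_eq_true, forall_const]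
    exact measurableSet_le
      (by fun_prop : Continuous fun x : (EuclideanSpace ℝ (Fin d)) => inner ℝ x (y j) - c j).measurable
      (by fun_prop : Continuous fun x : (EuclideanSpace ℝ (Fin d)) => inner ℝ x (y k) - c k - ε).measurable

omit [Fintype ι] [Nonempty ι] in
theorem cellGap_subset (K : Set (EuclideanSpace ℝ (Fin d))) (y : ι → (EuclideanSpace ℝ (Fin d))) (c : ι → ℝ) (k : ι) (ε : ℝ) :
    cellGap K y c k ε ⊆ K := fun _ hx => hx.1

omit [Fintype ι] [Nonempty ι] in
theorem cellGap_anti (K : Set (EuclideanSpace ℝ (Fin d))) (y : ι → (EuclideanSpace ℝ (Fin d))) (c : ι → ℝ) (k : ι) {ε ε' : ℝ} (h : ε ≤ ε') :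
    cellGap K y c k ε' ⊆ cellGap K y c k ε := fun _ hx =>
  ⟨hx.1, fun j hj => (hx.2 j hj).trans (by linarith)⟩

omit [Fintype ι] [Nonempty ι] in
theorem cellGap_subset_cell (K : Set (EuclideanSpace ℝ (Fin d))) (y : ι → (EuclideanSpace ℝ (Fin d))) (c : ι → ℝ) (k : ι) {ε : ℝ} (h : 0 ≤ ε) :
    cellGap K y c k ε ⊆ cell K y c k := by
  intro x hx
  refine ⟨hx.1, fun j => ?_⟩
  by_cases hj : j = k
  · rw [hj]
  · exact (hx.2 j hj).trans (by linarith)

/-- Pointwise decrease of `lagMax` when the `k`-th weight is raised by `ε`. -/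
theorem lagMax_update_le [DecidableEq ι] (K : Set (EuclideanSpace ℝ (Fin d))) (y : ι → (EuclideanSpace ℝ (Fin d))) (c : ι → ℝ) (k : ι) {ε : ℝ}
    (hε : 0 ≤ ε) (x : (EuclideanSpace ℝ (Fin d))) :
    lagMax y (Function.update c k (c k + ε)) x
      ≤ lagMax y c x - ε * (cellGap K y c k ε).indicator (fun _ => (1 : ℝ)) x := by
  apply lagMax_le
  intro j
  have hk := le_lagMax y c x k
  have hj' := le_lagMax y c x j
  by_cases hx : x ∈ cellGap K y c k ε
  · rw [indicator_of_mem hx]
    by_cases hj : j = k
    · subst hj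
      rw [Function.update_self]
      linarith
    · rw [Function.update_of_ne hj]
      have := hx.2 j hj
      linarith
  · rw [indicator_of_notMem hx]
    by_cases hj : j = k
    · subst hj
      rw [Function.update_self]
      linarith
    · rw [Function.update_of_ne hj]
      linarith

/-- The mass of the `ε`-interior of the cell is at most `V k`. -/
theorem mass_cellGap_le {K : Set (EuclideanSpace ℝ (Fin d))} {R : ℝ} (hK : Body K R) {w : (EuclideanSpace ℝ (Fin d)) → ℝ} (hw : Weight K w)
    {V : ι → ℝ} (y : ι → (EuclideanSpace ℝ (Fin d))) (c : ι → ℝ)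
    (hc : ∀ c' : ι → ℝ, lagG K w V y c ≤ lagG K w V y c') (k : ι) {ε : ℝ} (hε : 0 < ε) :
    ∫ x in cellGap K y c k ε, w x ≤ V k := by
  classical
  have hKm : MeasurableSet K := hK.compact.measurableSet
  have hUm := measurableSet_cellGap K hKm y c k ε
  have hwi := integrableOn_weight hK hw
  have h1 := hc (Function.update c k (c k + ε))
  unfold lagG at h1
  have hsum : ∑ j, V j * Function.update c k (c k + ε) j = ∑ j, V j * c j + V k * ε := by
    have : ∀ j, V j * Function.update c k (c k + ε) j
        = V j * c j + (if j = k then V k * ε else 0) := by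
      intro j
      by_cases hj : j = k
      · subst hj
        rw [Function.update_self, if_pos rfl]
        ring
      · rw [Function.update_of_ne hj, if_neg hj, add_zero]
    rw [Finset.sum_congr rfl fun j _ => this j, Finset.sum_add_distrib, Finset.sum_ite_eq']
    simp
  have hind : IntegrableOn (fun x => ε * (cellGap K y c k ε).indicator w x) K :=
    (hwi.indicator hUm).const_mul ε
  have hint : ∫ x in K, lagMax y (Function.update c k (c k + ε)) x * w x
      ≤ (∫ x in K, lagMax y c x * w x) - ε * ∫ x in cellGap K y c k ε, w x := by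
    have e1 : (∫ x in K, lagMax y c x * w x) - ε * ∫ x in cellGap K y c k ε, w x
        = ∫ x in K, (lagMax y c x * w x - ε * (cellGap K y c k ε).indicator w x) := by
      rw [integral_sub (integrableOn_lagMax_mul hK hw y c) hind, integral_const_mul,
        setIntegral_indicator hUm, inter_eq_self_of_subset_right (cellGap_subset K y c k ε)]
    rw [e1]
    refine integral_mono (integrableOn_lagMax_mul hK hw y _)
      ((integrableOn_lagMax_mul hK hw y c).sub hind) fun x => ?_
    have hx := lagMax_update_le K y c k hε.le x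
    have hw0 : 0 ≤ w x := by
      have := hw.lo x
      linarith
    have := mul_le_mul_of_nonneg_right hx hw0
    refine this.trans (le_of_eq ?_)
    by_cases hxU : x ∈ cellGap K y c k ε
    · rw [indicator_of_mem hxU, indicator_of_mem hxU]
      ring
    · rw [indicator_of_notMem hxU, indicator_of_notMem hxU]
      ring
  rw [hsum] at h1
  have h2 : ε * ∫ x in cellGap K y c k ε, w x ≤ ε * V k := by linarith
  exact le_of_mul_le_mul_left h2 hε

omit [Nonempty ι] in
/-- A finite family of positive gaps is bounded below by some `1 / (n + 1)`. -/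
theorem exists_nat_gap (g : ι → ℝ) (k : ι) (hg : ∀ j, j ≠ k → 0 < g j) :
    ∃ n : ℕ, ∀ j, j ≠ k → 1 / ((n : ℝ) + 1) ≤ g j := by
  have h : ∀ j, ∃ n : ℕ, j ≠ k → 1 / ((n : ℝ) + 1) < g j := by
    intro j
    by_cases hj : j = k
    · exact ⟨0, fun h => absurd hj h⟩
    · obtain ⟨n, hn⟩ := exists_nat_one_div_lt (hg j hj)
      exact ⟨n, fun _ => hn⟩
  choose n hn using h
  refine ⟨Finset.univ.sup n, fun j hj => ?_⟩
  have h1 : n j ≤ Finset.univ.sup n := Finset.le_sup (Finset.mem_univ j)
  have h2 : ((n j : ℝ) + 1) ≤ ((Finset.univ.sup n : ℕ) : ℝ) + 1 := by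
    have : (n j : ℝ) ≤ ((Finset.univ.sup n : ℕ) : ℝ) := by exact_mod_cast h1
    linarith
  have h3 : 1 / (((Finset.univ.sup n : ℕ) : ℝ) + 1) ≤ 1 / ((n j : ℝ) + 1) :=
    one_div_le_one_div_of_le (by positivity) h2
  exact h3.trans (hn j hj).le

omit [Nonempty ι] in
/-- The cell is, up to a null set, the increasing union of its `1/(n+1)`-interiors. -/
theorem cell_ae_eq_iUnion_cellGap (K : Set (EuclideanSpace ℝ (Fin d))) (y : ι → (EuclideanSpace ℝ (Fin d))) (hy : Function.Injective y)
    (c : ι → ℝ) (k : ι) :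
    (cell K y c k : Set (EuclideanSpace ℝ (Fin d))) =ᵐ[volume] ⋃ n : ℕ, cellGap K y c k (1 / ((n : ℝ) + 1)) := by
  rw [ae_eq_set]
  constructor
  · have hsub : cell K y c k \ ⋃ n : ℕ, cellGap K y c k (1 / ((n : ℝ) + 1))
        ⊆ ⋃ j : {j : ι // j ≠ k}, cell K y c k ∩ cell K y c j := by
      intro x hx
      obtain ⟨hxc, hxn⟩ := hx
      by_contra hcon
      apply hxn
      have hg : ∀ j, j ≠ k →
          0 < (inner ℝ x (y k) - c k) - (inner ℝ x (y j) - c j) := by
        intro j hj
        by_contra hle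
        apply hcon
        rw [mem_iUnion]
        refine ⟨⟨j, hj⟩, hxc, hxc.1, fun i => ?_⟩
        have h1 := hxc.2 i
        rw [not_lt] at hle
        show inner ℝ x (y i) - c i ≤ inner ℝ x (y j) - c j
        linarith
      obtain ⟨n, hn⟩ := exists_nat_gap _ k hg
      rw [mem_iUnion]
      refine ⟨n, hxc.1, fun j hj => ?_⟩
      have := hn j hj
      linarith
    refine measure_mono_null hsub ?_
    rw [measure_iUnion_null_iff]
    rintro ⟨j, hj⟩
    exact volume_cell_inter K y c k j fun h => hj (hy h).symm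
  · have : (⋃ n : ℕ, cellGap K y c k (1 / ((n : ℝ) + 1))) \ cell K y c k = ∅ := by
      rw [sdiff_eq_empty]
      exact iUnion_subset fun n => cellGap_subset_cell K y c k (by positivity)
    rw [this, measure_empty]

/-- First order condition at a minimiser: the cell is not too heavy. -/
theorem mass_le_of_min {K : Set (EuclideanSpace ℝ (Fin d))} {R : ℝ} (hK : Body K R) {w : (EuclideanSpace ℝ (Fin d)) → ℝ} (hw : Weight K w)
    {V : ι → ℝ} (hV : Masses K V) (y : ι → (EuclideanSpace ℝ (Fin d))) (hy : Function.Injective y) (c : ι → ℝ)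
    (hc : ∀ c' : ι → ℝ, lagG K w V y c ≤ lagG K w V y c') (k : ι) :
    ∫ x in cell K y c k, w x ≤ V k := by
  have hKm : MeasurableSet K := hK.compact.measurableSet
  have hwi := integrableOn_weight hK hw
  rw [setIntegral_congr_set (cell_ae_eq_iUnion_cellGap K y hy c k)]
  have hmono : Monotone fun n : ℕ => cellGap K y c k (1 / ((n : ℝ) + 1)) := by
    intro n m hnm
    apply cellGap_anti
    apply one_div_le_one_div_of_le (by positivity)
    have : (n : ℝ) ≤ m := by exact_mod_cast hnm
    linarith
  have hlim := tendsto_setIntegral_of_monotone (μ := volume) (f := w)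
    (fun n : ℕ => measurableSet_cellGap K hKm y c k (1 / ((n : ℝ) + 1))) hmono
    (hwi.mono_set (iUnion_subset fun n => cellGap_subset K y c k _))
  exact le_of_tendsto' hlim fun n => mass_cellGap_le hK hw y c hc k (by positivity)

end Vale.Agent.P074.Third
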