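import Vale.Agent.P074.Third.MomentStab


open MeasureTheory Set Metric
open scoped ENNReal NNReal

namespace Vale.Agent.P074.Third

variable {d : ℕ}

variable {ι : Type*} [Fintype ι] [Nonempty ι]

theorem weight_one {K : Set (EuclideanSpace ℝ (Fin d))} {R : ℝ} (hK : Body K R) :
    Weight K (fun _ => (1 : ℝ)) := by
  refine ⟨measurable_const, fun _ => by norm_num, fun _ => by norm_num, ?_⟩
  simp [Measure.real]

/-- The set of collision times of the linear interpolation between labelled sites with pairwise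
distinct pairs `(z k, y k)` is finite. -/
theorem finite_collision (y z : ι → (EuclideanSpace ℝ (Fin d)))
    (hyz : Function.Injective fun k => (y k, z k)) :
    {s : ℝ | ¬ Function.Injective fun k => (1 - s) • z k + s • y k}.Finite := by
  classical
  have hsub : {s : ℝ | ¬ Function.Injective fun k => (1 - s) • z k + s • y k} ⊆
      ⋃ p : {p : ι × ι // p.1 ≠ p.2},
        {s : ℝ | (1 - s) • z p.1.1 + s • y p.1.1 = (1 - s) • z p.1.2 + s • y p.1.2} := by
    intro s hs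
    have hs' : ¬ Function.Injective fun k => (1 - s) • z k + s • y k := hs
    unfold Function.Injective at hs'
    push Not at hs'
    obtain ⟨k, j, h1, h2⟩ := hs'
    exact Set.mem_iUnion.mpr ⟨⟨(k, j), h2⟩, h1⟩
  refine Set.Finite.subset (Set.finite_iUnion fun p => ?_) hsub
  apply Set.Subsingleton.finite
  intro s hs t ht
  by_contra hst
  obtain ⟨⟨k, j⟩, hkj⟩ := p
  have hs' : (1 - s) • z k + s • y k = (1 - s) • z j + s • y j := hs
  have ht' : (1 - t) • z k + t • y k = (1 - t) • z j + t • y j := ht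
  set a := z k - z j with ha
  set b := y k - y j with hb
  have e1 : (1 - s) • a + s • b = 0 := by
    rw [ha, hb, smul_sub, smul_sub]
    have := sub_eq_zero.mpr hs'
    rw [← this]
    abel
  have e2 : (1 - t) • a + t • b = 0 := by
    rw [ha, hb, smul_sub, smul_sub]
    have := sub_eq_zero.mpr ht'
    rw [← this]
    abel
  have e3 : (t - s) • (a - b) = 0 := by
    have : (t - s) • (a - b) = ((1 - s) • a + s • b) - ((1 - t) • a + t • b) := by
      simp only [smul_sub, sub_smul, one_smul]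
      abel
    rw [this, e1, e2, sub_zero]
  have hts : t - s ≠ 0 := sub_ne_zero.mpr (Ne.symm hst)
  have e4 : a - b = 0 := (smul_eq_zero.mp e3).resolve_left hts
  have e5 : a = b := sub_eq_zero.mp e4
  have e6 : a = 0 := by
    have : (1 - s) • a + s • a = a := by
      rw [← add_smul]; simp
    rw [← this]
    rw [← e5] at e1
    exact e1
  have e7 : b = 0 := e5 ▸ e6
  have hz : z k = z j := sub_eq_zero.mp e6
  have hy : y k = y j := sub_eq_zero.mp e7
  exact hkj (hyz (by simp [hz, hy]))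

/-- Difference of the directional derivatives, by moment stability and Cauchy–Schwarz. -/
theorem deriv_diff_le {K : Set (EuclideanSpace ℝ (Fin d))} {R : ℝ} (hK : Body K R)
    {w : (EuclideanSpace ℝ (Fin d)) → ℝ} (hw : Weight K w)
    {V : ι → ℝ} (hV : Masses K V) (u : ι → (EuclideanSpace ℝ (Fin d)))
    (hu : Function.Injective u) (c0 c1 : ι → ℝ)
    (h0 : ∀ k, ∫ _x in cell K u c0 k, (1 : ℝ) = V k)
    (h1 : ∀ k, ∫ x in cell K u c1 k, w x = V k) (ζ : ι → (EuclideanSpace ℝ (Fin d))) :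
    (∑ k, inner ℝ (∫ x in cell K u c1 k, w x • x) (ζ k))
      - ∑ k, inner ℝ (∫ x in cell K u c0 k, (1 : ℝ) • x) (ζ k)
      ≤ 1000 * R * Real.sqrt (∫ x in K, (w x - 1) ^ 2) * Real.sqrt (∑ k, V k * ‖ζ k‖ ^ 2) := by
  have hms := moment_stability hK hw hV u hu c0 c1 h0 h1
  set D : ι → (EuclideanSpace ℝ (Fin d)) :=
    fun k => (∫ x in cell K u c1 k, w x • x) - ∫ x in cell K u c0 k, (1 : ℝ) • x with hD
  have hR : 0 < R := hK.pos
  have s1 : (∑ k, inner ℝ (∫ x in cell K u c1 k, w x • x) (ζ k))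
      - ∑ k, inner ℝ (∫ x in cell K u c0 k, (1 : ℝ) • x) (ζ k) = ∑ k, inner ℝ (D k) (ζ k) := by
    rw [← Finset.sum_sub_distrib]
    apply Finset.sum_congr rfl
    intro k _
    rw [hD, inner_sub_left]
  rw [s1]
  have s2 : ∑ k, inner ℝ (D k) (ζ k) ≤
      ∑ k, (‖D k‖ / Real.sqrt (V k)) * (Real.sqrt (V k) * ‖ζ k‖) := by
    apply Finset.sum_le_sum
    intro k _
    have hv : 0 < Real.sqrt (V k) := Real.sqrt_pos.mpr (hV.pos k)
    have : (‖D k‖ / Real.sqrt (V k)) * (Real.sqrt (V k) * ‖ζ k‖) = ‖D k‖ * ‖ζ k‖ := by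
      field_simp
    rw [this]
    exact real_inner_le_norm _ _
  have s3 := Real.sum_mul_le_sqrt_mul_sqrt Finset.univ
    (fun k => ‖D k‖ / Real.sqrt (V k)) (fun k => Real.sqrt (V k) * ‖ζ k‖)
  have s4 : ∑ k, (‖D k‖ / Real.sqrt (V k)) ^ 2 = ∑ k, ‖D k‖ ^ 2 / V k := by
    apply Finset.sum_congr rfl
    intro k _
    rw [div_pow, Real.sq_sqrt (hV.pos k).le]
  have s5 : ∑ k, (Real.sqrt (V k) * ‖ζ k‖) ^ 2 = ∑ k, V k * ‖ζ k‖ ^ 2 := by
    apply Finset.sum_congr rfl
    intro k _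
    rw [mul_pow, Real.sq_sqrt (hV.pos k).le]
  rw [s4, s5] at s3
  have s6 : Real.sqrt (∑ k, ‖D k‖ ^ 2 / V k) ≤
      1000 * R * Real.sqrt (∫ x in K, (w x - 1) ^ 2) := by
    have : Real.sqrt (10 ^ 6 * R ^ 2 * ∫ x in K, (w x - 1) ^ 2) =
        1000 * R * Real.sqrt (∫ x in K, (w x - 1) ^ 2) := by
      have h2 : (10 : ℝ) ^ 6 * R ^ 2 = (1000 * R) ^ 2 := by ring
      rw [h2, Real.sqrt_mul (by positivity), Real.sqrt_sq (by positivity)]
    rw [← this]
    exact Real.sqrt_le_sqrt hms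
  calc ∑ k, inner ℝ (D k) (ζ k)
      ≤ ∑ k, (‖D k‖ / Real.sqrt (V k)) * (Real.sqrt (V k) * ‖ζ k‖) := s2
    _ ≤ Real.sqrt (∑ k, ‖D k‖ ^ 2 / V k) * Real.sqrt (∑ k, V k * ‖ζ k‖ ^ 2) := s3
    _ ≤ 1000 * R * Real.sqrt (∫ x in K, (w x - 1) ^ 2) * Real.sqrt (∑ k, V k * ‖ζ k‖ ^ 2) :=
        mul_le_mul_of_nonneg_right s6 (Real.sqrt_nonneg _)

end Vale.Agent.P074.Third
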