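import Vale.Agent.P074.Third.PLCells
import Vale.Agent.P074.Third.CellSum
import Vale.Agent.P074.Third.Alg
import Vale.Agent.P074.Third.AlgMoment

open MeasureTheory Set Metric
open scoped ENNReal NNReal

namespace Vale.Agent.P074.Third

variable {d : ℕ}

variable {ι : Type*} [Fintype ι] [Nonempty ι]

theorem integrableOn_sq_sub_one {K : Set (EuclideanSpace ℝ (Fin d))} {R : ℝ} (hK : Body K R)
    {w : EuclideanSpace ℝ (Fin d) → ℝ} (hw : Weight K w) :
    IntegrableOn (fun x => (w x - 1) ^ 2) K := by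
  have hm : Measurable (fun x => (w x - 1) ^ 2) := (hw.meas.sub_const 1).pow_const 2
  refine Measure.integrableOn_of_bounded (M := 1) hK.compact.measure_lt_top.ne
    hm.aestronglyMeasurable ?_
  refine Filter.Eventually.of_forall fun x => ?_
  have h1 := hw.lo x
  have h2 := hw.hi x
  rw [Real.norm_eq_abs, abs_of_nonneg (sq_nonneg _)]
  nlinarith

/-- **Moment stability** of Laguerre cells under a perturbation of the source density. -/
theorem moment_stability {K : Set (EuclideanSpace ℝ (Fin d))} {R : ℝ} (hK : Body K R)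
    {w : EuclideanSpace ℝ (Fin d) → ℝ} (hw : Weight K w)
    {V : ι → ℝ} (hV : Masses K V) (y : ι → EuclideanSpace ℝ (Fin d))
    (hy : Function.Injective y) (c0 c1 : ι → ℝ)
    (h0 : ∀ k, ∫ _x in cell K y c0 k, (1 : ℝ) = V k)
    (h1 : ∀ k, ∫ x in cell K y c1 k, w x = V k) :
    ∑ k, ‖(∫ x in cell K y c1 k, w x • x) - ∫ x in cell K y c0 k, (1 : ℝ) • x‖ ^ 2 / V k
      ≤ 10 ^ 6 * R ^ 2 * ∫ x in K, (w x - 1) ^ 2 := by
  have hR := hK.pos
  have hcl : IsClosed K := hK.compact.isClosed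
  have hm0 : ∀ k, MeasurableSet (cell K y c0 k) := fun k => measurableSet_cell K hcl y c0 k
  have hm1 : ∀ k, MeasurableSet (cell K y c1 k) := fun k => measurableSet_cell K hcl y c1 k
  have hs0 : ∀ k, cell K y c0 k ⊆ K := fun k => cell_subset K y c0 k
  have hs1 : ∀ k, cell K y c1 k ⊆ K := fun k => cell_subset K y c1 k
  obtain ⟨p, hpdef⟩ : ∃ p : ι → ℝ, ∀ k, p k = ∫ x in cell K y c0 k, gw (1 / (128 * R ^ 2)) x :=
    ⟨_, fun _ => rfl⟩
  obtain ⟨q, hqdef⟩ : ∃ q : ι → ℝ, ∀ k, q k = ∫ x in cell K y c1 k, gw (1 / (128 * R ^ 2)) x :=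
    ⟨_, fun _ => rfl⟩
  obtain ⟨h, hhdef⟩ : ∃ h : ι → ℝ, ∀ k, h k =
      ∫ x in cell K y (fun j => (c0 j + c1 j) / 2) k, gw (1 / (128 * R ^ 2)) x :=
    ⟨_, fun _ => rfl⟩
  obtain ⟨W, hWdef⟩ : ∃ W : ι → ℝ, ∀ k, W k = (volume (cell K y c1 k)).toReal :=
    ⟨_, fun _ => rfl⟩
  obtain ⟨Γ, hΓdef⟩ : ∃ Γ : ι → ℝ, ∀ k, Γ k = ∫ x in cell K y c1 k, (w x - 1) :=
    ⟨_, fun _ => rfl⟩
  obtain ⟨n2, hn2def⟩ : ∃ n2 : ι → ℝ, ∀ k, n2 k = ∫ x in cell K y c1 k, (w x - 1) ^ 2 :=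
    ⟨_, fun _ => rfl⟩
  obtain ⟨X0, hX0def⟩ : ∃ X0 : ι → EuclideanSpace ℝ (Fin d),
      ∀ k, X0 k = ∫ x in cell K y c0 k, x := ⟨_, fun _ => rfl⟩
  obtain ⟨X1, hX1def⟩ : ∃ X1 : ι → EuclideanSpace ℝ (Fin d),
      ∀ k, X1 k = ∫ x in cell K y c1 k, x := ⟨_, fun _ => rfl⟩
  obtain ⟨Xg, hXgdef⟩ : ∃ Xg : ι → EuclideanSpace ℝ (Fin d),
      ∀ k, Xg k = ∫ x in cell K y c1 k, (w x - 1) • x := ⟨_, fun _ => rfl⟩
  -- the volume of the cells for `c0`
  have hvol0 : ∀ k, (volume (cell K y c0 k)).toReal = V k := by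
    intro k
    rw [← h0 k]
    simp [Measure.real]
  have hVpos := hV.pos
  have hpV : ∀ k, p k ≤ V k := by
    intro k
    rw [hpdef, ← hvol0 k]
    exact setIntegral_gw_le hK _ (hm0 k) (hs0 k)
  have hVp : ∀ k, V k ≤ 2 * p k := by
    intro k
    rw [hpdef, ← hvol0 k]
    exact le_setIntegral_gw hK _ (hm0 k) (hs0 k)
  have hqW : ∀ k, q k ≤ W k := by
    intro k
    rw [hqdef, hWdef]
    exact setIntegral_gw_le hK _ (hm1 k) (hs1 k)
  have hWq : ∀ k, W k ≤ 2 * q k := by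
    intro k
    rw [hqdef, hWdef]
    exact le_setIntegral_gw hK _ (hm1 k) (hs1 k)
  have hVW : ∀ k, V k = W k + Γ k := by
    intro k
    rw [← h1 k, hWdef, hΓdef]
    exact mass_eq_volume_add hK hw _ (hm1 k) (hs1 k)
  have hW2 : ∀ k, W k ≤ 2 * V k := by
    intro k
    rw [← h1 k, hWdef]
    exact volume_le_two_mass hK hw _ (hm1 k) (hs1 k)
  have hΓ : ∀ k, Γ k ^ 2 ≤ W k * n2 k := by
    intro k
    rw [hΓdef, hWdef, hn2def]
    exact sq_setIntegral_le hK hw _ (hm1 k) (hs1 k)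
  have hn2 : ∀ k, 0 ≤ n2 k := by
    intro k
    rw [hn2def]
    exact integral_nonneg fun x => sq_nonneg _
  have hWpos : ∀ k, 0 < W k := by
    intro k
    have hW0 : 0 ≤ W k := by rw [hWdef]; exact ENNReal.toReal_nonneg
    rcases hW0.lt_or_eq with hlt | heq
    · exact hlt
    · exfalso
      have h2 := hΓ k
      rw [← heq, zero_mul] at h2
      have h3 : Γ k = 0 := by
        have := sq_nonneg (Γ k)
        exact pow_eq_zero_iff (two_ne_zero) |>.1 (le_antisymm h2 this)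
      have h4 := hVW k
      rw [← heq, h3] at h4
      have := hVpos k
      linarith
  have hp : ∀ k, 0 < p k := fun k => by
    have := hVp k
    have := hVpos k
    linarith
  have hq : ∀ k, 0 < q k := fun k => by
    have := hWq k
    have := hWpos k
    linarith
  have hX0 : ∀ k, ‖X0 k‖ ≤ R * V k := by
    intro k
    rw [hX0def, ← hvol0 k]
    exact norm_setIntegral_id_le hK _ (hm0 k) (hs0 k)
  have hXg : ∀ k, ‖Xg k‖ ^ 2 ≤ R ^ 2 * (W k * n2 k) := by
    intro k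
    rw [hXgdef, hWdef, hn2def]
    exact sq_norm_setIntegral_smul_le hK hw _ (hm1 k) (hs1 k)
  -- sums over the cells
  have hgint := integrableOn_gw hK (1 / (128 * R ^ 2))
  have hsp : ∑ k, p k = ∫ x in K, gw (1 / (128 * R ^ 2)) x := by
    simp_rw [hpdef]
    exact sum_setIntegral_cell K hcl y hy c0 _ hgint
  have hsq : ∑ k, q k = ∫ x in K, gw (1 / (128 * R ^ 2)) x := by
    simp_rw [hqdef]
    exact sum_setIntegral_cell K hcl y hy c1 _ hgint
  have hsh : ∑ k, h k = ∫ x in K, gw (1 / (128 * R ^ 2)) x := by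
    simp_rw [hhdef]
    exact sum_setIntegral_cell K hcl y hy _ _ hgint
  have hsn : ∑ k, n2 k = ∫ x in K, (w x - 1) ^ 2 := by
    simp_rw [hn2def]
    exact sum_setIntegral_cell K hcl y hy c1 _ (integrableOn_sq_sub_one hK hw)
  have hpos0 : ∀ k, 0 < (volume (cell K y c0 k)).toReal := fun k => by
    rw [hvol0 k]; exact hVpos k
  have hpos1 : ∀ k, 0 < (volume (cell K y c1 k)).toReal := fun k => by
    rw [← hWdef k]; exact hWpos k
  -- the two cellwise gains
  have hA := hellinger_alg p q h (fun k => W k / q k - V k / p k) 4 hp hq (hsp.trans hsq.symm)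
    (hsh.trans hsp.symm).le (by
      intro k
      have := pl_omega_cell hK y c0 c1 k (hpos0 k) (hpos1 k)
      rw [hvol0 k, ← hWdef k, ← hpdef k, ← hqdef k, ← hhdef k] at this
      exact this)
  have hB := hellinger_alg p q h (fun k => ‖(q k)⁻¹ • X1 k - (p k)⁻¹ • X0 k‖)
    (1 / (9216 * R ^ 2)) hp hq (hsp.trans hsq.symm) (hsh.trans hsp.symm).le (by
      intro k
      have := pl_moment_cell hK y c0 c1 k (hpos0 k) (hpos1 k)
      rw [← hpdef k, ← hqdef k, ← hhdef k, ← hX0def k, ← hX1def k] at this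
      exact this)
  have hH := hellinger_bound p q V W Γ n2 hp hq hpV hVp hqW hWq hVW hW2 hΓ (by
    linarith)
  have hPL : ∑ k, Real.sqrt (p k * q k) * ‖(q k)⁻¹ • X1 k - (p k)⁻¹ • X0 k‖ ^ 2
      ≤ 4608 * R ^ 2 * ∑ k, (Real.sqrt (p k) - Real.sqrt (q k)) ^ 2 := by
    beta_reduce at hB
    have hc : (0 : ℝ) < 9216 * R ^ 2 := by positivity
    have h2 := mul_le_mul_of_nonneg_left hB hc.le
    rw [← mul_assoc, mul_one_div_cancel hc.ne', one_mul] at h2
    linarith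
  have hfin := moment_alg R hR p q V W n2 X0 X1 Xg hp hq hpV hVp hqW hWq hW2 hn2 hX0 hXg hPL hH
  rw [hsn] at hfin
  refine le_trans (le_of_eq ?_) hfin
  refine Finset.sum_congr rfl fun k _ => ?_
  rw [setIntegral_smul_split hK hw _ (hm1 k) (hs1 k), ← hXgdef k, ← hX1def k]
  simp only [one_smul]
  rw [← hX0def k]

end Vale.Agent.P074.Third
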