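import Mathlib

/-!
# The Prekopa-Leindler inequality

`prekopa_leindler_pi` (functions on `Fin n → ℝ`) and `prekopa_leindler` (functions on
`EuclideanSpace ℝ (Fin n)`), for measurable `ℝ≥0∞`-valued functions.
-/

open MeasureTheory Set
open scoped ENNReal NNReal Pointwise

namespace Vale.Agent.P074.Third.PLGen

/-- volume of the image of a set under `x ↦ c * x + d`, `c ≥ 0` -/
theorem volume_image_affine (c d : ℝ) (hc : 0 ≤ c) (A : Set ℝ) :
    volume ((fun x => c * x + d) '' A) = ENNReal.ofReal c * volume A := by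
  have h1 : (fun x => c * x + d) '' A = (fun x => x + d) '' (c • A) := by
    rw [← Set.image_smul, Set.image_image]
    rfl
  rw [h1, Set.image_add_right, measure_preimage_add_right, Measure.addHaar_smul_of_nonneg _ hc]
  simp

/-- One-dimensional Brunn-Minkowski for compact sets. -/
theorem bm_compact {t : ℝ} (ht0 : 0 ≤ t) (ht1 : t ≤ 1) {A B C : Set ℝ} (hA : IsCompact A)
    (hB : IsCompact B) (hAne : A.Nonempty) (hBne : B.Nonempty)
    (hC : ∀ x ∈ A, ∀ y ∈ B, (1 - t) * x + t * y ∈ C) :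
    ENNReal.ofReal (1 - t) * volume A + ENNReal.ofReal t * volume B ≤ volume C := by
  have haA : sSup A ∈ A := hA.sSup_mem hAne
  have hbB : sInf B ∈ B := hB.sInf_mem hBne
  have hale : ∀ x ∈ A, x ≤ sSup A := fun x hx => le_csSup hA.bddAbove hx
  have hble : ∀ y ∈ B, sInf B ≤ y := fun y hy => csInf_le hB.bddBelow hy
  generalize sSup A = a at haA hale
  generalize sInf B = b at hbB hble
  have h1t : 0 ≤ 1 - t := by linarith
  have hS : volume ((fun x => (1 - t) * x + t * b) '' A) = ENNReal.ofReal (1 - t) * volume A :=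
    volume_image_affine _ _ h1t A
  have hT : volume ((fun y => t * y + (1 - t) * a) '' B) = ENNReal.ofReal t * volume B :=
    volume_image_affine _ _ ht0 B
  have hTm : MeasurableSet ((fun y => t * y + (1 - t) * a) '' B) :=
    (hB.image (by fun_prop)).measurableSet
  have hSc : (fun x => (1 - t) * x + t * b) '' A ⊆ Iic ((1 - t) * a + t * b) := by
    rintro _ ⟨x, hx, rfl⟩
    have := mul_le_mul_of_nonneg_left (hale x hx) h1t
    simp only [mem_Iic]
    linarith
  have hTc : (fun y => t * y + (1 - t) * a) '' B ⊆ Ici ((1 - t) * a + t * b) := by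
    rintro _ ⟨y, hy, rfl⟩
    have := mul_le_mul_of_nonneg_left (hble y hy) ht0
    simp only [mem_Ici]
    linarith
  have hSC : (fun x => (1 - t) * x + t * b) '' A ⊆ C := by
    rintro _ ⟨x, hx, rfl⟩
    exact hC x hx b hbB
  have hTC : (fun y => t * y + (1 - t) * a) '' B ⊆ C := by
    rintro _ ⟨y, hy, rfl⟩
    have := hC a haA y hy
    rwa [add_comm] at this
  generalize (fun x => (1 - t) * x + t * b) '' A = S at hS hSc hSC
  generalize (fun y => t * y + (1 - t) * a) '' B = T at hT hTm hTc hTC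
  generalize (1 - t) * a + t * b = c at hSc hTc
  have hT' : volume T ≤ volume (T ∩ Ioi c) := by
    calc volume T ≤ volume ((T ∩ Ioi c) ∪ {c}) := by
          apply measure_mono
          intro x hx
          have hcx : c ≤ x := hTc hx
          rcases hcx.eq_or_lt with h | h
          · right
            exact h.symm
          · left
            exact ⟨hx, h⟩
      _ ≤ volume (T ∩ Ioi c) + volume {c} := measure_union_le _ _
      _ = volume (T ∩ Ioi c) := by simp
  have hdisj : Disjoint S (T ∩ Ioi c) := by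
    rw [Set.disjoint_left]
    intro x hxS hxT
    have h1 : x ≤ c := hSc hxS
    have h2 : c < x := hxT.2
    exact absurd h1 (not_le.2 h2)
  calc _ = volume S + volume T := by rw [hS, hT]
    _ ≤ volume S + volume (T ∩ Ioi c) := by gcongr
    _ = volume (S ∪ (T ∩ Ioi c)) := (measure_union hdisj (hTm.inter measurableSet_Ioi)).symm
    _ ≤ volume C := measure_mono (union_subset hSC (inter_subset_left.trans hTC))

theorem volume_eq_iSup_compact {A : Set ℝ} (hA : MeasurableSet A) :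
    volume A = ⨆ K : {K : Set ℝ // K ⊆ A ∧ IsCompact K}, volume K.1 := by
  rw [hA.measure_eq_iSup_isCompact, iSup_subtype]
  simp only [iSup_and]

/-- One-dimensional Brunn-Minkowski for measurable sets. -/
theorem bm_measurable {t : ℝ} (ht0 : 0 ≤ t) (ht1 : t ≤ 1) {A B C : Set ℝ} (hA : MeasurableSet A)
    (hB : MeasurableSet B) (hAne : A.Nonempty) (hBne : B.Nonempty)
    (hC : ∀ x ∈ A, ∀ y ∈ B, (1 - t) * x + t * y ∈ C) :
    ENNReal.ofReal (1 - t) * volume A + ENNReal.ofReal t * volume B ≤ volume C := by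
  obtain ⟨a0, ha0⟩ := hAne
  obtain ⟨b0, hb0⟩ := hBne
  rw [volume_eq_iSup_compact hA, volume_eq_iSup_compact hB, ENNReal.mul_iSup, ENNReal.mul_iSup]
  have : Nonempty {K : Set ℝ // K ⊆ A ∧ IsCompact K} := ⟨⟨∅, empty_subset _, isCompact_empty⟩⟩
  have : Nonempty {K : Set ℝ // K ⊆ B ∧ IsCompact K} := ⟨⟨∅, empty_subset _, isCompact_empty⟩⟩
  refine ENNReal.iSup_add_iSup_le ?_
  rintro ⟨KA, hKA, hKAc⟩ ⟨KB, hKB, hKBc⟩
  have h := bm_compact ht0 ht1 (A := insert a0 KA) (B := insert b0 KB) (C := C)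
    (hKAc.insert a0) (hKBc.insert b0) (insert_nonempty _ _) (insert_nonempty _ _) (by
      intro x hx y hy
      exact hC x (insert_subset ha0 hKA hx) y (insert_subset hb0 hKB hy))
  refine le_trans ?_ h
  gcongr
  · exact subset_insert _ _
  · exact subset_insert _ _

/-- restricting the layer-cake integral to `(0,1)` for functions bounded by `1` -/
theorem layercake_unit (f : ℝ → ℝ) (hf : Measurable f) (hf0 : ∀ x, 0 ≤ f x) (hf1 : ∀ x, f x ≤ 1) :
    ∫⁻ x, ENNReal.ofReal (f x) = ∫⁻ s in Ioo (0 : ℝ) 1, volume {x | s < f x} := by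
  rw [lintegral_eq_lintegral_meas_lt volume (Filter.Eventually.of_forall hf0) hf.aemeasurable,
    ← lintegral_indicator measurableSet_Ioi, ← lintegral_indicator measurableSet_Ioo]
  apply lintegral_congr
  intro s
  by_cases hs : s ∈ Ioo (0 : ℝ) 1
  · rw [indicator_of_mem hs, indicator_of_mem (show s ∈ Ioi (0 : ℝ) from hs.1)]
  · rw [indicator_of_notMem hs]
    by_cases hs0 : s ∈ Ioi (0 : ℝ)
    · rw [indicator_of_mem hs0]
      have h1 : 1 ≤ s := by
        by_contra hcon
        exact hs ⟨hs0, not_le.1 hcon⟩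
      have : {x | s < f x} = ∅ := by
        ext x
        simp only [mem_ofPred_eq, mem_empty_iff_false, iff_false, not_lt]
        exact (hf1 x).trans h1
      rw [this, measure_empty]
    · rw [indicator_of_notMem hs0]

/-- The normalised one-dimensional case. -/
theorem pl_core {t : ℝ} (ht0 : 0 ≤ t) (ht1 : t ≤ 1) (f g h : ℝ → ℝ) (hf : Measurable f)
    (hg : Measurable g) (hh : Measurable h)
    (hf0 : ∀ x, 0 ≤ f x) (hg0 : ∀ x, 0 ≤ g x) (hh0 : ∀ x, 0 ≤ h x)
    (hf1 : ∀ x, f x ≤ 1) (hg1 : ∀ x, g x ≤ 1)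
    (hfs : ∀ s < 1, ∃ x, s < f x) (hgs : ∀ s < 1, ∃ x, s < g x)
    (H : ∀ x y s, s < f x → s < g y → s < h ((1 - t) * x + t * y)) :
    ENNReal.ofReal (1 - t) * (∫⁻ x, ENNReal.ofReal (f x))
      + ENNReal.ofReal t * (∫⁻ x, ENNReal.ofReal (g x)) ≤ ∫⁻ x, ENNReal.ofReal (h x) := by
  rw [layercake_unit f hf hf0 hf1, layercake_unit g hg hg0 hg1,
    lintegral_eq_lintegral_meas_lt volume (Filter.Eventually.of_forall hh0) hh.aemeasurable,
    ← lintegral_const_mul' _ _ ENNReal.ofReal_ne_top, ← lintegral_const_mul' _ _ ENNReal.ofReal_ne_top]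
  refine (le_lintegral_add _ _).trans ?_
  refine le_trans ?_ (lintegral_mono_set (show Ioo (0 : ℝ) 1 ⊆ Ioi 0 from Ioo_subset_Ioi_self))
  refine setLIntegral_mono' measurableSet_Ioo ?_
  intro s hs
  exact bm_measurable ht0 ht1 (measurableSet_lt measurable_const hf)
    (measurableSet_lt measurable_const hg) (hfs s hs.2) (hgs s hs.2)
    (fun x hx y hy => H x y s hx hy)

/-- weighted arithmetic-geometric mean inequality in `ℝ≥0∞` -/
theorem amgm {t : ℝ} (ht0 : 0 < t) (ht1 : t < 1) (p q : ℝ≥0∞) :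
    p ^ (1 - t) * q ^ t ≤ ENNReal.ofReal (1 - t) * p + ENNReal.ofReal t * q := by
  have h1t : 0 < 1 - t := by linarith
  by_cases hp : p = ∞
  · subst hp
    rw [ENNReal.mul_top (by simpa using h1t), top_add]
    exact le_top
  by_cases hq : q = ∞
  · subst hq
    rw [ENNReal.mul_top (by simpa using ht0), add_top]
    exact le_top
  lift p to ℝ≥0 using hp
  lift q to ℝ≥0 using hq
  have h := NNReal.geom_mean_le_arith_mean2_weighted (Real.toNNReal (1 - t)) (Real.toNNReal t) p q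
    (by
      rw [← Real.toNNReal_add h1t.le ht0.le]
      simp)
  rw [Real.coe_toNNReal _ h1t.le, Real.coe_toNNReal _ ht0.le] at h
  rw [← ENNReal.coe_rpow_of_nonneg _ h1t.le, ← ENNReal.coe_rpow_of_nonneg _ ht0.le,
    ENNReal.ofReal, ENNReal.ofReal]
  exact_mod_cast h

theorem div_rpow_mul_div_rpow {t : ℝ} (ht0 : 0 < t) (ht1 : t < 1) (X Y a b : ℝ≥0∞)
    (ha0 : a ≠ 0) (hat : a ≠ ∞) :
    (X / a) ^ (1 - t) * (Y / b) ^ t = X ^ (1 - t) * Y ^ t / (a ^ (1 - t) * b ^ t) := by
  have h1t : 0 < 1 - t := by linarith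
  have hA0 : a ^ (1 - t) ≠ 0 := by
    simp [ENNReal.rpow_eq_zero_iff, ha0, hat, h1t]
  have hAt : a ^ (1 - t) ≠ ∞ := ENNReal.rpow_ne_top_of_nonneg h1t.le hat
  rw [ENNReal.div_rpow_of_nonneg _ _ h1t.le, ENNReal.div_rpow_of_nonneg _ _ ht0.le,
    div_eq_mul_inv, div_eq_mul_inv, div_eq_mul_inv, ENNReal.mul_inv (Or.inl hA0) (Or.inl hAt)]
  ring

/-- One-dimensional Prekopa-Leindler when `f` and `g` have finite nonzero suprema. -/
theorem pl_one_bdd {t : ℝ} (ht0 : 0 < t) (ht1 : t < 1) (f g h : ℝ → ℝ≥0∞) (hf : Measurable f)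
    (hg : Measurable g) (hh : Measurable h)
    (H : ∀ x y, f x ^ (1 - t) * g y ^ t ≤ h ((1 - t) * x + t * y))
    (a b : ℝ≥0∞) (ha : a = ⨆ x, f x) (hb : b = ⨆ x, g x) (ha0 : a ≠ 0) (hat : a ≠ ∞)
    (hb0 : b ≠ 0) (hbt : b ≠ ∞) :
    (∫⁻ x, f x) ^ (1 - t) * (∫⁻ x, g x) ^ t ≤ ∫⁻ x, h x := by
  have h1t : 0 < 1 - t := by linarith
  have hc0 : a ^ (1 - t) * b ^ t ≠ 0 := by
    simp [ENNReal.rpow_eq_zero_iff, ha0, hat, hb0, hbt, h1t, ht0]
  have hct : a ^ (1 - t) * b ^ t ≠ ∞ :=
    ENNReal.mul_ne_top (ENNReal.rpow_ne_top_of_nonneg h1t.le hat)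
      (ENNReal.rpow_ne_top_of_nonneg ht0.le hbt)
  have hfa : ∀ x, f x / a ≤ 1 := fun x =>
    ENNReal.div_le_of_le_mul (by rw [one_mul, ha]; exact le_iSup f x)
  have hgb : ∀ x, g x / b ≤ 1 := fun x =>
    ENNReal.div_le_of_le_mul (by rw [one_mul, hb]; exact le_iSup g x)
  have hfat : ∀ x, f x / a ≠ ∞ := fun x => ne_top_of_le_ne_top ENNReal.one_ne_top (hfa x)
  have hgbt : ∀ x, g x / b ≠ ∞ := fun x => ne_top_of_le_ne_top ENNReal.one_ne_top (hgb x)
  have hmt : ∀ x, min (h x / (a ^ (1 - t) * b ^ t)) 1 ≠ ∞ := fun x =>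
    ne_top_of_le_ne_top ENNReal.one_ne_top (min_le_right _ _)
  have hsup : ∀ (F : ℝ → ℝ≥0∞) (A : ℝ≥0∞), A = ⨆ x, F x → A ≠ 0 → A ≠ ∞ →
      (∀ x, F x / A ≠ ∞) → ∀ s < (1 : ℝ), ∃ x, s < (F x / A).toReal := by
    intro F A hA hA0 hAt hFt s hs
    by_cases hs0 : s < 0
    · exact ⟨0, hs0.trans_le ENNReal.toReal_nonneg⟩
    · have hs0' : 0 ≤ s := not_lt.1 hs0
      have h1 : ENNReal.ofReal s * A < A := by
        have h2 : ENNReal.ofReal s < 1 := by
          rw [← ENNReal.ofReal_one]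
          exact (ENNReal.ofReal_lt_ofReal_iff one_pos).2 hs
        calc ENNReal.ofReal s * A < 1 * A := ENNReal.mul_lt_mul_left hA0 hAt h2
          _ = A := one_mul A
      conv_rhs at h1 => rw [hA]
      obtain ⟨x, hx⟩ := lt_iSup_iff.1 h1
      refine ⟨x, ?_⟩
      rw [← ENNReal.ofReal_lt_iff_lt_toReal hs0' (hFt x)]
      exact (ENNReal.lt_div_iff_mul_lt (Or.inl hA0) (Or.inl hAt)).2 hx
  have key := pl_core ht0.le ht1.le (fun x => (f x / a).toReal) (fun x => (g x / b).toReal)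
    (fun x => (min (h x / (a ^ (1 - t) * b ^ t)) 1).toReal)
    (hf.div_const a).ennreal_toReal (hg.div_const b).ennreal_toReal
    ((hh.div_const _).min measurable_const).ennreal_toReal
    (fun _ => ENNReal.toReal_nonneg) (fun _ => ENNReal.toReal_nonneg)
    (fun _ => ENNReal.toReal_nonneg)
    (fun x => by
      have := ENNReal.toReal_mono ENNReal.one_ne_top (hfa x)
      simpa using this)
    (fun x => by
      have := ENNReal.toReal_mono ENNReal.one_ne_top (hgb x)
      simpa using this)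
    (hsup f a ha ha0 hat hfat) (hsup g b hb hb0 hbt hgbt)
    (by
      intro x y s hsf hsg
      by_cases hs0 : s < 0
      · exact hs0.trans_le ENNReal.toReal_nonneg
      · have hs0' : 0 ≤ s := not_lt.1 hs0
        have hs1 : s < 1 := by
          have := ENNReal.toReal_mono ENNReal.one_ne_top (hfa x)
          rw [ENNReal.toReal_one] at this
          exact hsf.trans_le this
        rw [← ENNReal.ofReal_lt_iff_lt_toReal hs0' (hfat x)] at hsf
        rw [← ENNReal.ofReal_lt_iff_lt_toReal hs0' (hgbt y)] at hsg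
        rw [← ENNReal.ofReal_lt_iff_lt_toReal hs0' (hmt _)]
        apply lt_min
        · calc ENNReal.ofReal s = ENNReal.ofReal s ^ ((1 - t) + t) := by
                rw [sub_add_cancel, ENNReal.rpow_one]
            _ = ENNReal.ofReal s ^ (1 - t) * ENNReal.ofReal s ^ t :=
                ENNReal.rpow_add_of_nonneg _ _ h1t.le ht0.le
            _ < (f x / a) ^ (1 - t) * (g y / b) ^ t :=
                ENNReal.mul_lt_mul (ENNReal.rpow_lt_rpow hsf h1t) (ENNReal.rpow_lt_rpow hsg ht0)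
            _ = f x ^ (1 - t) * g y ^ t / (a ^ (1 - t) * b ^ t) :=
                div_rpow_mul_div_rpow ht0 ht1 _ _ _ _ ha0 hat
            _ ≤ h ((1 - t) * x + t * y) / (a ^ (1 - t) * b ^ t) :=
                ENNReal.div_le_div_right (H x y) _
        · rw [← ENNReal.ofReal_one]
          exact (ENNReal.ofReal_lt_ofReal_iff one_pos).2 hs1)
  have e1 : ∫⁻ x, ENNReal.ofReal ((f x / a).toReal) = (∫⁻ x, f x) / a := by
    rw [div_eq_mul_inv, ← lintegral_mul_const' _ _ (ENNReal.inv_ne_top.2 ha0)]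
    apply lintegral_congr
    intro x
    rw [ENNReal.ofReal_toReal (hfat x), div_eq_mul_inv]
  have e2 : ∫⁻ x, ENNReal.ofReal ((g x / b).toReal) = (∫⁻ x, g x) / b := by
    rw [div_eq_mul_inv, ← lintegral_mul_const' _ _ (ENNReal.inv_ne_top.2 hb0)]
    apply lintegral_congr
    intro x
    rw [ENNReal.ofReal_toReal (hgbt x), div_eq_mul_inv]
  have e3 : ∫⁻ x, ENNReal.ofReal ((min (h x / (a ^ (1 - t) * b ^ t)) 1).toReal)
      ≤ (∫⁻ x, h x) / (a ^ (1 - t) * b ^ t) := by
    rw [div_eq_mul_inv, ← lintegral_mul_const' _ _ (ENNReal.inv_ne_top.2 hc0)]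
    apply lintegral_mono
    intro x
    simp only
    rw [ENNReal.ofReal_toReal (hmt x), ← div_eq_mul_inv]
    exact min_le_left _ _
  rw [e1, e2] at key
  have h2 := ((amgm ht0 ht1 _ _).trans key).trans e3
  rw [div_rpow_mul_div_rpow ht0 ht1 _ _ _ _ ha0 hat] at h2
  calc (∫⁻ x, f x) ^ (1 - t) * (∫⁻ x, g x) ^ t
      = (∫⁻ x, f x) ^ (1 - t) * (∫⁻ x, g x) ^ t / (a ^ (1 - t) * b ^ t) * (a ^ (1 - t) * b ^ t) :=
        (ENNReal.div_mul_cancel hc0 hct).symm
    _ ≤ (∫⁻ x, h x) / (a ^ (1 - t) * b ^ t) * (a ^ (1 - t) * b ^ t) := by gcongr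
    _ = ∫⁻ x, h x := ENNReal.div_mul_cancel hc0 hct

theorem pl_one_trunc {t : ℝ} (ht0 : 0 < t) (ht1 : t < 1) (f g h : ℝ → ℝ≥0∞) (hf : Measurable f)
    (hg : Measurable g) (hh : Measurable h)
    (H : ∀ x y, f x ^ (1 - t) * g y ^ t ≤ h ((1 - t) * x + t * y))
    (M N : ℝ≥0∞) (hM : M ≠ ∞) (hN : N ≠ ∞) :
    (∫⁻ x, min (f x) M) ^ (1 - t) * (∫⁻ x, min (g x) N) ^ t ≤ ∫⁻ x, h x := by
  have h1t : 0 < 1 - t := by linarith
  by_cases ha0 : (⨆ x, min (f x) M) = 0
  · have h0 : ∀ x, min (f x) M = 0 := fun x => by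
      have := le_iSup (fun x => min (f x) M) x
      rw [ha0] at this
      exact le_antisymm this bot_le
    simp only [h0, lintegral_zero, ENNReal.zero_rpow_of_pos h1t, zero_mul]
    exact bot_le
  by_cases hb0 : (⨆ x, min (g x) N) = 0
  · have h0 : ∀ x, min (g x) N = 0 := fun x => by
      have := le_iSup (fun x => min (g x) N) x
      rw [hb0] at this
      exact le_antisymm this bot_le
    simp only [h0, lintegral_zero, ENNReal.zero_rpow_of_pos ht0, mul_zero]
    exact bot_le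
  refine pl_one_bdd ht0 ht1 _ _ h (hf.min measurable_const) (hg.min measurable_const) hh ?_ _ _
    rfl rfl ha0 (ne_top_of_le_ne_top hM (iSup_le fun x => min_le_right _ _)) hb0
    (ne_top_of_le_ne_top hN (iSup_le fun x => min_le_right _ _))
  intro x y
  refine le_trans ?_ (H x y)
  exact mul_le_mul' (ENNReal.rpow_le_rpow (min_le_left _ _) h1t.le)
    (ENNReal.rpow_le_rpow (min_le_left _ _) ht0.le)

theorem lintegral_eq_iSup_min {α : Type*} [MeasurableSpace α] (μ : Measure α) (f : α → ℝ≥0∞)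
    (hf : Measurable f) : ∫⁻ x, f x ∂μ = ⨆ n : ℕ, ∫⁻ x, min (f x) (n : ℝ≥0∞) ∂μ := by
  rw [← lintegral_iSup (fun n => hf.min measurable_const)]
  · apply lintegral_congr
    intro x
    have h := inf_iSup_eq (f x) (fun n : ℕ => (n : ℝ≥0∞))
    rw [ENNReal.iSup_natCast, inf_top_eq] at h
    exact h
  · intro m n hmn x
    exact min_le_min le_rfl (by exact_mod_cast hmn)

theorem iSup_rpow {ι : Sort*} (A : ι → ℝ≥0∞) {p : ℝ} (hp : 0 < p) :
    (⨆ i, A i) ^ p = ⨆ i, A i ^ p :=
  (ENNReal.orderIsoRpow p hp).map_iSup A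

/-- The one-dimensional Prekopa-Leindler inequality. -/
theorem pl_one {t : ℝ} (ht0 : 0 < t) (ht1 : t < 1) (f g h : ℝ → ℝ≥0∞) (hf : Measurable f)
    (hg : Measurable g) (hh : Measurable h)
    (H : ∀ x y, f x ^ (1 - t) * g y ^ t ≤ h ((1 - t) * x + t * y)) :
    (∫⁻ x, f x) ^ (1 - t) * (∫⁻ x, g x) ^ t ≤ ∫⁻ x, h x := by
  have h1t : 0 < 1 - t := by linarith
  rw [lintegral_eq_iSup_min volume f hf, lintegral_eq_iSup_min volume g hg, iSup_rpow _ h1t,
    iSup_rpow _ ht0, ENNReal.iSup_mul]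
  refine iSup_le fun m => ?_
  rw [ENNReal.mul_iSup]
  refine iSup_le fun n => ?_
  exact pl_one_trunc ht0 ht1 f g h hf hg hh H _ _ (ENNReal.natCast_ne_top m)
    (ENNReal.natCast_ne_top n)

theorem measurable_cons_comp {n : ℕ} (F : (Fin (n + 1) → ℝ) → ℝ≥0∞) (hF : Measurable F) :
    Measurable (fun p : ℝ × (Fin n → ℝ) => F (Fin.cons p.1 p.2)) := by
  have h := hF.comp (MeasurableEquiv.piFinSuccAbove (fun _ : Fin (n + 1) => ℝ) 0).symm.measurable
  have e : (fun p : ℝ × (Fin n → ℝ) => F (Fin.cons p.1 p.2)) =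
      F ∘ (MeasurableEquiv.piFinSuccAbove (fun _ : Fin (n + 1) => ℝ) 0).symm := by
    funext p
    simp [MeasurableEquiv.piFinSuccAbove, Fin.insertNthEquiv, Fin.insertNth_zero']
  rw [e]
  exact h

theorem lintegral_fin_succ {n : ℕ} (F : (Fin (n + 1) → ℝ) → ℝ≥0∞) (hF : Measurable F) :
    ∫⁻ x, F x = ∫⁻ s : ℝ, ∫⁻ y : Fin n → ℝ, F (Fin.cons s y) := by
  have e := (volume_preserving_piFinSuccAbove (fun _ : Fin (n + 1) => ℝ) 0).symm
  rw [← e.lintegral_comp hF, Measure.volume_eq_prod, lintegral_prod]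
  · apply lintegral_congr
    intro s
    apply lintegral_congr
    intro y
    simp [MeasurableEquiv.piFinSuccAbove, Fin.insertNthEquiv, Fin.insertNth_zero']
  · exact (hF.comp (MeasurableEquiv.measurable _)).aemeasurable

theorem cons_combo {n : ℕ} (t s s' : ℝ) (y y' : Fin n → ℝ) :
    (1 - t) • (Fin.cons s y : Fin (n + 1) → ℝ) + t • (Fin.cons s' y' : Fin (n + 1) → ℝ) =
      Fin.cons ((1 - t) * s + t * s') ((1 - t) • y + t • y') := by
  funext i
  refine Fin.cases ?_ (fun j => ?_) i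
  · simp
  · simp

/-- The Prekopa-Leindler inequality on `Fin n → ℝ`. -/
theorem prekopa_leindler_pi {t : ℝ} (ht0 : 0 < t) (ht1 : t < 1) :
    ∀ (n : ℕ) (f g h : (Fin n → ℝ) → ℝ≥0∞), Measurable f → Measurable g → Measurable h →
    (∀ x y, f x ^ (1 - t) * g y ^ t ≤ h ((1 - t) • x + t • y)) →
    (∫⁻ x, f x) ^ (1 - t) * (∫⁻ x, g x) ^ t ≤ ∫⁻ x, h x := by
  intro n
  induction n with
  | zero =>
    intro f g h hf hg hh H
    have hv : ∀ F : (Fin 0 → ℝ) → ℝ≥0∞, ∫⁻ x, F x = F 0 := by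
      intro F
      rw [Measure.volume_pi_eq_dirac (0 : Fin 0 → ℝ), lintegral_dirac]
    rw [hv, hv, hv]
    have h0 := H 0 0
    simpa using h0
  | succ n ih =>
    intro f g h hf hg hh H
    rw [lintegral_fin_succ f hf, lintegral_fin_succ g hg, lintegral_fin_succ h hh]
    have mf := measurable_cons_comp f hf
    have mg := measurable_cons_comp g hg
    have mh := measurable_cons_comp h hh
    refine pl_one ht0 ht1 _ _ _ mf.lintegral_prod_right' mg.lintegral_prod_right'
      mh.lintegral_prod_right' ?_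
    intro s s'
    refine ih _ _ _ (mf.comp measurable_prodMk_left) (mg.comp measurable_prodMk_left)
      (mh.comp measurable_prodMk_left) ?_
    intro y y'
    have h0 := H (Fin.cons s y) (Fin.cons s' y')
    rw [cons_combo] at h0
    exact h0

/-- The Prekopa-Leindler inequality on `EuclideanSpace ℝ (Fin n)`. -/
theorem prekopa_leindler {t : ℝ} (ht0 : 0 < t) (ht1 : t < 1) {n : ℕ}
    (f g h : EuclideanSpace ℝ (Fin n) → ℝ≥0∞) (hf : Measurable f) (hg : Measurable g)
    (hh : Measurable h)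
    (H : ∀ x y, f x ^ (1 - t) * g y ^ t ≤ h ((1 - t) • x + t • y)) :
    (∫⁻ x, f x) ^ (1 - t) * (∫⁻ x, g x) ^ t ≤ ∫⁻ x, h x := by
  have e := PiLp.volume_preserving_toLp (Fin n)
  rw [← e.lintegral_comp hf, ← e.lintegral_comp hg, ← e.lintegral_comp hh]
  refine prekopa_leindler_pi ht0 ht1 n _ _ _ (hf.comp e.measurable) (hg.comp e.measurable)
    (hh.comp e.measurable) ?_
  intro x y
  have h0 := H (WithLp.toLp 2 x) (WithLp.toLp 2 y)
  simpa [WithLp.toLp_add, WithLp.toLp_smul] using h0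

/-- Multiplicative Brunn-Minkowski inequality for measurable sets. -/
theorem volume_rpow_mul_le {t : ℝ} (ht0 : 0 < t) (ht1 : t < 1) {n : ℕ}
    (A B C : Set (EuclideanSpace ℝ (Fin n))) (hA : MeasurableSet A) (hB : MeasurableSet B)
    (hC : MeasurableSet C) (H : ∀ x ∈ A, ∀ y ∈ B, (1 - t) • x + t • y ∈ C) :
    volume A ^ (1 - t) * volume B ^ t ≤ volume C := by
  have h1t : 0 < 1 - t := by linarith
  have h := prekopa_leindler ht0 ht1 (A.indicator 1) (B.indicator 1) (C.indicator 1)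
    (measurable_one.indicator hA) (measurable_one.indicator hB) (measurable_one.indicator hC) (by
      intro x y
      by_cases hx : x ∈ A
      · by_cases hy : y ∈ B
        · rw [indicator_of_mem hx, indicator_of_mem hy, indicator_of_mem (H x hx y hy)]
          simp
        · rw [indicator_of_notMem hy, ENNReal.zero_rpow_of_pos ht0, mul_zero]
          exact bot_le
      · rw [indicator_of_notMem hx, ENNReal.zero_rpow_of_pos h1t, zero_mul]
        exact bot_le)
  simpa [lintegral_indicator_one, hA, hB, hC] using h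

end Vale.Agent.P074.Third.PLGen
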