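import Vale.Agent.P074.Third.PL1Norm

open MeasureTheory Set
open scoped ENNReal NNReal Pointwise

namespace Vale.Agent.P074.Third

/-- Arithmetic-geometric mean inequality in `ℝ≥0∞`. -/
theorem amgm_ennreal (a b c : ℝ≥0∞) (h : a + b ≤ 2 * c) : a * b ≤ c ^ 2 := by
  by_cases hc : c = ⊤
  · simp [hc]
  have h2c : 2 * c ≠ ⊤ := ENNReal.mul_ne_top (by simp) hc
  have ha : a ≠ ⊤ := ne_top_of_le_ne_top h2c (le_trans le_self_add h)
  have hb : b ≠ ⊤ := ne_top_of_le_ne_top h2c (le_trans le_add_self h)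
  lift a to ℝ≥0 using ha
  lift b to ℝ≥0 using hb
  lift c to ℝ≥0 using hc
  have h' : (a : ℝ) + b ≤ 2 * c := by exact_mod_cast h
  have h3 : (a : ℝ) * b ≤ (c : ℝ) ^ 2 := by
    nlinarith [sq_nonneg ((a : ℝ) - b), a.2, b.2, c.2]
  exact_mod_cast h3

/-- One-dimensional Prékopa–Leindler for bounded `f`, `g`. -/
theorem pl_one_bounded (f g h : ℝ → ℝ≥0∞) (hf : Measurable f) (hg : Measurable g)
    (hh : Measurable h) (M : ℝ≥0) (hfM : ∀ x, f x ≤ M) (hgM : ∀ x, g x ≤ M)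
    (H : ∀ x y, f x * g y ≤ h ((1 / 2 : ℝ) • (x + y)) ^ 2) :
    (∫⁻ x, f x) * (∫⁻ x, g x) ≤ (∫⁻ x, h x) ^ 2 := by
  obtain ⟨F, hF⟩ : ∃ F, F = ⨆ x, f x := ⟨_, rfl⟩
  obtain ⟨G, hG⟩ : ∃ G, G = ⨆ x, g x := ⟨_, rfl⟩
  have hfF : ∀ x, f x ≤ F := fun x => hF ▸ le_iSup f x
  have hgG : ∀ x, g x ≤ G := fun x => hG ▸ le_iSup g x
  have hFtop : F ≠ ⊤ := ne_top_of_le_ne_top ENNReal.coe_ne_top (hF ▸ iSup_le hfM)
  have hGtop : G ≠ ⊤ := ne_top_of_le_ne_top ENNReal.coe_ne_top (hG ▸ iSup_le hgM)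
  by_cases hF0 : F = 0
  · have h0 : ∀ x, f x = 0 := fun x => le_antisymm (hF0 ▸ hfF x) bot_le
    simp [h0]
  by_cases hG0 : G = 0
  · have h0 : ∀ x, g x = 0 := fun x => le_antisymm (hG0 ▸ hgG x) bot_le
    simp [h0]
  obtain ⟨c, hc2⟩ : ∃ c : ℝ≥0∞, c ^ 2 = F * G := by
    refine ⟨(F * G) ^ (1 / 2 : ℝ), ?_⟩
    rw [← ENNReal.rpow_natCast, ← ENNReal.rpow_mul]
    norm_num
  have hFG0 : F * G ≠ 0 := mul_ne_zero hF0 hG0
  have hFGtop : F * G ≠ ⊤ := ENNReal.mul_ne_top hFtop hGtop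
  have hc0 : c ≠ 0 := by
    intro h0
    rw [h0] at hc2
    apply hFG0
    rw [← hc2]
    simp
  have hctop : c ≠ ⊤ := by
    intro h0
    rw [h0] at hc2
    apply hFGtop
    rw [← hc2]
    simp
  have sup_aux : ∀ (u : ℝ → ℝ≥0∞) (U : ℝ≥0∞), U = ⨆ x, u x → U ≠ 0 → U ≠ ⊤ →
      ∀ t : ℝ≥0∞, t < 1 → ∃ x, t < u x / U := by
    intro u U hU hU0 hUtop t ht
    have h1 : t * U < U := by
      calc t * U < 1 * U := (ENNReal.mul_lt_mul_iff_left hU0 hUtop).mpr ht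
        _ = U := one_mul U
    rw [hU] at h1
    obtain ⟨x, hx⟩ := lt_iSup_iff.mp (lt_of_lt_of_le h1 le_rfl)
    refine ⟨x, ?_⟩
    rw [ENNReal.lt_div_iff_mul_lt (Or.inl hU0) (Or.inl hUtop), hU]
    exact hx
  have key := pl_one_normalised (fun x => f x / F) (fun x => g x / G) (fun x => h x / c)
    (hf.div_const _) (hg.div_const _) (hh.div_const _)
    (fun x => le_trans (ENNReal.div_le_div_right (hfF x) F) ENNReal.div_self_le_one)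
    (fun x => le_trans (ENNReal.div_le_div_right (hgG x) G) ENNReal.div_self_le_one)
    (sup_aux f F hF hF0 hFtop) (sup_aux g G hG hG0 hGtop)
    (by
      intro x y
      have e1 : f x / F * (g y / G) = (f x * g y) * (F * G)⁻¹ := by
        rw [ENNReal.mul_inv (Or.inl hF0) (Or.inl hFtop), div_eq_mul_inv, div_eq_mul_inv]
        ring
      have e2 : (h ((1 / 2 : ℝ) • (x + y)) / c) ^ 2
          = h ((1 / 2 : ℝ) • (x + y)) ^ 2 * (F * G)⁻¹ := by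
        rw [div_eq_mul_inv, mul_pow, ← hc2, ENNReal.inv_pow]
      show f x / F * (g y / G) ≤ (h ((1 / 2 : ℝ) • (x + y)) / c) ^ 2
      rw [e1, e2]
      exact mul_le_mul_left (H x y) _)
  simp only [div_eq_mul_inv] at key
  rw [lintegral_mul_const _ hf, lintegral_mul_const _ hg, lintegral_mul_const _ hh] at key
  have key2 := amgm_ennreal _ _ _ key
  have eF : (∫⁻ x, f x) = (∫⁻ x, f x) * F⁻¹ * F := by
    rw [mul_assoc, ENNReal.inv_mul_cancel hF0 hFtop, mul_one]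
  have eG : (∫⁻ x, g x) = (∫⁻ x, g x) * G⁻¹ * G := by
    rw [mul_assoc, ENNReal.inv_mul_cancel hG0 hGtop, mul_one]
  have eH : (∫⁻ x, h x) = (∫⁻ x, h x) * c⁻¹ * c := by
    rw [mul_assoc, ENNReal.inv_mul_cancel hc0 hctop, mul_one]
  calc (∫⁻ x, f x) * (∫⁻ x, g x)
      = ((∫⁻ x, f x) * F⁻¹ * F) * ((∫⁻ x, g x) * G⁻¹ * G) := by rw [← eF, ← eG]
    _ = ((∫⁻ x, f x) * F⁻¹ * ((∫⁻ x, g x) * G⁻¹)) * (F * G) := by ring
    _ ≤ ((∫⁻ x, h x) * c⁻¹) ^ 2 * (F * G) := mul_le_mul_left key2 _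
    _ = ((∫⁻ x, h x) * c⁻¹ * c) ^ 2 := by rw [← hc2]; ring
    _ = (∫⁻ x, h x) ^ 2 := by rw [← eH]

end Vale.Agent.P074.Third
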