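import Vale.Agent.P074.Third.PLDefs
import Vale.Agent.P074.Third.PL1Bdd

open MeasureTheory Set
open scoped ENNReal NNReal Pointwise

namespace Vale.Agent.P074.Third

theorem iSup_min_natCast (a : ℝ≥0∞) : ⨆ n : ℕ, min a (n : ℝ≥0∞) = a := by
  apply le_antisymm (iSup_le fun n => min_le_left _ _)
  by_cases ha : a = ⊤
  · subst ha
    simp [ENNReal.iSup_natCast]
  · obtain ⟨n, hn⟩ := ENNReal.exists_nat_gt ha
    calc a = min a (n : ℝ≥0∞) := (min_eq_left hn.le).symm
      _ ≤ ⨆ n : ℕ, min a (n : ℝ≥0∞) := le_iSup (fun n : ℕ => min a (n : ℝ≥0∞)) n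

theorem lintegral_eq_iSup_min (f : ℝ → ℝ≥0∞) (hf : Measurable f) :
    ∫⁻ x, f x = ⨆ n : ℕ, ∫⁻ x, min (f x) (n : ℝ≥0∞) := by
  rw [← lintegral_iSup (fun n => hf.min measurable_const)]
  · simp_rw [iSup_min_natCast]
  · intro i j hij x
    exact min_le_min le_rfl (by exact_mod_cast hij)

/-- One-dimensional Prékopa–Leindler. -/
theorem pl_one : PLProp ℝ volume := by
  intro f g h hf hg hh H
  have key : ∀ n : ℕ, (∫⁻ x, min (f x) (n : ℝ≥0∞)) * (∫⁻ x, min (g x) (n : ℝ≥0∞))
      ≤ (∫⁻ x, h x) ^ 2 := by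
    intro n
    refine pl_one_bounded (fun x => min (f x) (n : ℝ≥0∞)) (fun x => min (g x) (n : ℝ≥0∞)) h
      (hf.min measurable_const) (hg.min measurable_const) hh (n : ℝ≥0) ?_ ?_ ?_
    · intro x
      simp
    · intro x
      simp
    · intro x y
      exact (mul_le_mul' (min_le_left _ _) (min_le_left _ _)).trans (H x y)
  rw [lintegral_eq_iSup_min f hf, lintegral_eq_iSup_min g hg]
  rw [ENNReal.iSup_mul]
  refine iSup_le fun i => ?_
  rw [ENNReal.mul_iSup]
  refine iSup_le fun j => ?_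
  refine le_trans ?_ (key (max i j))
  refine mul_le_mul' (lintegral_mono fun x => min_le_min le_rfl ?_)
    (lintegral_mono fun x => min_le_min le_rfl ?_)
  · exact_mod_cast le_max_left i j
  · exact_mod_cast le_max_right i j

end Vale.Agent.P074.Third
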