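import Vale.Agent.P074.Third.BM1

open MeasureTheory Set
open scoped ENNReal NNReal Pointwise

namespace Vale.Agent.P074.Third

/-- Layer cake formula for a measurable function with values in `[0, 1]`. -/
theorem lintegral_eq_layer (f : ℝ → ℝ≥0∞) (hf : Measurable f) (hf1 : ∀ x, f x ≤ 1) :
    (∫⁻ x, f x) = ∫⁻ t in Ioi (0 : ℝ), volume {a | ENNReal.ofReal t < f a} := by
  have hne : ∀ x, f x ≠ ⊤ := fun x => ne_top_of_le_ne_top ENNReal.one_ne_top (hf1 x)
  have h1 : (∫⁻ x, f x) = ∫⁻ x, ENNReal.ofReal ((f x).toReal) := by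
    apply lintegral_congr
    intro x
    rw [ENNReal.ofReal_toReal (hne x)]
  rw [h1, lintegral_eq_lintegral_meas_lt volume
    (Filter.Eventually.of_forall fun x => ENNReal.toReal_nonneg) hf.ennreal_toReal.aemeasurable]
  apply setLIntegral_congr_fun measurableSet_Ioi
  intro t ht
  have ht0 : (0 : ℝ) ≤ t := le_of_lt ht
  simp only
  congr 1
  ext a
  simp only [mem_ofPred_eq]
  exact (ENNReal.ofReal_lt_iff_lt_toReal ht0 (hne a)).symm

theorem measurable_layer (f : ℝ → ℝ≥0∞) :
    Measurable fun t : ℝ => volume {a | ENNReal.ofReal t < f a} := by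
  apply Antitone.measurable
  intro s t hst
  apply measure_mono
  intro a ha
  exact lt_of_le_of_lt (ENNReal.ofReal_le_ofReal hst) ha

/-- One-dimensional Prékopa–Leindler, normalised case `sup f = sup g = 1` (additive form). -/
theorem pl_one_normalised (f g h : ℝ → ℝ≥0∞) (hf : Measurable f) (hg : Measurable g)
    (hh : Measurable h) (hf1 : ∀ x, f x ≤ 1) (hg1 : ∀ x, g x ≤ 1)
    (hfs : ∀ t : ℝ≥0∞, t < 1 → ∃ x, t < f x) (hgs : ∀ t : ℝ≥0∞, t < 1 → ∃ x, t < g x)
    (H : ∀ x y, f x * g y ≤ h ((1 / 2 : ℝ) • (x + y)) ^ 2) :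
    (∫⁻ x, f x) + (∫⁻ x, g x) ≤ 2 * ∫⁻ x, h x := by
  set k : ℝ → ℝ≥0∞ := fun x => min (h x) 1 with hk
  have hkm : Measurable k := hh.min measurable_const
  have hk1 : ∀ x, k x ≤ 1 := fun x => min_le_right _ _
  have hkh : (∫⁻ x, k x) ≤ ∫⁻ x, h x := lintegral_mono fun x => min_le_left _ _
  have key : ∀ t ∈ Ioi (0 : ℝ), volume {a | ENNReal.ofReal t < f a}
      + volume {a | ENNReal.ofReal t < g a} ≤ 2 * volume {a | ENNReal.ofReal t < k a} := by
    intro t ht
    rcases le_or_gt 1 t with h1 | h1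
    · have hone : (1 : ℝ≥0∞) ≤ ENNReal.ofReal t := by
        rw [← ENNReal.ofReal_one]
        exact ENNReal.ofReal_le_ofReal h1
      have e1 : {a | ENNReal.ofReal t < f a} = ∅ := by
        ext a
        simp only [mem_ofPred_eq, mem_empty_iff_false, iff_false, not_lt]
        exact (hf1 a).trans hone
      have e2 : {a | ENNReal.ofReal t < g a} = ∅ := by
        ext a
        simp only [mem_ofPred_eq, mem_empty_iff_false, iff_false, not_lt]
        exact (hg1 a).trans hone
      rw [e1, e2]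
      simp
    · have hlt : ENNReal.ofReal t < 1 := by
        rw [← ENNReal.ofReal_one]
        exact (ENNReal.ofReal_lt_ofReal_iff one_pos).mpr h1
      set A : Set ℝ := {a | ENNReal.ofReal t < f a} with hA
      set B : Set ℝ := {a | ENNReal.ofReal t < g a} with hB
      have hAm : MeasurableSet A := measurableSet_lt measurable_const hf
      have hBm : MeasurableSet B := measurableSet_lt measurable_const hg
      have hA0 : A.Nonempty := hfs _ hlt
      have hB0 : B.Nonempty := hgs _ hlt
      have hbm := bm_one A B hAm hBm hA0 hB0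
      have hsub : (1 / 2 : ℝ) • (A + B) ⊆ {a | ENNReal.ofReal t < k a} := by
        rintro _ ⟨_, ⟨x, hx, y, hy, rfl⟩, rfl⟩
        simp only [mem_ofPred_eq, hk, lt_min_iff]
        refine ⟨?_, hlt⟩
        by_contra hcon
        push Not at hcon
        have h2 : f x * g y ≤ ENNReal.ofReal t ^ 2 :=
          (H x y).trans (pow_le_pow_left₀ zero_le hcon 2)
        have h3 : ENNReal.ofReal t * ENNReal.ofReal t < f x * g y := ENNReal.mul_lt_mul hx hy
        rw [sq] at h2
        exact absurd h2 (not_le.mpr h3)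
      have hsc : volume ((1 / 2 : ℝ) • (A + B)) = ENNReal.ofReal (1 / 2) * volume (A + B) := by
        rw [Measure.addHaar_smul]
        simp only [Module.finrank_self, pow_one]
        rw [abs_of_pos (by norm_num : (0 : ℝ) < 1 / 2)]
      have htwo : (2 : ℝ≥0∞) * ENNReal.ofReal (1 / 2) = 1 := by
        rw [show (2 : ℝ≥0∞) = ENNReal.ofReal 2 by simp, ← ENNReal.ofReal_mul (by norm_num)]
        norm_num
      calc volume A + volume B ≤ volume (A + B) := hbm
        _ = 2 * (ENNReal.ofReal (1 / 2) * volume (A + B)) := by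
            rw [← mul_assoc, htwo, one_mul]
        _ = 2 * volume ((1 / 2 : ℝ) • (A + B)) := by rw [hsc]
        _ ≤ 2 * volume {a | ENNReal.ofReal t < k a} := by
            gcongr
  calc (∫⁻ x, f x) + (∫⁻ x, g x)
      = (∫⁻ t in Ioi (0 : ℝ), volume {a | ENNReal.ofReal t < f a})
        + ∫⁻ t in Ioi (0 : ℝ), volume {a | ENNReal.ofReal t < g a} := by
        rw [lintegral_eq_layer f hf hf1, lintegral_eq_layer g hg hg1]
    _ = ∫⁻ t in Ioi (0 : ℝ), (volume {a | ENNReal.ofReal t < f a}
        + volume {a | ENNReal.ofReal t < g a}) := by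
        rw [lintegral_add_left (measurable_layer f)]
    _ ≤ ∫⁻ t in Ioi (0 : ℝ), 2 * volume {a | ENNReal.ofReal t < k a} :=
        setLIntegral_mono' measurableSet_Ioi key
    _ = 2 * ∫⁻ t in Ioi (0 : ℝ), volume {a | ENNReal.ofReal t < k a} := by
        rw [lintegral_const_mul' _ _ (by simp)]
    _ = 2 * ∫⁻ x, k x := by rw [lintegral_eq_layer k hkm hk1]
    _ ≤ 2 * ∫⁻ x, h x := by gcongr

end Vale.Agent.P074.Third
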