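import Vale.Agent.P074.Third.Cell
import Vale.Agent.P074.Third.CellPL
import Vale.Agent.P074.Third.CellInt



open MeasureTheory Set Metric
open scoped ENNReal NNReal

namespace Vale.Agent.P074.Third

variable {d : ℕ}


variable {ι : Type*} [Fintype ι] [Nonempty ι]

/-- `cell_pl` for the observable `1 / gw`: the Gaussian-mean of `1/gw` on a set `C` is
`vol C / ∫_C gw`. -/
theorem pl_omega_cell {K : Set (EuclideanSpace ℝ (Fin d))} {R : ℝ} (hK : Body K R) (y : ι → (EuclideanSpace ℝ (Fin d))) (c0 c1 : ι → ℝ) (k : ι)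
    (h0 : 0 < (volume (cell K y c0 k)).toReal) (h1 : 0 < (volume (cell K y c1 k)).toReal) :
    Real.sqrt ((∫ x in cell K y c0 k, gw (1 / (128 * R ^ 2)) x) *
        ∫ x in cell K y c1 k, gw (1 / (128 * R ^ 2)) x) *
      (1 + 4 * ((volume (cell K y c1 k)).toReal / (∫ x in cell K y c1 k, gw (1 / (128 * R ^ 2)) x)
        - (volume (cell K y c0 k)).toReal / ∫ x in cell K y c0 k, gw (1 / (128 * R ^ 2)) x) ^ 2)
      ≤ ∫ x in cell K y (fun j => (c0 j + c1 j) / 2) k, gw (1 / (128 * R ^ 2)) x := by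
  have hR : 0 < R := hK.pos
  have hcl : IsClosed K := hK.compact.isClosed
  set κ : ℝ := 1 / (128 * R ^ 2) with hκdef
  have hκ : 0 < κ := by positivity
  have m0 := measurableSet_cell K hcl y c0 k
  have m1 := measurableSet_cell K hcl y c1 k
  have mh := measurableSet_cell K hcl y (fun j => (c0 j + c1 j) / 2) k
  have b0 : ∀ x ∈ cell K y c0 k, ‖x‖ ≤ R := fun x hx => hK.bound x (cell_subset K y c0 k hx)
  have b1 : ∀ x ∈ cell K y c1 k, ‖x‖ ≤ R := fun x hx => hK.bound x (cell_subset K y c1 k hx)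
  have bh : ∀ x ∈ cell K y (fun j => (c0 j + c1 j) / 2) k, ‖x‖ ≤ R :=
    fun x hx => hK.bound x (cell_subset K y _ k hx)
  have hp : 0 < ∫ x in cell K y c0 k, gw κ x := by
    have := le_setIntegral_gw hK (cell K y c0 k) m0 (cell_subset K y c0 k)
    rw [← hκdef] at this
    linarith
  have hq : 0 < ∫ x in cell K y c1 k, gw κ x := by
    have := le_setIntegral_gw hK (cell K y c1 k) m1 (cell_subset K y c1 k)
    rw [← hκdef] at this
    linarith
  have key := cell_pl κ (1 / (64 * R)) R hκ (by positivity) (cell K y c0 k) (cell K y c1 k)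
    (cell K y (fun j => (c0 j + c1 j) / 2) k) m0 m1 mh b0 b1 bh
    (fun a ha b hb => midpoint_mem_cell K hK.convex y c0 c1 k a b ha hb)
    (fun x => (gw κ x)⁻¹) ((continuous_gw κ).inv₀ (fun x => (gw_pos κ x).ne'))
    (fun a ha b hb => inv_gw_lipschitz R hR a b (b0 a ha) (b1 b hb)) hp hq
  rw [setIntegral_inv_gw_mul, setIntegral_inv_gw_mul] at key
  have hconst : κ / (8 * (1 / (64 * R)) ^ 2) = 4 := by
    rw [hκdef]
    field_simp
    norm_num
  rw [hconst] at key
  exact key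

/-- `cell_pl` for the observable `<u, x> / gw`, `u` the direction of the displacement of the
normalised first moments. -/
theorem pl_moment_cell {K : Set (EuclideanSpace ℝ (Fin d))} {R : ℝ} (hK : Body K R) (y : ι → (EuclideanSpace ℝ (Fin d))) (c0 c1 : ι → ℝ) (k : ι)
    (h0 : 0 < (volume (cell K y c0 k)).toReal) (h1 : 0 < (volume (cell K y c1 k)).toReal) :
    Real.sqrt ((∫ x in cell K y c0 k, gw (1 / (128 * R ^ 2)) x) *
        ∫ x in cell K y c1 k, gw (1 / (128 * R ^ 2)) x) *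
      (1 + 1 / (9216 * R ^ 2) *
        ‖(∫ x in cell K y c1 k, gw (1 / (128 * R ^ 2)) x)⁻¹ • (∫ x in cell K y c1 k, x)
        - (∫ x in cell K y c0 k, gw (1 / (128 * R ^ 2)) x)⁻¹ • ∫ x in cell K y c0 k, x‖ ^ 2)
      ≤ ∫ x in cell K y (fun j => (c0 j + c1 j) / 2) k, gw (1 / (128 * R ^ 2)) x := by
  have hR : 0 < R := hK.pos
  have hcl : IsClosed K := hK.compact.isClosed
  set κ : ℝ := 1 / (128 * R ^ 2) with hκdef
  have hκ : 0 < κ := by positivity
  have m0 := measurableSet_cell K hcl y c0 k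
  have m1 := measurableSet_cell K hcl y c1 k
  have mh := measurableSet_cell K hcl y (fun j => (c0 j + c1 j) / 2) k
  have b0 : ∀ x ∈ cell K y c0 k, ‖x‖ ≤ R := fun x hx => hK.bound x (cell_subset K y c0 k hx)
  have b1 : ∀ x ∈ cell K y c1 k, ‖x‖ ≤ R := fun x hx => hK.bound x (cell_subset K y c1 k hx)
  have bh : ∀ x ∈ cell K y (fun j => (c0 j + c1 j) / 2) k, ‖x‖ ≤ R :=
    fun x hx => hK.bound x (cell_subset K y _ k hx)
  have hp : 0 < ∫ x in cell K y c0 k, gw κ x := by
    have := le_setIntegral_gw hK (cell K y c0 k) m0 (cell_subset K y c0 k)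
    rw [← hκdef] at this
    linarith
  have hq : 0 < ∫ x in cell K y c1 k, gw κ x := by
    have := le_setIntegral_gw hK (cell K y c1 k) m1 (cell_subset K y c1 k)
    rw [← hκdef] at this
    linarith
  set p := ∫ x in cell K y c0 k, gw κ x with hpdef
  set q := ∫ x in cell K y c1 k, gw κ x with hqdef
  set I0 : (EuclideanSpace ℝ (Fin d)) := ∫ x in cell K y c0 k, x with hI0
  set I1 : (EuclideanSpace ℝ (Fin d)) := ∫ x in cell K y c1 k, x with hI1
  set Δ : (EuclideanSpace ℝ (Fin d)) := q⁻¹ • I1 - p⁻¹ • I0 with hΔ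
  set u : (EuclideanSpace ℝ (Fin d)) := ‖Δ‖⁻¹ • Δ with hu
  have hu1 : ‖u‖ ≤ 1 := by
    rw [hu, norm_smul, norm_inv, norm_norm]
    by_cases hz : ‖Δ‖ = 0
    · rw [hz]; norm_num
    · rw [inv_mul_cancel₀ hz]
  have huΔ : inner ℝ u Δ = ‖Δ‖ := by
    rw [hu, real_inner_smul_left, real_inner_self_eq_norm_sq]
    by_cases hz : ‖Δ‖ = 0
    · rw [hz]; norm_num
    · field_simp
  have key := cell_pl κ 3 R hκ (by norm_num) (cell K y c0 k) (cell K y c1 k)
    (cell K y (fun j => (c0 j + c1 j) / 2) k) m0 m1 mh b0 b1 bh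
    (fun a ha b hb => midpoint_mem_cell K hK.convex y c0 c1 k a b ha hb)
    (fun x => inner ℝ u x * (gw κ x)⁻¹)
    ((continuous_const.inner continuous_id).mul
      ((continuous_gw κ).inv₀ (fun x => (gw_pos κ x).ne')))
    (fun a ha b hb => inner_inv_gw_lipschitz R hR u hu1 a b (b0 a ha) (b1 b hb)) hp hq
  rw [setIntegral_inner_inv_gw_mul hK κ u _ m0 (cell_subset K y c0 k),
    setIntegral_inner_inv_gw_mul hK κ u _ m1 (cell_subset K y c1 k)] at key
  rw [← hpdef, ← hqdef, ← hI0, ← hI1] at key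
  have hdisp : inner ℝ u I1 / q - inner ℝ u I0 / p = ‖Δ‖ := by
    rw [← huΔ, hΔ, inner_sub_right, real_inner_smul_right, real_inner_smul_right]
    ring
  rw [hdisp] at key
  have hconst : κ / (8 * (3 : ℝ) ^ 2) = 1 / (9216 * R ^ 2) := by
    rw [hκdef]
    field_simp
    norm_num
  rw [hconst] at key
  exact key

end Vale.Agent.P074.Third
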