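import Mathlib

open MeasureTheory Set
open scoped ENNReal NNReal Pointwise

namespace Vale.Agent.P074.Third

/-- The Prékopa–Leindler property (midpoint form) of a measure on a real vector space. -/
def PLProp (X : Type*) [AddCommGroup X] [Module ℝ X] [MeasurableSpace X] (μ : Measure X) : Prop :=
  ∀ f g h : X → ℝ≥0∞, Measurable f → Measurable g → Measurable h →
    (∀ x y, f x * g y ≤ h ((1 / 2 : ℝ) • (x + y)) ^ 2) →
    (∫⁻ x, f x ∂μ) * (∫⁻ x, g x ∂μ) ≤ (∫⁻ x, h x ∂μ) ^ 2

end Vale.Agent.P074.Third
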