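import Vale.Agent.P074.Third.PLPi

open MeasureTheory Set
open scoped ENNReal NNReal Pointwise

namespace Vale.Agent.P074.Third

/-- Prékopa–Leindler on the Euclidean space. -/
theorem pl_euclidean (d : ℕ) : PLProp (EuclideanSpace ℝ (Fin d)) volume := by
  refine PLProp.of_measurePreserving (X := Fin d → ℝ) (μ := volume)
    (fun x => WithLp.toLp 2 x) ?_ (PiLp.volume_preserving_toLp (Fin d)) (pl_pi d)
  intro x x'
  rfl

end Vale.Agent.P074.Third
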