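import Vale.Agent.P074.Third.PLDefs

open MeasureTheory Set
open scoped ENNReal NNReal Pointwise

namespace Vale.Agent.P074.Third

/-- Prékopa–Leindler tensorises. -/
theorem PLProp.prod {X Y : Type*} [AddCommGroup X] [Module ℝ X] [MeasurableSpace X]
    [AddCommGroup Y] [Module ℝ Y] [MeasurableSpace Y] {μ : Measure X} {ν : Measure Y}
    [SFinite μ] [SFinite ν] (hμ : PLProp X μ) (hν : PLProp Y ν) :
    PLProp (X × Y) (μ.prod ν) := by
  intro f g h hf hg hh hfgh
  rw [lintegral_prod _ hf.aemeasurable, lintegral_prod _ hg.aemeasurable,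
    lintegral_prod _ hh.aemeasurable]
  refine hμ (fun x => ∫⁻ y, f (x, y) ∂ν) (fun x => ∫⁻ y, g (x, y) ∂ν)
    (fun x => ∫⁻ y, h (x, y) ∂ν) hf.lintegral_prod_right' hg.lintegral_prod_right'
    hh.lintegral_prod_right' ?_
  intro x x'
  refine hν (fun y => f (x, y)) (fun y => g (x', y))
    (fun y => h ((1 / 2 : ℝ) • (x + x'), y)) (hf.comp measurable_prodMk_left)
    (hg.comp measurable_prodMk_left) (hh.comp measurable_prodMk_left) ?_
  intro y y'
  have := hfgh (x, y) (x', y')
  simpa using this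

/-- Prékopa–Leindler transfers along measure preserving maps which respect midpoints. -/
theorem PLProp.of_measurePreserving {X Y : Type*} [AddCommGroup X] [Module ℝ X]
    [MeasurableSpace X] [AddCommGroup Y] [Module ℝ Y] [MeasurableSpace Y] {μ : Measure X}
    {ν : Measure Y} (e : X → Y)
    (hmid : ∀ x x', e ((1 / 2 : ℝ) • (x + x')) = (1 / 2 : ℝ) • (e x + e x'))
    (hmp : MeasurePreserving e μ ν) (hμ : PLProp X μ) : PLProp Y ν := by
  intro f g h hf hg hh hfgh
  rw [← hmp.lintegral_comp hf, ← hmp.lintegral_comp hg, ← hmp.lintegral_comp hh]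
  refine hμ (fun x => f (e x)) (fun x => g (e x)) (fun x => h (e x))
    (hf.comp hmp.measurable) (hg.comp hmp.measurable) (hh.comp hmp.measurable) ?_
  intro x x'
  rw [hmid]
  exact hfgh (e x) (e x')

end Vale.Agent.P074.Third
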