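import Vale.Agent.P074.Third.PL1
import Vale.Agent.P074.Third.PLProd

open MeasureTheory Set
open scoped ENNReal NNReal Pointwise

namespace Vale.Agent.P074.Third

/-- Prékopa–Leindler on `ℝ^n`. -/
theorem pl_pi (n : ℕ) : PLProp (Fin n → ℝ) volume := by
  induction n with
  | zero =>
    intro f g h hf hg hh H
    have hv : (volume : Measure (Fin 0 → ℝ)) = Measure.dirac 0 := by
      rw [volume_pi]
      exact Measure.pi_of_empty _ 0
    rw [hv, lintegral_dirac, lintegral_dirac, lintegral_dirac]
    have h0 := H 0 0
    have e : (1 / 2 : ℝ) • ((0 : Fin 0 → ℝ) + 0) = 0 := Subsingleton.elim _ _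
    rw [e] at h0
    exact h0
  | succ n ih =>
    have hprod : PLProp (ℝ × (Fin n → ℝ)) (volume.prod volume) := PLProp.prod pl_one ih
    refine PLProp.of_measurePreserving
      (MeasurableEquiv.piFinSuccAbove (fun _ : Fin (n + 1) => ℝ) 0).symm ?_ ?_ hprod
    · intro x x'
      funext i
      refine Fin.cases ?_ (fun j => ?_) i
      · simp [MeasurableEquiv.piFinSuccAbove_symm_apply]
        ring
      · simp [MeasurableEquiv.piFinSuccAbove_symm_apply]
        ring
    · exact (volume_preserving_piFinSuccAbove (fun _ : Fin (n + 1) => ℝ) 0).symm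

end Vale.Agent.P074.Third
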