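import Vale.Agent.P074.Third.Fuzzy

open MeasureTheory Set Metric
open scoped ENNReal NNReal

namespace Vale.Agent.P074.Third

variable {d : ℕ}


/-- Translation invariance for functions supported where both `x` and `x + v` lie in `K`. -/
theorem setIntegral_shift {G : Type*} [NormedAddCommGroup G] [NormedSpace ℝ G] (K : Set (EuclideanSpace ℝ (Fin d)))
    (hK : MeasurableSet K) (v : (EuclideanSpace ℝ (Fin d))) (F : (EuclideanSpace ℝ (Fin d)) → G) (hF : ∀ x, F x ≠ 0 → x ∈ K ∧ x + v ∈ K) :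
    ∫ x in K, F (x - v) = ∫ x in K, F x := by
  have h1 : ∫ x in K, F x = ∫ x, F x := by
    apply setIntegral_eq_integral_of_forall_compl_eq_zero
    intro x hx
    by_contra h
    exact hx (hF x h).1
  have h2 : ∫ x in K, F (x - v) = ∫ x, F (x - v) := by
    apply setIntegral_eq_integral_of_forall_compl_eq_zero
    intro x hx
    by_contra h
    have := (hF (x - v) h).2
    rw [sub_add_cancel] at this
    exact hx this
  rw [h1, h2]
  exact integral_sub_right_eq_self F v

/-- Bounded measurable real functions are integrable on a body. -/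
theorem integrableOn_of_bdd {K : Set (EuclideanSpace ℝ (Fin d))} {R : ℝ} (hK : Body K R) (f : (EuclideanSpace ℝ (Fin d)) → ℝ) (hf : Measurable f)
    (M : ℝ) (hM : ∀ x ∈ K, |f x| ≤ M) : IntegrableOn f K := by
  have hfin : volume K ≠ ⊤ := hK.compact.measure_lt_top.ne
  refine Measure.integrableOn_of_bounded (M := M) hfin hf.aestronglyMeasurable ?_
  filter_upwards [ae_restrict_mem hK.compact.measurableSet] with x hx
  simpa [Real.norm_eq_abs] using hM x hx

/-- The perturbed density `1 + θ(x - v) - θ(x)` is an admissible weight. -/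
theorem weight_shift {K : Set (EuclideanSpace ℝ (Fin d))} {R : ℝ} (hK : Body K R) (θ : (EuclideanSpace ℝ (Fin d)) → ℝ) (hθm : Measurable θ)
    (hθ0 : ∀ x, 0 ≤ θ x) (hθ1 : ∀ x, θ x ≤ 1 / 2) (v : (EuclideanSpace ℝ (Fin d)))
    (hθK : ∀ x, θ x ≠ 0 → x ∈ K ∧ x + v ∈ K) :
    Weight K (fun x => 1 + θ (x - v) - θ x) := by
  have hfin : volume K ≠ ⊤ := hK.compact.measure_lt_top.ne
  have hm' : Measurable (fun x : (EuclideanSpace ℝ (Fin d)) => θ (x - v)) := hθm.comp (measurable_id.sub_const v)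
  have hi1 : IntegrableOn θ K := integrableOn_of_bdd hK θ hθm (1 / 2)
    (fun x _ => by rw [abs_of_nonneg (hθ0 x)]; exact hθ1 x)
  have hi2 : IntegrableOn (fun x : (EuclideanSpace ℝ (Fin d)) => θ (x - v)) K := integrableOn_of_bdd hK _ hm' (1 / 2)
    (fun x _ => by rw [abs_of_nonneg (hθ0 _)]; exact hθ1 _)
  have hc : IntegrableOn (fun _ : (EuclideanSpace ℝ (Fin d)) => (1 : ℝ)) K := integrableOn_const hfin
  refine ⟨?_, ?_, ?_, ?_⟩
  · exact (measurable_const.add hm').sub hθm
  · intro x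
    have := hθ0 (x - v); have := hθ1 x
    linarith
  · intro x
    have := hθ1 (x - v); have := hθ0 x
    linarith
  · have hs := setIntegral_shift K hK.compact.measurableSet v θ hθK
    have hA : ∫ x in K, (1 + θ (x - v) - θ x)
        = (∫ x in K, (1 + θ (x - v))) - ∫ x in K, θ x :=
      integral_sub (f := fun x => 1 + θ (x - v)) (hc.add hi2) hi1
    have hB : ∫ x in K, (1 + θ (x - v)) = (∫ _x in K, (1 : ℝ)) + ∫ x in K, θ (x - v) :=
      integral_add (f := fun _ => (1 : ℝ)) hc hi2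
    rw [hA, hB, hs]
    simp [Measure.real]

theorem shift_sq_le {K : Set (EuclideanSpace ℝ (Fin d))} {R : ℝ} (hK : Body K R) (θ : (EuclideanSpace ℝ (Fin d)) → ℝ) (hθm : Measurable θ)
    (hθ0 : ∀ x, 0 ≤ θ x) (hθ1 : ∀ x, θ x ≤ 1 / 2) (v : (EuclideanSpace ℝ (Fin d)))
    (hθK : ∀ x, θ x ≠ 0 → x ∈ K ∧ x + v ∈ K) :
    ∫ x in K, ((1 + θ (x - v) - θ x) - 1) ^ 2 ≤ 4 * ∫ x in K, θ x ^ 2 := by
  have hm' : Measurable (fun x : (EuclideanSpace ℝ (Fin d)) => θ (x - v)) := hθm.comp (measurable_id.sub_const v)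
  have hsq : ∀ y : (EuclideanSpace ℝ (Fin d)), |θ y ^ 2| ≤ 1 := by
    intro y
    have h0 := hθ0 y; have h1 := hθ1 y
    rw [abs_of_nonneg (by positivity)]
    nlinarith
  have hi1 : IntegrableOn (fun x => θ x ^ 2) K := integrableOn_of_bdd hK _ (hθm.pow_const 2) 1
    (fun x _ => hsq x)
  have hi2 : IntegrableOn (fun x : (EuclideanSpace ℝ (Fin d)) => θ (x - v) ^ 2) K :=
    integrableOn_of_bdd hK _ (hm'.pow_const 2) 1 (fun x _ => hsq _)
  have hs := setIntegral_shift K hK.compact.measurableSet v (fun x => θ x ^ 2) (by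
    intro x hx
    apply hθK x
    intro h
    apply hx
    simp [h])
  have hi3 : IntegrableOn (fun x : (EuclideanSpace ℝ (Fin d)) => ((1 + θ (x - v) - θ x) - 1) ^ 2) K := by
    refine integrableOn_of_bdd hK _ ?_ 1 ?_
    · exact ((((measurable_const.add hm').sub hθm).sub_const 1).pow_const 2)
    · intro x _
      have h0 := hθ0 x; have h1 := hθ1 x; have h2 := hθ0 (x - v); have h3 := hθ1 (x - v)
      rw [abs_of_nonneg (by positivity)]
      nlinarith
  calc ∫ x in K, ((1 + θ (x - v) - θ x) - 1) ^ 2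
      ≤ ∫ x in K, (2 * θ (x - v) ^ 2 + 2 * θ x ^ 2) := by
        refine integral_mono hi3 ((hi2.const_mul 2).add (hi1.const_mul 2)) (fun x => ?_)
        show ((1 + θ (x - v) - θ x) - 1) ^ 2 ≤ 2 * θ (x - v) ^ 2 + 2 * θ x ^ 2
        nlinarith [sq_nonneg (θ (x - v) + θ x)]
    _ = 4 * ∫ x in K, θ x ^ 2 := by
        rw [integral_add (hi2.const_mul 2) (hi1.const_mul 2), integral_const_mul,
          integral_const_mul, hs]
        ring

theorem shift_integral_mul {K : Set (EuclideanSpace ℝ (Fin d))} {R : ℝ} (hK : Body K R) (θ : (EuclideanSpace ℝ (Fin d)) → ℝ) (hθm : Measurable θ)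
    (hθ0 : ∀ x, 0 ≤ θ x) (hθ1 : ∀ x, θ x ≤ 1 / 2) (v : (EuclideanSpace ℝ (Fin d)))
    (hθK : ∀ x, θ x ≠ 0 → x ∈ K ∧ x + v ∈ K) (ψ : (EuclideanSpace ℝ (Fin d)) → ℝ) (hψ : Continuous ψ) :
    ∫ x in K, ψ x * (1 + θ (x - v) - θ x)
      = (∫ x in K, ψ x) + ∫ x in K, θ x * (ψ (x + v) - ψ x) := by
  have hm' : Measurable (fun x : (EuclideanSpace ℝ (Fin d)) => θ (x - v)) := hθm.comp (measurable_id.sub_const v)
  obtain ⟨M, hM⟩ := hK.compact.exists_bound_of_continuousOn hψ.continuousOn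
  have hM' : ∀ x ∈ K, |ψ x| ≤ M := fun x hx => by simpa [Real.norm_eq_abs] using hM x hx
  have hψm : Measurable ψ := hψ.measurable
  have hψm' : Measurable (fun x : (EuclideanSpace ℝ (Fin d)) => ψ (x + v)) := hψm.comp (measurable_id.add_const v)
  have hiψ : IntegrableOn ψ K := integrableOn_of_bdd hK ψ hψm M hM'
  have hbd : ∀ (a b : ℝ), 0 ≤ a → a ≤ 1 / 2 → |b| ≤ M → |a * b| ≤ M := by
    intro a b ha0 ha1 hb
    rw [abs_mul, abs_of_nonneg ha0]
    have : 0 ≤ |b| := abs_nonneg b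
    nlinarith
  have hM0 : ∀ x ∈ K, 0 ≤ M := fun x hx => le_trans (abs_nonneg _) (hM' x hx)
  -- the three products
  have hi1 : IntegrableOn (fun x => θ x * ψ x) K :=
    integrableOn_of_bdd hK _ (hθm.mul hψm) M (fun x hx => hbd _ _ (hθ0 x) (hθ1 x) (hM' x hx))
  have hi2 : IntegrableOn (fun x : (EuclideanSpace ℝ (Fin d)) => θ (x - v) * ψ x) K :=
    integrableOn_of_bdd hK _ (hm'.mul hψm) M (fun x hx => hbd _ _ (hθ0 _) (hθ1 _) (hM' x hx))
  have hi3 : IntegrableOn (fun x : (EuclideanSpace ℝ (Fin d)) => θ x * ψ (x + v)) K := by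
    refine integrableOn_of_bdd hK _ (hθm.mul hψm') M (fun x hx => ?_)
    by_cases h : θ x = 0
    · simp [h, hM0 x hx]
    · exact hbd _ _ (hθ0 x) (hθ1 x) (hM' _ (hθK x h).2)
  have hs := setIntegral_shift K hK.compact.measurableSet v (fun x => θ x * ψ (x + v)) (by
    intro x hx
    apply hθK x
    intro h
    apply hx
    simp [h])
  simp only [sub_add_cancel] at hs
  have e1 : ∀ x, ψ x * (1 + θ (x - v) - θ x) = ψ x + θ (x - v) * ψ x - θ x * ψ x := by
    intro x; ring
  have e2 : ∀ x, θ x * (ψ (x + v) - ψ x) = θ x * ψ (x + v) - θ x * ψ x := by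
    intro x; ring
  simp only [e1, e2]
  have hA : ∫ x in K, (ψ x + θ (x - v) * ψ x - θ x * ψ x)
      = (∫ x in K, (ψ x + θ (x - v) * ψ x)) - ∫ x in K, θ x * ψ x :=
    integral_sub (f := fun x => ψ x + θ (x - v) * ψ x) (hiψ.add hi2) hi1
  have hB : ∫ x in K, (ψ x + θ (x - v) * ψ x) = (∫ x in K, ψ x) + ∫ x in K, θ (x - v) * ψ x :=
    integral_add hiψ hi2
  have hC : ∫ x in K, (θ x * ψ (x + v) - θ x * ψ x)
      = (∫ x in K, θ x * ψ (x + v)) - ∫ x in K, θ x * ψ x :=
    integral_sub hi3 hi1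
  rw [hA, hB, hC, hs]
  ring

/-- A bump `θ` with values in `[0, 1/2]`, living on `K ∩ (K - v)`. -/
structure Bump (K : Set (EuclideanSpace ℝ (Fin d))) (θ : EuclideanSpace ℝ (Fin d) → ℝ)
    (v : EuclideanSpace ℝ (Fin d)) : Prop where
  meas : Measurable θ
  nonneg : ∀ x, 0 ≤ θ x
  le_half : ∀ x, θ x ≤ 1 / 2
  supp : ∀ x, θ x ≠ 0 → x ∈ K ∧ x + v ∈ K

/-- The density obtained from the constant density `1` by moving the mass `θ` by the vector `v`. -/
def shiftW (θ : EuclideanSpace ℝ (Fin d) → ℝ) (v x : EuclideanSpace ℝ (Fin d)) : ℝ :=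
  1 + θ (x - v) - θ x

/-- Change of variables `x ↦ x - v` for functions carried by the bump. -/
theorem integral_shift {K : Set (EuclideanSpace ℝ (Fin d))} {θ : EuclideanSpace ℝ (Fin d) → ℝ}
    {v : EuclideanSpace ℝ (Fin d)} (hθ : Bump K θ v) {G : Type*} [NormedAddCommGroup G]
    [NormedSpace ℝ G] (F : EuclideanSpace ℝ (Fin d) → G) :
    ∫ x in K, θ (x - v) • F (x - v) = ∫ x in K, θ x • F x := by
  rw [setIntegral_eq_integral_of_forall_compl_eq_zero, setIntegral_eq_integral_of_forall_compl_eq_zero]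
  · exact integral_sub_right_eq_self (fun x => θ x • F x) v
  · intro x hx
    by_cases h : θ x = 0
    · rw [h, zero_smul]
    · exact absurd (hθ.supp x h).1 hx
  · intro x hx
    by_cases h : θ (x - v) = 0
    · rw [h, zero_smul]
    · have := (hθ.supp (x - v) h).2
      rw [sub_add_cancel] at this
      exact absurd this hx

theorem Bump.abs_le {K : Set (EuclideanSpace ℝ (Fin d))}
    {θ : EuclideanSpace ℝ (Fin d) → ℝ} {v : EuclideanSpace ℝ (Fin d)} (hθ : Bump K θ v)
    (x : EuclideanSpace ℝ (Fin d)) : ‖θ x‖ ≤ 1 / 2 := by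
  rw [Real.norm_eq_abs, abs_of_nonneg (hθ.nonneg x)]
  exact hθ.le_half x

theorem Bump.meas_shift {K : Set (EuclideanSpace ℝ (Fin d))}
    {θ : EuclideanSpace ℝ (Fin d) → ℝ} {v : EuclideanSpace ℝ (Fin d)} (hθ : Bump K θ v) :
    Measurable (fun x => θ (x - v)) :=
  hθ.meas.comp (measurable_id.sub_const v)

/-- `θ • F` is integrable on `K` for bounded measurable `F`. -/
theorem Bump.integrableOn {K : Set (EuclideanSpace ℝ (Fin d))} {R : ℝ} (hK : Body K R)
    {θ : EuclideanSpace ℝ (Fin d) → ℝ} {v : EuclideanSpace ℝ (Fin d)} (hθ : Bump K θ v)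
    {G : Type*} [NormedAddCommGroup G] [NormedSpace ℝ G] (F : EuclideanSpace ℝ (Fin d) → G)
    (hF : AEStronglyMeasurable F (volume.restrict K)) (M : ℝ) (hM : ∀ x ∈ K, ‖F x‖ ≤ M) :
    IntegrableOn (fun x => θ x • F x) K := by
  have : IsFiniteMeasure (volume.restrict K) :=
    ⟨by rw [Measure.restrict_apply_univ]; exact hK.compact.measure_lt_top⟩
  refine Integrable.of_bound
    ((hθ.meas.aestronglyMeasurable (μ := volume.restrict K)).smul hF) (1 / 2 * M) ?_
  refine ae_restrict_of_forall_mem hK.compact.measurableSet ?_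
  intro x hx
  rw [norm_smul]
  exact mul_le_mul (hθ.abs_le x) (hM x hx) (norm_nonneg _) (by norm_num)

/-- `θ (· - v) • F` is integrable on `K` for bounded measurable `F`. -/
theorem Bump.integrableOn_shift {K : Set (EuclideanSpace ℝ (Fin d))} {R : ℝ} (hK : Body K R)
    {θ : EuclideanSpace ℝ (Fin d) → ℝ} {v : EuclideanSpace ℝ (Fin d)} (hθ : Bump K θ v)
    {G : Type*} [NormedAddCommGroup G] [NormedSpace ℝ G] (F : EuclideanSpace ℝ (Fin d) → G)
    (hF : AEStronglyMeasurable F (volume.restrict K)) (M : ℝ) (hM : ∀ x ∈ K, ‖F x‖ ≤ M) :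
    IntegrableOn (fun x => θ (x - v) • F x) K := by
  have : IsFiniteMeasure (volume.restrict K) :=
    ⟨by rw [Measure.restrict_apply_univ]; exact hK.compact.measure_lt_top⟩
  refine Integrable.of_bound
    ((hθ.meas_shift.aestronglyMeasurable (μ := volume.restrict K)).smul hF) (1 / 2 * M) ?_
  refine ae_restrict_of_forall_mem hK.compact.measurableSet ?_
  intro x hx
  rw [norm_smul]
  exact mul_le_mul (hθ.abs_le (x - v)) (hM x hx) (norm_nonneg _) (by norm_num)

theorem Bump.integrableOn_self {K : Set (EuclideanSpace ℝ (Fin d))} {R : ℝ} (hK : Body K R)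
    {θ : EuclideanSpace ℝ (Fin d) → ℝ} {v : EuclideanSpace ℝ (Fin d)} (hθ : Bump K θ v) :
    IntegrableOn θ K := by
  have h := hθ.integrableOn hK (fun _ => (1 : ℝ)) aestronglyMeasurable_const 1
    (fun _ _ => by simp)
  simpa using h

theorem Bump.integrableOn_self_shift {K : Set (EuclideanSpace ℝ (Fin d))} {R : ℝ} (hK : Body K R)
    {θ : EuclideanSpace ℝ (Fin d) → ℝ} {v : EuclideanSpace ℝ (Fin d)} (hθ : Bump K θ v) :
    IntegrableOn (fun x => θ (x - v)) K := by
  have h := hθ.integrableOn_shift hK (fun _ => (1 : ℝ)) aestronglyMeasurable_const 1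
    (fun _ _ => by simp)
  simpa using h

theorem weight_shiftW {K : Set (EuclideanSpace ℝ (Fin d))} {R : ℝ} (hK : Body K R)
    {θ : EuclideanSpace ℝ (Fin d) → ℝ} {v : EuclideanSpace ℝ (Fin d)} (hθ : Bump K θ v) :
    Weight K (shiftW θ v) := by
  refine ⟨?_, ?_, ?_, ?_⟩
  · unfold shiftW
    exact (measurable_const.add hθ.meas_shift).sub hθ.meas
  · intro x
    unfold shiftW
    have h1 := hθ.nonneg (x - v)
    have h2 := hθ.le_half x
    linarith
  · intro x
    unfold shiftW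
    have h1 := hθ.nonneg x
    have h2 := hθ.le_half (x - v)
    linarith
  · unfold shiftW
    have hc : IntegrableOn (fun _ : EuclideanSpace ℝ (Fin d) => (1 : ℝ)) K :=
      integrableOn_const hK.compact.measure_lt_top.ne
    have hs := integral_shift hθ (fun _ => (1 : ℝ))
    simp only [smul_eq_mul, mul_one] at hs
    have hadd : IntegrableOn (fun x => 1 + θ (x - v)) K :=
      hc.add (hθ.integrableOn_self_shift hK)
    rw [integral_sub hadd (hθ.integrableOn_self hK),
      integral_add hc (hθ.integrableOn_self_shift hK), hs]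
    simp [Measure.real]

theorem integral_sq_shiftW_le {K : Set (EuclideanSpace ℝ (Fin d))} {R : ℝ} (hK : Body K R)
    {θ : EuclideanSpace ℝ (Fin d) → ℝ} {v : EuclideanSpace ℝ (Fin d)} (hθ : Bump K θ v) :
    ∫ x in K, (shiftW θ v x - 1) ^ 2 ≤ 4 * ∫ x in K, θ x ^ 2 := by
  have i1 : IntegrableOn (fun x => θ x ^ 2) K := by
    have h := hθ.integrableOn hK θ hθ.meas.aestronglyMeasurable (1 / 2) (fun x _ => hθ.abs_le x)
    simpa [sq] using h
  have i2 : IntegrableOn (fun x => θ (x - v) ^ 2) K := by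
    have h := hθ.integrableOn_shift hK (fun x => θ (x - v)) hθ.meas_shift.aestronglyMeasurable
      (1 / 2) (fun x _ => hθ.abs_le (x - v))
    simpa [sq] using h
  have hs : ∫ x in K, θ (x - v) ^ 2 = ∫ x in K, θ x ^ 2 := by
    have h := integral_shift hθ θ
    simpa [sq] using h
  have i3 : IntegrableOn (fun x => (shiftW θ v x - 1) ^ 2) K := by
    refine Measure.integrableOn_of_bounded (M := 1) hK.compact.measure_lt_top.ne ?_ ?_
    · exact (((weight_shiftW hK hθ).meas.sub_const 1).pow_const 2).aestronglyMeasurable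
    · refine ae_of_all _ ?_
      intro x
      have h1 := (weight_shiftW hK hθ).lo x
      have h2 := (weight_shiftW hK hθ).hi x
      rw [Real.norm_eq_abs, abs_of_nonneg (sq_nonneg _)]
      nlinarith
  calc ∫ x in K, (shiftW θ v x - 1) ^ 2
      ≤ ∫ x in K, (2 * θ (x - v) ^ 2 + 2 * θ x ^ 2) := by
        refine setIntegral_mono i3 ((i2.const_mul 2).add (i1.const_mul 2)) ?_
        intro x
        simp only [shiftW]
        nlinarith [sq_nonneg (θ (x - v) + θ x)]
    _ = 2 * (∫ x in K, θ (x - v) ^ 2) + 2 * (∫ x in K, θ x ^ 2) := by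
        rw [integral_add (i2.const_mul 2) (i1.const_mul 2), integral_const_mul,
          integral_const_mul]
    _ = 4 * ∫ x in K, θ x ^ 2 := by rw [hs]; ring

theorem integral_mul_shiftW {K : Set (EuclideanSpace ℝ (Fin d))} {R : ℝ} (hK : Body K R)
    {θ : EuclideanSpace ℝ (Fin d) → ℝ} {v : EuclideanSpace ℝ (Fin d)} (hθ : Bump K θ v)
    (ψ : EuclideanSpace ℝ (Fin d) → ℝ) (hψ : Continuous ψ) :
    ∫ x in K, ψ x * shiftW θ v x
      = (∫ x in K, ψ x) + ∫ x in K, θ x * (ψ (x + v) - ψ x) := by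
  obtain ⟨C, hC⟩ := hK.compact.exists_bound_of_continuousOn hψ.continuousOn
  have hψv : Continuous (fun x => ψ (x + v)) := hψ.comp (continuous_id.add continuous_const)
  obtain ⟨C', hC'⟩ := hK.compact.exists_bound_of_continuousOn hψv.continuousOn
  have j0 : IntegrableOn ψ K := hψ.continuousOn.integrableOn_compact hK.compact
  have j1 : IntegrableOn (fun x => θ x * ψ x) K :=
    hθ.integrableOn hK ψ hψ.aestronglyMeasurable C hC
  have j2 : IntegrableOn (fun x => θ (x - v) * ψ x) K :=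
    hθ.integrableOn_shift hK ψ hψ.aestronglyMeasurable C hC
  have j3 : IntegrableOn (fun x => θ x * ψ (x + v)) K :=
    hθ.integrableOn hK (fun x => ψ (x + v)) hψv.aestronglyMeasurable C' hC'
  have hs : ∫ x in K, θ (x - v) * ψ x = ∫ x in K, θ x * ψ (x + v) := by
    have h := integral_shift hθ (fun u => ψ (u + v))
    simpa using h
  have e1 : ∀ x, ψ x * shiftW θ v x = ψ x + θ (x - v) * ψ x - θ x * ψ x := by
    intro x; unfold shiftW; ring
  have e2 : ∀ x, θ x * (ψ (x + v) - ψ x) = θ x * ψ (x + v) - θ x * ψ x := by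
    intro x; ring
  simp only [e1, e2]
  have j4 : IntegrableOn (fun x => ψ x + θ (x - v) * ψ x) K := j0.add j2
  rw [integral_sub j4 j1, integral_add j0 j2, integral_sub j3 j1, hs]
  ring

/-- The zero bump. -/
theorem bump_zero (K : Set (EuclideanSpace ℝ (Fin d))) :
    Bump K (fun _ => (0 : ℝ)) (0 : EuclideanSpace ℝ (Fin d)) := by
  refine ⟨measurable_const, fun _ => le_rfl, fun _ => by norm_num, ?_⟩
  intro x hx
  exact absurd rfl hx

theorem shiftW_zero :
    shiftW (fun _ : EuclideanSpace ℝ (Fin d) => (0 : ℝ)) (0 : EuclideanSpace ℝ (Fin d))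
      = fun _ => (1 : ℝ) := by
  funext x
  simp [shiftW]

end Vale.Agent.P074.Third
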